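import Mathlib

/-!
Turing degrees of sets of natural numbers, built on Mathlib's oracle computability
(`RecursiveIn`, `TuringReducible`), and automorphisms of the degree ordering.
-/

namespace Vale.Agent.Lib.P327

open Classical in
/-- The characteristic function of a set of natural numbers. -/
noncomputable def chi (A : Set ℕ) (n : ℕ) : ℕ := if n ∈ A then 1 else 0

/-- `TLe A B` : the set `A` is Turing reducible to the set `B`, i.e. the characteristic
function of `A` is recursive in the characteristic function of `B` (Mathlib's `TuringReducible`). -/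
def TLe (A B : Set ℕ) : Prop :=
  TuringReducible (fun n => Part.some (chi A n)) (fun n => Part.some (chi B n))

theorem TLe.refl (A : Set ℕ) : TLe A A := TuringReducible.refl _

theorem TLe.trans {A B C : Set ℕ} (h1 : TLe A B) (h2 : TLe B C) : TLe A C :=
  TuringReducible.trans h1 h2

/-- Turing equivalence of sets, as a setoid. -/
def tSetoid : Setoid (Set ℕ) where
  r A B := TLe A B ∧ TLe B A
  iseqv :=
    ⟨fun A => ⟨TLe.refl A, TLe.refl A⟩, fun h => ⟨h.2, h.1⟩,
      fun h1 h2 => ⟨h1.1.trans h2.1, h2.2.trans h1.2⟩⟩

/-- The Turing degrees: sets of natural numbers modulo Turing equivalence. -/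
def Deg : Type := Quotient tSetoid

/-- The Turing degree of a set. -/
def deg (A : Set ℕ) : Deg := Quotient.mk tSetoid A

/-- The ordering of the Turing degrees induced by Turing reducibility. -/
def Deg.le : Deg → Deg → Prop :=
  Quotient.lift₂ TLe (fun _ _ _ _ h1 h2 =>
    propext ⟨fun h => (h1.2.trans h).trans h2.1, fun h => (h1.1.trans h).trans h2.2⟩)

/-- An automorphism of the Turing degrees: a bijection preserving the ordering in both
directions. -/
def IsAut (π : Deg → Deg) : Prop :=
  Function.Bijective π ∧ ∀ a b : Deg, Deg.le a b ↔ Deg.le (π a) (π b)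

theorem deg_le_deg (A B : Set ℕ) : Deg.le (deg A) (deg B) ↔ TLe A B := Iff.rfl

theorem deg_eq_deg (A B : Set ℕ) : deg A = deg B ↔ TLe A B ∧ TLe B A :=
  ⟨fun h => Quotient.exact h, fun h => Quotient.sound h⟩

end Vale.Agent.Lib.P327
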