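import Mathlib
import Vale.Agent.Lib.P327.Defs

namespace Vale.Agent.Lib.P327

theorem chi_empty (n : ℕ) : chi ∅ n = 0 := by
  simp [chi]

theorem chi_symmDiff (X C : Set ℕ) (n : ℕ) :
    chi (symmDiff X C) n = (chi X n + chi C n) % 2 := by
  classical
  by_cases h1 : n ∈ X <;> by_cases h2 : n ∈ C <;> simp [chi, Set.mem_symmDiff, h1, h2]

theorem TLe_empty (X : Set ℕ) : TLe ∅ X := by
  unfold TLe
  have : (fun n => Part.some (chi ∅ n)) = (fun _ : ℕ => (Part.some 0 : Part ℕ)) := by
    funext n; rw [chi_empty]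
  rw [this]
  exact (Partrec.const' (Part.some 0)).turingReducible

theorem partrec_of_TLe_empty {C : Set ℕ} (h : TLe C ∅) :
    Nat.Partrec (fun n => Part.some (chi C n)) := by
  unfold TLe at h
  have : (fun n => Part.some (chi ∅ n)) = (fun _ : ℕ => (Part.some 0 : Part ℕ)) := by
    funext n; rw [chi_empty]
  rw [this] at h
  exact Partrec.nat_iff.mp h.partrec_of_const

theorem TLe_symmDiff_of_partrec (X C : Set ℕ)
    (hC : Nat.Partrec (fun n => Part.some (chi C n))) : TLe (symmDiff X C) X := by
  refine RecursiveIn.iff_nat.mpr ?_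
  have hF : Nat.Partrec (fun m : ℕ => Part.some ((m.unpair.1 + m.unpair.2) % 2)) := by
    have : Computable (fun m : ℕ => (m.unpair.1 + m.unpair.2) % 2) :=
      (Primrec.nat_mod.comp (Primrec.nat_add.comp (Primrec.fst.comp Primrec.unpair)
        (Primrec.snd.comp Primrec.unpair)) (Primrec.const 2)).to_comp
    exact Partrec.nat_iff.mp this.partrec
  set g : ℕ →. ℕ := fun n => Part.some (chi X n) with hg
  have hP := Nat.RecursiveIn.pair
    (Nat.RecursiveIn.oracle (O := {g}) g (Set.mem_singleton _))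
    (hC.recursiveIn (O := {g}))
  have hcomp := Nat.RecursiveIn.comp (hF.recursiveIn (O := {g})) hP
  refine hcomp.of_eq fun n => ?_
  simp [chi_symmDiff, Seq.seq, hg]

end Vale.Agent.Lib.P327

namespace Vale.Agent.Lib.P327

/-- The degree of the empty set is the least degree. -/
theorem deg_empty_le (d : Deg) : Deg.le (deg ∅) d := by
  induction d using Quotient.ind with
  | _ X => exact TLe_empty X

/-- An automorphism fixes the least degree. -/
theorem aut_deg_empty_le {π : Deg → Deg} (hπ : IsAut π) (d : Deg) : Deg.le (π (deg ∅)) d := by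
  obtain ⟨e, rfl⟩ := hπ.1.2 d
  exact (hπ.2 _ _).mp (deg_empty_le e)

theorem translation_trivial (C : Set ℕ) (π : Deg → Deg) (hπ : IsAut π)
    (hC : ∀ X : Set ℕ, π (deg X) = deg (symmDiff X C)) (d : Deg) : π d = d := by
  have h0 : Deg.le (deg C) (deg ∅) := by
    have h := aut_deg_empty_le hπ (deg ∅)
    have e : symmDiff (∅ : Set ℕ) C = C := by
      rw [← Set.bot_eq_empty, bot_symmDiff]
    rwa [hC ∅, e] at h
  have hCrec := partrec_of_TLe_empty ((deg_le_deg C ∅).mp h0)
  induction d using Quotient.ind with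
  | _ X =>
    show π (deg X) = deg X
    rw [hC X, deg_eq_deg]
    refine ⟨TLe_symmDiff_of_partrec X C hCrec, ?_⟩
    have h := TLe_symmDiff_of_partrec (symmDiff X C) C hCrec
    rwa [symmDiff_symmDiff_cancel_right] at h

end Vale.Agent.Lib.P327
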