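import Mathlib
import Vale.Agent.Lib.P327.Defs
import Vale.Agent.Lib.P327.Translation

/-!
Generic computability tools: a reduction lemma for Turing reducibility of sets,
bounded maximum and bounded least search, with their computability.
-/

namespace Vale.Agent.Lib.P327

theorem computable_chi_of_TLe_empty {C : Set ℕ} (h : TLe C ∅) : Computable (chi C) :=
  Partrec.nat_iff.mpr (partrec_of_TLe_empty h)

theorem chi_le_one (A : Set ℕ) (n : ℕ) : chi A n ≤ 1 := by
  unfold chi; split_ifs <;> simp

theorem chi_eq_one_iff (A : Set ℕ) (n : ℕ) : chi A n = 1 ↔ n ∈ A := by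
  unfold chi; split_ifs with h <;> simp [h]

theorem chi_eq_zero_iff (A : Set ℕ) (n : ℕ) : chi A n = 0 ↔ n ∉ A := by
  unfold chi; split_ifs with h <;> simp [h]

theorem chi_eq_chi_iff (A B : Set ℕ) (m n : ℕ) : chi A m = chi B n ↔ (m ∈ A ↔ n ∈ B) := by
  unfold chi; split_ifs with h1 h2 h2 <;> simp [h1, h2]

/-- If the characteristic function of `A` is obtained from that of `B` by one oracle query at a
computable position followed by a computable post-processing, then `A` is Turing reducible
to `B`. -/
theorem TLe_of_comp {A B : Set ℕ} (h : ℕ → ℕ) (G : ℕ → ℕ → ℕ) (hh : Computable h)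
    (hG : Computable₂ G) (hAB : ∀ i, chi A i = G i (chi B (h i))) : TLe A B := by
  refine RecursiveIn.iff_nat.mpr ?_
  set g : ℕ →. ℕ := fun n => Part.some (chi B n) with hg
  have hh' : Nat.Partrec (fun n => Part.some (h n)) := Partrec.nat_iff.mp hh
  have hid : Nat.Partrec (fun n : ℕ => Part.some n) := Partrec.nat_iff.mp Computable.id
  have hG' : Nat.Partrec (fun m : ℕ => Part.some (G m.unpair.1 m.unpair.2)) := by
    have : Computable (fun m : ℕ => G m.unpair.1 m.unpair.2) :=
      hG.comp (Computable.fst.comp Computable.unpair) (Computable.snd.comp Computable.unpair)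
    exact Partrec.nat_iff.mp this
  have h1 := Nat.RecursiveIn.comp (Nat.RecursiveIn.oracle (O := {g}) g (Set.mem_singleton _))
    (hh'.recursiveIn (O := {g}))
  have h2 := Nat.RecursiveIn.pair (hid.recursiveIn (O := {g})) h1
  have h3 := Nat.RecursiveIn.comp (hG'.recursiveIn (O := {g})) h2
  refine h3.of_eq fun n => ?_
  simp [hAB, Seq.seq, hg]

/-- Bounded maximum: `bmax f t = max_{j < t} f j` (and `0` if `t = 0`). -/
def bmax (f : ℕ → ℕ) (t : ℕ) : ℕ :=
  Nat.rec 0 (fun j acc => max acc (f j)) t

theorem bmax_succ (f : ℕ → ℕ) (t : ℕ) : bmax f (t + 1) = max (bmax f t) (f t) := rfl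

theorem le_bmax (f : ℕ → ℕ) {j t : ℕ} (h : j < t) : f j ≤ bmax f t := by
  induction t with
  | zero => omega
  | succ t ih =>
    rw [bmax_succ]
    rcases Nat.lt_succ_iff_lt_or_eq.mp h with h' | rfl
    · exact le_trans (ih h') (le_max_left _ _)
    · exact le_max_right _ _

theorem bmax_mono (f : ℕ → ℕ) : Monotone (bmax f) :=
  monotone_nat_of_le_succ fun t => by rw [bmax_succ]; exact le_max_left _ _

theorem computable_bmax {f : ℕ → ℕ} (hf : Computable f) : Computable (bmax f) := by
  have h : Computable₂ (fun (_ : ℕ) (p : ℕ × ℕ) => max p.2 (f p.1)) :=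
    (Primrec.nat_max.to_comp).comp₂ (Computable.snd.comp Computable.snd)
      (hf.comp (Computable.fst.comp Computable.snd))
  exact (Computable.nat_rec Computable.id (Computable.const 0) h).of_eq fun t => rfl

/-- Bounded least search: `bfind f t` is the least `j < t` with `f j ≠ 0`, and `t` if there
is none. -/
def bfind (f : ℕ → ℕ) (t : ℕ) : ℕ :=
  Nat.rec 0 (fun j acc => if acc < j then acc else if f j = 0 then j + 1 else j) t

theorem bfind_succ (f : ℕ → ℕ) (t : ℕ) :
    bfind f (t + 1) = if bfind f t < t then bfind f t else if f t = 0 then t + 1 else t := rfl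

theorem bfind_le (f : ℕ → ℕ) (t : ℕ) : bfind f t ≤ t := by
  induction t with
  | zero => exact le_rfl
  | succ t ih => rw [bfind_succ]; split_ifs <;> omega

theorem bfind_spec (f : ℕ → ℕ) (t : ℕ) :
    (bfind f t < t → f (bfind f t) ≠ 0) ∧ ∀ j, j < bfind f t → f j = 0 := by
  induction t with
  | zero => exact ⟨fun h => absurd h (by simp [bfind]), fun j hj => absurd hj (by simp [bfind])⟩
  | succ t ih =>
    have hle := bfind_le f t
    rw [bfind_succ]
    split_ifs with h1 h2
    · exact ⟨fun _ => ih.1 h1, ih.2⟩
    · have ht : bfind f t = t := by omega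
      refine ⟨fun h => absurd h (by omega), fun j hj => ?_⟩
      rcases Nat.lt_succ_iff_lt_or_eq.mp hj with h' | rfl
      · exact ih.2 j (by omega)
      · exact h2
    · have ht : bfind f t = t := by omega
      exact ⟨fun _ => h2, fun j hj => ih.2 j (by omega)⟩

theorem bfind_lt_of_exists (f : ℕ → ℕ) {t j : ℕ} (hj : j < t) (hf : f j ≠ 0) : bfind f t < t := by
  by_contra h
  have ht : bfind f t = t := le_antisymm (bfind_le f t) (not_lt.mp h)
  exact hf ((bfind_spec f t).2 j (by omega))

theorem computable_bfind {F : ℕ → ℕ → ℕ} {T : ℕ → ℕ} (hF : Computable₂ F) (hT : Computable T) :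
    Computable (fun a => bfind (F a) (T a)) := by
  have hS : Primrec (fun q : ℕ × ℕ × ℕ =>
      if q.1 < q.2.1 then q.1 else if q.2.2 = 0 then q.2.1 + 1 else q.2.1) := by
    refine Primrec.ite (Primrec.nat_lt.comp Primrec.fst (Primrec.fst.comp Primrec.snd))
      Primrec.fst ?_
    refine Primrec.ite (Primrec.eq.comp (Primrec.snd.comp Primrec.snd) (Primrec.const 0))
      (Primrec.succ.comp (Primrec.fst.comp Primrec.snd)) (Primrec.fst.comp Primrec.snd)
  have h : Computable₂ (fun (a : ℕ) (p : ℕ × ℕ) =>
      if p.2 < p.1 then p.2 else if F a p.1 = 0 then p.1 + 1 else p.1) := by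
    have := hS.to_comp.comp (Computable.pair (Computable.snd.comp Computable.snd)
      (Computable.pair (Computable.fst.comp Computable.snd)
        (hF.comp Computable.fst (Computable.fst.comp Computable.snd))))
    exact this
  exact (Computable.nat_rec hT (Computable.const 0) h).of_eq fun t => rfl

attribute [irreducible] bmax bfind

end Vale.Agent.Lib.P327
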