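import Mathlib
import Vale.Agent.Lib.P327.Defs
import Vale.Agent.Lib.P327.Tools

/-!
Finite binary strings as approximations of sets of natural numbers: the string of the first
`k` membership bits of a set, extension of strings, limits of chains, maps of Cantor space
with moduli, and sets of reals that contain a dense union of cylinders.
-/

namespace Vale.Agent.Lib.P327

open Classical in
/-- The membership bit of `i` in `Z`. -/
noncomputable def bit (Z : Set ℕ) (i : ℕ) : Bool := decide (i ∈ Z)

theorem bit_eq_true_iff (Z : Set ℕ) (i : ℕ) : bit Z i = true ↔ i ∈ Z := by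
  unfold bit; simp

theorem bit_eq_bit_iff (Z W : Set ℕ) (i j : ℕ) : bit Z i = bit W j ↔ (i ∈ Z ↔ j ∈ W) := by
  unfold bit
  by_cases h1 : i ∈ Z <;> by_cases h2 : j ∈ W <;> simp [h1, h2]

theorem chi_eq_cond_bit (Z : Set ℕ) (i : ℕ) : chi Z i = cond (bit Z i) 1 0 := by
  unfold chi bit
  by_cases h : i ∈ Z <;> simp [h]

/-- The string of the first `k` membership bits of `Z`. -/
noncomputable def pref (Z : Set ℕ) (k : ℕ) : List Bool := (List.range k).map (bit Z)

@[simp] theorem length_pref (Z : Set ℕ) (k : ℕ) : (pref Z k).length = k := by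
  simp [pref]

theorem pref_getElem? (Z : Set ℕ) (k i : ℕ) :
    (pref Z k)[i]? = if i < k then some (bit Z i) else none := by
  unfold pref
  by_cases h : i < k
  · simp [h]
  · simp [h]

theorem pref_le (Z : Set ℕ) {k k' : ℕ} (h : k ≤ k') : pref Z k <+: pref Z k' := by
  rw [List.prefix_iff_eq_take]
  unfold pref
  rw [← List.map_take, List.take_range]
  simp [h]

/-- `Ext σ Z` : the set `Z` extends the string `σ`. -/
def Ext (σ : List Bool) (Z : Set ℕ) : Prop := pref Z σ.length = σ

theorem ext_pref (Z : Set ℕ) (k : ℕ) : Ext (pref Z k) Z := by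
  unfold Ext; simp

theorem ext_iff (σ : List Bool) (Z : Set ℕ) :
    Ext σ Z ↔ ∀ i (h : i < σ.length), σ[i] = bit Z i := by
  unfold Ext
  constructor
  · intro h i hi
    have h2 : (pref Z σ.length)[i]? = σ[i]? := by rw [h]
    rw [pref_getElem?, if_pos hi, List.getElem?_eq_getElem hi] at h2
    exact (Option.some.inj h2).symm
  · intro h
    apply List.ext_getElem?
    intro i
    rw [pref_getElem?]
    by_cases hi : i < σ.length
    · rw [if_pos hi, List.getElem?_eq_getElem hi, h i hi]
    · rw [if_neg hi]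
      exact (List.getElem?_eq_none (by omega)).symm

theorem Ext.eq_pref {σ : List Bool} {Z : Set ℕ} (h : Ext σ Z) : σ = pref Z σ.length := h.symm

theorem Ext.mono {σ τ : List Bool} {Z : Set ℕ} (hst : σ <+: τ) (h : Ext τ Z) : Ext σ Z := by
  unfold Ext at *
  have h1 : σ = τ.take σ.length := List.prefix_iff_eq_take.mp hst
  have h2 := pref_le Z hst.length_le
  rw [List.prefix_iff_eq_take, h, length_pref] at h2
  rw [h2]; exact h1.symm

theorem Ext.to_pref {σ : List Bool} {Z : Set ℕ} (h : Ext σ Z) {k : ℕ} (hk : σ.length ≤ k) :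
    σ <+: pref Z k := by
  have := pref_le Z hk
  rwa [h] at this

theorem Ext.of_pref {σ : List Bool} {Z : Set ℕ} (h : Ext σ Z) {k : ℕ} (hk : k ≤ σ.length) :
    pref Z k <+: σ := by
  have := pref_le Z hk
  rwa [h] at this

/-- The set of positions at which a string holds `true`. -/
def ofList (σ : List Bool) : Set ℕ := {i | σ[i]? = some true}

theorem ext_ofList (σ : List Bool) : Ext σ (ofList σ) := by
  rw [ext_iff]
  intro i hi
  have : (i ∈ ofList σ) ↔ σ[i] = true := by
    unfold ofList
    simp [List.getElem?_eq_getElem hi]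
  cases hb : σ[i]
  · have : i ∉ ofList σ := by rw [this, hb]; simp
    symm
    by_contra hc
    exact this ((bit_eq_true_iff _ _).mp (by simpa using hc))
  · exact ((bit_eq_true_iff _ _).mpr (this.mpr hb)).symm

theorem pref_eq_of_agree {Z W : Set ℕ} {k : ℕ} (h : ∀ i, i < k → (i ∈ Z ↔ i ∈ W)) :
    pref Z k = pref W k := by
  unfold pref
  apply List.map_congr_left
  intro i hi
  exact (bit_eq_bit_iff _ _ _ _).mpr (h i (List.mem_range.mp hi))

theorem agree_of_pref_eq {Z W : Set ℕ} {k : ℕ} (h : pref Z k = pref W k) :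
    ∀ i, i < k → (i ∈ Z ↔ i ∈ W) := by
  intro i hi
  have h2 : (pref Z k)[i]? = (pref W k)[i]? := by rw [h]
  rw [pref_getElem?, pref_getElem?, if_pos hi, if_pos hi] at h2
  exact (bit_eq_bit_iff _ _ _ _).mp (Option.some.inj h2)

theorem Ext.agree {σ : List Bool} {Z W : Set ℕ} (hZ : Ext σ Z) (hW : Ext σ W) :
    ∀ i, i < σ.length → (i ∈ Z ↔ i ∈ W) :=
  agree_of_pref_eq (hZ.trans hW.symm)

theorem Ext.of_agree {σ : List Bool} {Z W : Set ℕ} (hZ : Ext σ Z)
    (h : ∀ i, i < σ.length → (i ∈ Z ↔ i ∈ W)) : Ext σ W := by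
  unfold Ext at *
  rw [← pref_eq_of_agree h]; exact hZ

theorem exists_long_ext (σ : List Bool) (m : ℕ) : ∃ τ, σ <+: τ ∧ m ≤ τ.length :=
  ⟨σ ++ List.replicate m false, List.prefix_append _ _, by simp⟩

/-- The limit of a chain of strings. -/
def chainLim (p : ℕ → List Bool) : Set ℕ := {i | ∃ t, (p t)[i]? = some true}

theorem chain_le {p : ℕ → List Bool} (hp : ∀ t, p t <+: p (t + 1)) {s t : ℕ} (h : s ≤ t) :
    p s <+: p t := by
  induction t with
  | zero =>
    have : s = 0 := by omega
    subst this; exact List.prefix_rfl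
  | succ t ih =>
    rcases Nat.lt_succ_iff_lt_or_eq.mp (Nat.lt_succ_of_le h) with h' | rfl
    · exact (ih (by omega)).trans (hp t)
    · exact List.prefix_rfl

theorem getElem?_of_le {σ τ : List Bool} (h : σ <+: τ) {n : ℕ} {b : Bool}
    (hb : σ[n]? = some b) : τ[n]? = some b := by
  obtain ⟨t, rfl⟩ := h
  have hn : n < σ.length := by
    by_contra hc
    rw [List.getElem?_eq_none (by omega)] at hb
    cases hb
  rw [List.getElem?_append_left hn]; exact hb

theorem ext_chainLim {p : ℕ → List Bool} (hp : ∀ t, p t <+: p (t + 1)) (t : ℕ) :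
    Ext (p t) (chainLim p) := by
  rw [ext_iff]
  intro i hi
  cases hb : (p t)[i]
  · symm
    by_contra hc
    have hm : i ∈ chainLim p := (bit_eq_true_iff _ _).mp (by simpa using hc)
    obtain ⟨s, hs⟩ := hm
    have h1 : (p t)[i]? = some false := by rw [List.getElem?_eq_getElem hi, hb]
    have h2 := getElem?_of_le (chain_le hp (le_max_left t s)) h1
    have h3 := getElem?_of_le (chain_le hp (le_max_right t s)) hs
    rw [h2] at h3
    exact Bool.noConfusion (Option.some.inj h3)
  · symm
    apply (bit_eq_true_iff _ _).mpr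
    exact ⟨t, by rw [List.getElem?_eq_getElem hi, hb]⟩

end Vale.Agent.Lib.P327
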