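import Mathlib
import Vale.Agent.Lib.P327.Cantor

/-!
The use principle for Turing reducibility of sets, in both directions: a reduction is given by
a recursive function on finite strings that is monotone under extension of strings, and
conversely a computable procedure on finite strings that is correct along the oracle yields a
reduction.
-/

namespace Vale.Agent.Lib.P327

open Nat.Partrec (Code)

/-- The string functional defined by a code: its value on a finite string and an argument. -/
def phi (c : Code) (σ : List Bool) (n : ℕ) : Part ℕ := c.eval (Encodable.encode (σ, n))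

/-- The functional of `c` is monotone under extension of strings. -/
def Mono (c : Code) : Prop := ∀ σ τ n v, σ <+: τ → v ∈ phi c σ n → v ∈ phi c τ n

/-- The functional of `c` computes the characteristic function of `A` along the oracle `B`. -/
def Computes (c : Code) (A B : Set ℕ) : Prop := ∀ n, ∃ k, chi A n ∈ phi c (pref B k) n

theorem exists_bound {Q : ℕ → ℕ → Prop} (hQ : ∀ m k k', k ≤ k' → Q m k → Q m k') (v : ℕ)
    (h : ∀ m, m < v → ∃ k, Q m k) : ∃ K, ∀ m, m < v → Q m K := by
  induction v with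
  | zero => exact ⟨0, fun m hm => absurd hm (by omega)⟩
  | succ v ih =>
    obtain ⟨K, hK⟩ := ih fun m hm => h m (by omega)
    obtain ⟨k, hk⟩ := h v (by omega)
    refine ⟨max K k, fun m hm => ?_⟩
    rcases Nat.lt_succ_iff_lt_or_eq.mp hm with h' | rfl
    · exact hQ m K _ (le_max_left _ _) (hK m h')
    · exact hQ m k _ (le_max_right _ _) hk

/-- Primitive recursion along a number, for string functionals. -/
noncomputable def precR (φ1 φ2 : List Bool → ℕ →. ℕ) (σ : List Bool) (a n : ℕ) : Part ℕ :=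
  Nat.rec (motive := fun _ => Part ℕ) (φ1 σ a)
    (fun y IH => IH.bind fun i => φ2 σ (Nat.pair a (Nat.pair y i))) n

theorem precR_zero (φ1 φ2 : List Bool → ℕ →. ℕ) (σ : List Bool) (a : ℕ) :
    precR φ1 φ2 σ a 0 = φ1 σ a := rfl

theorem precR_succ (φ1 φ2 : List Bool → ℕ →. ℕ) (σ : List Bool) (a n : ℕ) :
    precR φ1 φ2 σ a (n + 1) =
      (precR φ1 φ2 σ a n).bind fun i => φ2 σ (Nat.pair a (Nat.pair n i)) := rfl

/-- Primitive recursion along a number, for functions. -/
noncomputable def precF (f h : ℕ →. ℕ) (a n : ℕ) : Part ℕ :=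
  Nat.rec (motive := fun _ => Part ℕ) (f a)
    (fun y IH => IH.bind fun i => h (Nat.pair a (Nat.pair y i))) n

theorem precF_zero (f h : ℕ →. ℕ) (a : ℕ) : precF f h a 0 = f a := rfl

theorem precF_succ (f h : ℕ →. ℕ) (a n : ℕ) :
    precF f h a (n + 1) = (precF f h a n).bind fun i => h (Nat.pair a (Nat.pair n i)) := rfl

theorem mem_rfind_zero (g : ℕ → Part ℕ) (v : ℕ) :
    v ∈ Nat.rfind (fun n => (g n).map fun m => decide (m = 0)) ↔
      (0 ∈ g v ∧ ∀ m, m < v → ∃ w, w ≠ 0 ∧ w ∈ g m) := by
  refine Nat.mem_rfind.trans ?_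
  constructor
  · rintro ⟨h1, h2⟩
    refine ⟨?_, fun m hm => ?_⟩
    · rw [Part.mem_map_iff] at h1
      obtain ⟨w, hw, hw2⟩ := h1
      have : w = 0 := by simpa using hw2
      rw [← this]; exact hw
    · have := h2 hm
      rw [Part.mem_map_iff] at this
      obtain ⟨w, hw, hw2⟩ := this
      exact ⟨w, by simpa using hw2, hw⟩
  · rintro ⟨h1, h2⟩
    refine ⟨?_, fun {m} hm => ?_⟩
    · rw [Part.mem_map_iff]
      exact ⟨0, h1, by simp⟩
    · obtain ⟨w, hw, hw2⟩ := h2 m hm
      rw [Part.mem_map_iff]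
      exact ⟨w, hw2, by simpa using hw⟩

theorem use_aux (B : Set ℕ) {f : ℕ →. ℕ}
    (hf : Nat.RecursiveIn {fun n => Part.some (chi B n)} f) :
    ∃ φ : List Bool → ℕ →. ℕ, Partrec₂ φ ∧
      (∀ σ τ n v, σ <+: τ → v ∈ φ σ n → v ∈ φ τ n) ∧
      (∀ n v, v ∈ f n ↔ ∃ k, v ∈ φ (pref B k) n) := by
  have base : ∀ f : ℕ →. ℕ, Nat.Partrec f → ∃ φ : List Bool → ℕ →. ℕ, Partrec₂ φ ∧
      (∀ σ τ n v, σ <+: τ → v ∈ φ σ n → v ∈ φ τ n) ∧
      (∀ n v, v ∈ f n ↔ ∃ k, v ∈ φ (pref B k) n) := by
    intro f hf
    refine ⟨fun _ n => f n, ?_, fun _ _ _ _ _ h => h,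
      fun n v => ⟨fun h => ⟨0, h⟩, fun ⟨_, h⟩ => h⟩⟩
    exact (Partrec.nat_iff.mpr hf).comp Computable.snd
  induction hf with
  | zero => exact base _ Nat.Partrec.zero
  | succ => exact base _ Nat.Partrec.succ
  | left => exact base _ Nat.Partrec.left
  | right => exact base _ Nat.Partrec.right
  | oracle g hg =>
    have hg' : g = fun n => Part.some (chi B n) := hg
    subst hg'
    refine ⟨fun σ n => Part.ofOption ((σ[n]?).map fun b => cond b 1 0), ?_, ?_, ?_⟩
    · have h1 : Computable (fun p : List Bool × ℕ => (p.1[p.2]?).map fun b => cond b 1 0) :=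
        Computable.option_map (Computable.list_getElem?.comp Computable.fst Computable.snd)
          ((Computable.cond Computable.snd (Computable.const 1) (Computable.const 0)).to₂)
      exact Computable.ofOption h1
    · intro σ τ n v hst hv
      rw [Part.mem_ofOption, Option.mem_def, Option.map_eq_some_iff] at hv ⊢
      obtain ⟨b, hb, rfl⟩ := hv
      exact ⟨b, getElem?_of_le hst hb, rfl⟩
    · intro n v
      constructor
      · intro hv
        have hv' : v = chi B n := by simpa using hv
        refine ⟨n + 1, ?_⟩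
        rw [Part.mem_ofOption, Option.mem_def, Option.map_eq_some_iff]
        refine ⟨bit B n, ?_, ?_⟩
        · rw [pref_getElem?, if_pos (Nat.lt_succ_self n)]
        · rw [hv', chi_eq_cond_bit]
      · rintro ⟨k, hk⟩
        rw [Part.mem_ofOption, Option.mem_def, Option.map_eq_some_iff] at hk
        obtain ⟨b, hb, rfl⟩ := hk
        rw [pref_getElem?] at hb
        split_ifs at hb with hlt
        · have : bit B n = b := Option.some.inj hb
          rw [← this, ← chi_eq_cond_bit]
          exact Part.mem_some _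
  | @pair f h hf hh ihf ihh =>
    obtain ⟨φ1, hp1, hm1, hi1⟩ := ihf
    obtain ⟨φ2, hp2, hm2, hi2⟩ := ihh
    refine ⟨fun σ n => (φ1 σ n).bind fun a => (φ2 σ n).map fun b => Nat.pair a b, ?_, ?_, ?_⟩
    · have h2 : Partrec₂ (fun (p : List Bool × ℕ) (a : ℕ) =>
          (φ2 p.1 p.2).map fun b => Nat.pair a b) :=
        Partrec.map (hp2.comp (Computable.fst.comp Computable.fst)
            (Computable.snd.comp Computable.fst))
          ((Primrec₂.natPair.to_comp.comp (Computable.snd.comp Computable.fst)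
            Computable.snd).to₂)
      exact Partrec.bind hp1 h2
    · intro σ τ n v hst hv
      simp only [Part.mem_bind_iff, Part.mem_map_iff] at hv ⊢
      obtain ⟨a, ha, b, hb, rfl⟩ := hv
      exact ⟨a, hm1 _ _ _ _ hst ha, b, hm2 _ _ _ _ hst hb, rfl⟩
    · intro n v
      have key : v ∈ (Nat.pair <$> f n <*> h n) ↔ ∃ a ∈ f n, ∃ b ∈ h n, Nat.pair a b = v := by
        simp [Seq.seq]
      rw [key]
      constructor
      · rintro ⟨a, ha, b, hb, rfl⟩
        obtain ⟨k1, h1⟩ := (hi1 n a).mp ha
        obtain ⟨k2, h2⟩ := (hi2 n b).mp hb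
        refine ⟨max k1 k2, ?_⟩
        simp only [Part.mem_bind_iff, Part.mem_map_iff]
        exact ⟨a, hm1 _ _ _ _ (pref_le B (le_max_left _ _)) h1, b,
          hm2 _ _ _ _ (pref_le B (le_max_right _ _)) h2, rfl⟩
      · rintro ⟨k, hk⟩
        simp only [Part.mem_bind_iff, Part.mem_map_iff] at hk
        obtain ⟨a, ha, b, hb, rfl⟩ := hk
        exact ⟨a, (hi1 n a).mpr ⟨k, ha⟩, b, (hi2 n b).mpr ⟨k, hb⟩, rfl⟩
  | @comp f h hf hh ihf ihh =>
    obtain ⟨φ1, hp1, hm1, hi1⟩ := ihf
    obtain ⟨φ2, hp2, hm2, hi2⟩ := ihh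
    refine ⟨fun σ n => (φ2 σ n).bind fun a => φ1 σ a, ?_, ?_, ?_⟩
    · have h1 : Partrec₂ (fun (p : List Bool × ℕ) (a : ℕ) => φ1 p.1 a) :=
        hp1.comp (Computable.fst.comp Computable.fst) Computable.snd
      exact Partrec.bind hp2 h1
    · intro σ τ n v hst hv
      simp only [Part.mem_bind_iff] at hv ⊢
      obtain ⟨a, ha, hb⟩ := hv
      exact ⟨a, hm2 _ _ _ _ hst ha, hm1 _ _ _ _ hst hb⟩
    · intro n v
      have key : v ∈ (h n).bind f ↔ ∃ a ∈ h n, v ∈ f a := Part.mem_bind_iff
      show v ∈ (h n).bind f ↔ _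
      rw [key]
      constructor
      · rintro ⟨a, ha, hb⟩
        obtain ⟨k1, h1⟩ := (hi2 n a).mp ha
        obtain ⟨k2, h2⟩ := (hi1 a v).mp hb
        refine ⟨max k1 k2, ?_⟩
        simp only [Part.mem_bind_iff]
        exact ⟨a, hm2 _ _ _ _ (pref_le B (le_max_left _ _)) h1,
          hm1 _ _ _ _ (pref_le B (le_max_right _ _)) h2⟩
      · rintro ⟨k, hk⟩
        simp only [Part.mem_bind_iff] at hk
        obtain ⟨a, ha, hb⟩ := hk
        exact ⟨a, (hi2 n a).mpr ⟨k, ha⟩, (hi1 a v).mpr ⟨k, hb⟩⟩
  | @prec f h hf hh ihf ihh =>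
    obtain ⟨φ1, hp1, hm1, hi1⟩ := ihf
    obtain ⟨φ2, hp2, hm2, hi2⟩ := ihh
    have hRm : ∀ a n σ τ v, σ <+: τ → v ∈ precR φ1 φ2 σ a n → v ∈ precR φ1 φ2 τ a n := by
      intro a n
      induction n with
      | zero => intro σ τ v hst hv; rw [precR_zero] at hv ⊢; exact hm1 _ _ _ _ hst hv
      | succ n ih =>
        intro σ τ v hst hv
        rw [precR_succ, Part.mem_bind_iff] at hv ⊢
        obtain ⟨i, hi, hv⟩ := hv
        exact ⟨i, ih σ τ i hst hi, hm2 _ _ _ _ hst hv⟩
    refine ⟨fun σ p => precR φ1 φ2 σ p.unpair.1 p.unpair.2, ?_, ?_, ?_⟩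
    · have hf' : Computable (fun q : List Bool × ℕ => q.2.unpair.2) :=
        Computable.snd.comp (Computable.unpair.comp Computable.snd)
      have hg' : Partrec (fun q : List Bool × ℕ => φ1 q.1 q.2.unpair.1) :=
        hp1.comp Computable.fst (Computable.fst.comp (Computable.unpair.comp Computable.snd))
      have hh' : Partrec₂ (fun (q : List Bool × ℕ) (yi : ℕ × ℕ) =>
          φ2 q.1 (Nat.pair q.2.unpair.1 (Nat.pair yi.1 yi.2))) :=
        hp2.comp (Computable.fst.comp Computable.fst)
          (Primrec₂.natPair.to_comp.comp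
            (Computable.fst.comp (Computable.unpair.comp (Computable.snd.comp Computable.fst)))
            (Primrec₂.natPair.to_comp.comp (Computable.fst.comp Computable.snd)
              (Computable.snd.comp Computable.snd)))
      exact (Partrec.nat_rec hf' hg' hh').of_eq fun q => by
        unfold precR; rfl
    · intro σ τ p v hst hv
      exact hRm _ _ σ τ v hst hv
    · intro p v
      have key : ∀ a n v, v ∈ precF f h a n ↔ ∃ k, v ∈ precR φ1 φ2 (pref B k) a n := by
        intro a n
        induction n with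
        | zero => intro v; rw [precF_zero]; simp only [precR_zero]; exact hi1 a v
        | succ n ih =>
          intro v
          rw [precF_succ, Part.mem_bind_iff]
          constructor
          · rintro ⟨i, hi, hv⟩
            obtain ⟨k1, h1⟩ := (ih i).mp hi
            obtain ⟨k2, h2⟩ := (hi2 _ v).mp hv
            refine ⟨max k1 k2, ?_⟩
            rw [precR_succ, Part.mem_bind_iff]
            exact ⟨i, hRm _ _ _ _ _ (pref_le B (le_max_left _ _)) h1,
              hm2 _ _ _ _ (pref_le B (le_max_right _ _)) h2⟩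
          · rintro ⟨k, hk⟩
            rw [precR_succ, Part.mem_bind_iff] at hk
            obtain ⟨i, hi, hv⟩ := hk
            exact ⟨i, (ih i).mpr ⟨k, hi⟩, (hi2 _ v).mpr ⟨k, hv⟩⟩
      rcases hp : Nat.unpair p with ⟨a, n⟩
      simp only [hp]
      exact key a n v
  | @rfind f hf ihf =>
    obtain ⟨φ1, hp1, hm1, hi1⟩ := ihf
    refine ⟨fun σ a => Nat.rfind fun n => (φ1 σ (Nat.pair a n)).map fun m => decide (m = 0),
      ?_, ?_, ?_⟩
    · have h1 : Partrec₂ (fun (q : List Bool × ℕ) (n : ℕ) =>
          (φ1 q.1 (Nat.pair q.2 n)).map fun m => decide (m = 0)) := by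
        have h2 : Partrec (fun r : (List Bool × ℕ) × ℕ => φ1 r.1.1 (Nat.pair r.1.2 r.2)) :=
          hp1.comp (Computable.fst.comp Computable.fst)
            (Primrec₂.natPair.to_comp.comp (Computable.snd.comp Computable.fst) Computable.snd)
        have h3 : Computable₂ (fun (_ : (List Bool × ℕ) × ℕ) (m : ℕ) => decide (m = 0)) :=
          ((Primrec.eq.decide.comp Primrec.snd (Primrec.const 0)).to_comp).to₂
        exact Partrec.map h2 h3
      exact Partrec.rfind h1
    · intro σ τ a v hst hv
      obtain ⟨h1, h2⟩ := (mem_rfind_zero (fun n => φ1 σ (Nat.pair a n)) v).mp hv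
      refine (mem_rfind_zero (fun n => φ1 τ (Nat.pair a n)) v).mpr
        ⟨hm1 _ _ _ _ hst h1, fun m hm => ?_⟩
      obtain ⟨w, hw, hw2⟩ := h2 m hm
      exact ⟨w, hw, hm1 _ _ _ _ hst hw2⟩
    · intro a v
      have key : v ∈ Nat.rfind (fun n => (fun m => decide (m = 0)) <$> f (Nat.pair a n)) ↔
          (0 ∈ f (Nat.pair a v) ∧ ∀ m, m < v → ∃ w, w ≠ 0 ∧ w ∈ f (Nat.pair a m)) :=
        mem_rfind_zero (fun n => f (Nat.pair a n)) v
      have key2 : ∀ σ, v ∈ Nat.rfind (fun n => (φ1 σ (Nat.pair a n)).map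
          fun m => decide (m = 0)) ↔
          (0 ∈ φ1 σ (Nat.pair a v) ∧ ∀ m, m < v → ∃ w, w ≠ 0 ∧ w ∈ φ1 σ (Nat.pair a m)) :=
        fun σ => mem_rfind_zero (fun n => φ1 σ (Nat.pair a n)) v
      refine key.trans ?_
      constructor
      · rintro ⟨h1, h2⟩
        obtain ⟨k0, hk0⟩ := (hi1 _ 0).mp h1
        have h3 : ∀ m, m < v → ∃ k, ∃ w, w ≠ 0 ∧ w ∈ φ1 (pref B k) (Nat.pair a m) := by
          intro m hm
          obtain ⟨w, hw, hw2⟩ := h2 m hm
          obtain ⟨k, hk⟩ := (hi1 _ w).mp hw2
          exact ⟨k, w, hw, hk⟩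
        obtain ⟨K, hK⟩ := exists_bound (Q := fun m k => ∃ w, w ≠ 0 ∧
            w ∈ φ1 (pref B k) (Nat.pair a m))
          (fun m k k' hkk ⟨w, hw, hw2⟩ => ⟨w, hw, hm1 _ _ _ _ (pref_le B hkk) hw2⟩) v h3
        refine ⟨max k0 K, (key2 _).mpr ⟨hm1 _ _ _ _ (pref_le B (le_max_left _ _)) hk0,
          fun m hm => ?_⟩⟩
        obtain ⟨w, hw, hw2⟩ := hK m hm
        exact ⟨w, hw, hm1 _ _ _ _ (pref_le B (le_max_right _ _)) hw2⟩
      · rintro ⟨k, hk⟩
        obtain ⟨h1, h2⟩ := (key2 _).mp hk
        refine ⟨(hi1 _ 0).mpr ⟨k, h1⟩, fun m hm => ?_⟩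
        obtain ⟨w, hw, hw2⟩ := h2 m hm
        exact ⟨w, hw, (hi1 _ w).mpr ⟨k, hw2⟩⟩

/-- The use principle: a Turing reduction of `A` to `B` is witnessed by a code whose string
functional is monotone and computes `A` along `B`. -/
theorem use_principle {A B : Set ℕ} (h : TLe A B) : ∃ c, Mono c ∧ Computes c A B := by
  obtain ⟨φ, hp, hm, hi⟩ := use_aux B (RecursiveIn.iff_nat.mp h)
  obtain ⟨c, hc⟩ := Nat.Partrec.Code.exists_code.mp hp
  have hphi : ∀ σ n, phi c σ n = φ σ n := by
    intro σ n
    unfold phi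
    rw [hc]
    simp only [Encodable.encodek, Part.coe_some, Part.bind_some]
    exact Part.map_id' (fun x => Encodable.encode_nat x) _
  refine ⟨c, ?_, ?_⟩
  · intro σ τ n v hst hv
    rw [hphi] at hv ⊢
    exact hm _ _ _ _ hst hv
  · intro n
    obtain ⟨k, hk⟩ := (hi n (chi A n)).mp (Part.mem_some _)
    exact ⟨k, by rw [hphi]; exact hk⟩

/-- Total functions recursive in a set of oracles. -/
def RecIn (O : Set (ℕ →. ℕ)) (f : ℕ → ℕ) : Prop := Nat.RecursiveIn O (fun n => Part.some (f n))

theorem RecIn.of_comp {O : Set (ℕ →. ℕ)} {f : ℕ → ℕ} (hf : Computable f) : RecIn O f :=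
  (Partrec.nat_iff.mp hf).recursiveIn

theorem RecIn.comp {O : Set (ℕ →. ℕ)} {f g : ℕ → ℕ} (hf : RecIn O f) (hg : RecIn O g) :
    RecIn O (fun n => f (g n)) :=
  (Nat.RecursiveIn.comp hf hg).of_eq fun n => by simp

theorem RecIn.pair {O : Set (ℕ →. ℕ)} {f g : ℕ → ℕ} (hf : RecIn O f) (hg : RecIn O g) :
    RecIn O (fun n => Nat.pair (f n) (g n)) :=
  (Nat.RecursiveIn.pair hf hg).of_eq fun n => by simp [Seq.seq]

theorem RecIn.comp₂ {O : Set (ℕ →. ℕ)} {G : ℕ → ℕ → ℕ} {f g : ℕ → ℕ} (hG : Computable₂ G)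
    (hf : RecIn O f) (hg : RecIn O g) : RecIn O (fun n => G (f n) (g n)) := by
  have h1 : RecIn O (fun m : ℕ => G m.unpair.1 m.unpair.2) :=
    RecIn.of_comp (hG.comp (Computable.fst.comp Computable.unpair)
      (Computable.snd.comp Computable.unpair))
  exact (h1.comp (hf.pair hg)).of_eq fun n => by simp

theorem RecIn.prec {O : Set (ℕ →. ℕ)} {f h : ℕ → ℕ} (hf : RecIn O f) (hh : RecIn O h) :
    RecIn O (fun p => Nat.rec (motive := fun _ => ℕ) (f p.unpair.1)
      (fun y i => h (Nat.pair p.unpair.1 (Nat.pair y i))) p.unpair.2) := by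
  refine (Nat.RecursiveIn.prec hf hh).of_eq fun p => ?_
  rcases hp : Nat.unpair p with ⟨a, n⟩
  simp only [hp]
  clear hp
  induction n with
  | zero => rfl
  | succ n ih =>
    exact (congrArg (fun x : Part ℕ => x.bind fun i =>
      Part.some (h (Nat.pair a (Nat.pair n i)))) ih).trans (Part.bind_some _ _)

theorem RecIn.rfind {O : Set (ℕ →. ℕ)} {f : ℕ → ℕ} (hf : RecIn O f)
    (hex : ∀ a, ∃ n, f (Nat.pair a n) = 0) : RecIn O (fun a => Nat.find (hex a)) := by
  refine (Nat.RecursiveIn.rfind hf).of_eq_tot fun a => ?_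
  refine Nat.mem_rfind.mpr ⟨?_, fun {m} hm => ?_⟩
  · have := Nat.find_spec (hex a)
    simp [this]
  · have := Nat.find_min (hex a) hm
    simp [this]

/-- A computable procedure on finite strings that, along the oracle `B`, eventually answers and
never answers wrongly, yields a Turing reduction to `B`. -/
theorem TLe_of_use {A B : Set ℕ} (u : List Bool → ℕ → Option Bool) (hu : Computable₂ u)
    (h1 : ∀ n, ∃ k, u (pref B k) n = some (bit A n))
    (h2 : ∀ n k b, u (pref B k) n = some b → b = bit A n) : TLe A B := by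
  set o : ℕ →. ℕ := fun n => Part.some (chi B n) with ho
  have horacle : RecIn {o} (chi B) := Nat.RecursiveIn.oracle o (Set.mem_singleton _)
  -- the code of the string of the first `k` bits of `B`
  let dec : ℕ → List Bool := fun e => (Encodable.decode (α := List Bool) e).getD []
  have hdec : Computable dec :=
    Computable.option_getD Computable.decode (Computable.const [])
  let app : ℕ → ℕ → ℕ := fun c b => Encodable.encode (dec c ++ [decide (b = 1)])
  have happ : Computable₂ app := by
    have h3 : Computable (fun p : ℕ × ℕ => [decide (p.2 = 1)]) :=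
      (Computable.list_cons.comp ((Primrec.eq.decide.comp Primrec.snd (Primrec.const 1)).to_comp)
        (Computable.const []))
    exact Computable.encode.comp
      (Computable.list_append.comp (hdec.comp Computable.fst) h3)
  let E : ℕ → ℕ := fun k => Encodable.encode (pref B k)
  have hE0 : E 0 = Encodable.encode ([] : List Bool) := rfl
  have hEs : ∀ k, E (k + 1) = app (E k) (chi B k) := by
    intro k
    have h3 : pref B (k + 1) = pref B k ++ [bit B k] := by
      unfold pref
      rw [List.range_succ, List.map_append]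
      rfl
    have h4 : decide (chi B k = 1) = bit B k := by
      rw [chi_eq_cond_bit]
      cases bit B k <;> simp
    show Encodable.encode (pref B (k + 1)) = Encodable.encode (dec (E k) ++ [decide (chi B k = 1)])
    have h5 : dec (E k) = pref B k := by
      show (Encodable.decode (α := List Bool) (Encodable.encode (pref B k))).getD [] = _
      rw [Encodable.encodek]; rfl
    rw [h3, h4, h5]
  have hE : RecIn {o} E := by
    have hstep : RecIn {o} (fun m : ℕ => app m.unpair.2.unpair.2 (chi B m.unpair.2.unpair.1)) :=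
      RecIn.comp₂ happ
        (RecIn.of_comp (Computable.snd.comp (Computable.unpair.comp
          (Computable.snd.comp Computable.unpair))))
        (horacle.comp (RecIn.of_comp (Computable.fst.comp (Computable.unpair.comp
          (Computable.snd.comp Computable.unpair)))))
    have hbase : RecIn {o} (fun _ : ℕ => Encodable.encode ([] : List Bool)) :=
      RecIn.of_comp (Computable.const _)
    have hrec := (RecIn.prec hbase hstep).comp
      (RecIn.of_comp (f := fun k => Nat.pair 0 k)
        (Primrec₂.natPair.to_comp.comp (Computable.const 0) Computable.id))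
    refine hrec.of_eq fun k => ?_
    congr 1
    simp only [Nat.unpair_pair]
    induction k with
    | zero => rfl
    | succ k ih => rw [hEs, ← ih]
  have hdecE : ∀ k, dec (E k) = pref B k := by
    intro k
    show (Encodable.decode (α := List Bool) (Encodable.encode (pref B k))).getD [] = _
    rw [Encodable.encodek]; rfl
  -- the test and the output
  let T : ℕ → ℕ → ℕ := fun a e => cond (u (dec e) a).isSome 0 1
  have hT : Computable₂ T :=
    Computable.cond (Primrec.option_isSome.to_comp.comp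
      (hu.comp (hdec.comp Computable.snd) Computable.fst)) (Computable.const 0)
      (Computable.const 1)
  let Out : ℕ → ℕ → ℕ := fun a e => ((u (dec e) a).map fun b => cond b 1 0).getD 0
  have hOut : Computable₂ Out :=
    Computable.option_getD (Computable.option_map
      (hu.comp (hdec.comp Computable.snd) Computable.fst)
      ((Computable.cond Computable.snd (Computable.const 1) (Computable.const 0)).to₂))
      (Computable.const 0)
  have htest : RecIn {o} (fun m : ℕ => T m.unpair.1 (E m.unpair.2)) :=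
    RecIn.comp₂ hT (RecIn.of_comp (Computable.fst.comp Computable.unpair))
      (hE.comp (RecIn.of_comp (Computable.snd.comp Computable.unpair)))
  have hex : ∀ a, ∃ k, (fun m : ℕ => T m.unpair.1 (E m.unpair.2)) (Nat.pair a k) = 0 := by
    intro a
    obtain ⟨k, hk⟩ := h1 a
    refine ⟨k, ?_⟩
    simp only [Nat.unpair_pair, T]
    rw [hdecE, hk]; rfl
  have hK := RecIn.rfind htest hex
  have hfin : RecIn {o} (fun a => Out a (E (Nat.find (hex a)))) :=
    RecIn.comp₂ hOut (RecIn.of_comp Computable.id) (hE.comp hK)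
  refine RecursiveIn.iff_nat.mpr (hfin.of_eq fun a => ?_)
  congr 1
  show Out a (E (Nat.find (hex a))) = chi A a
  have hs := Nat.find_spec (hex a)
  generalize Nat.find (hex a) = k0 at hs ⊢
  simp only [Nat.unpair_pair, T] at hs
  rw [hdecE] at hs
  show ((u (dec (E k0)) a).map fun b => cond b 1 0).getD 0 = chi A a
  rw [hdecE]
  cases hv : u (pref B k0) a with
  | none => rw [hv] at hs; simp at hs
  | some b =>
    have := h2 a _ b hv
    simp only [Option.map_some, Option.getD_some]
    rw [this, ← chi_eq_cond_bit]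

end Vale.Agent.Lib.P327
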