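import Mathlib
import Vale.Agent.Lib.P327.Use

/-!
Maps of Cantor space with moduli of continuity and of invariance under finite modifications,
sets of reals containing a dense union of cylinders, and a few recursion-theoretic helpers.
-/

namespace Vale.Agent.Lib.P327

/-- Continuity of a map of Cantor space: every output bit depends on finitely many input
bits. -/
def Cont (F : Set ℕ → Set ℕ) : Prop :=
  ∀ m, ∃ r, ∀ X Y : Set ℕ, (∀ i, i < r → (i ∈ X ↔ i ∈ Y)) → (m ∈ F X ↔ m ∈ F Y)

/-- Uniform invariance under finite modifications: inputs that agree from `k` on have outputs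
that agree from some `e` on, where `e` depends only on `k`. -/
def Tail (F : Set ℕ → Set ℕ) : Prop :=
  ∀ k, ∃ e, ∀ X Y : Set ℕ, (∀ i, k ≤ i → (i ∈ X ↔ i ∈ Y)) →
    ∀ m, e ≤ m → (m ∈ F X ↔ m ∈ F Y)

theorem Cont.seg {F : Set ℕ → Set ℕ} (h : Cont F) (l : ℕ) :
    ∃ R, ∀ X Y : Set ℕ, (∀ i, i < R → (i ∈ X ↔ i ∈ Y)) → ∀ m, m < l → (m ∈ F X ↔ m ∈ F Y) := by
  induction l with
  | zero => exact ⟨0, fun X Y _ m hm => absurd hm (by omega)⟩
  | succ l ih =>
    obtain ⟨R, hR⟩ := ih
    obtain ⟨r, hr⟩ := h l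
    refine ⟨max R r, fun X Y hXY m hm => ?_⟩
    rcases Nat.lt_succ_iff_lt_or_eq.mp hm with h' | rfl
    · exact hR X Y (fun i hi => hXY i (lt_of_lt_of_le hi (le_max_left _ _))) m h'
    · exact hr X Y (fun i hi => hXY i (lt_of_lt_of_le hi (le_max_right _ _)))

theorem Cont.comp {F G : Set ℕ → Set ℕ} (hF : Cont F) (hG : Cont G) :
    Cont (fun X => F (G X)) := by
  intro m
  obtain ⟨r, hr⟩ := hF m
  obtain ⟨R, hR⟩ := hG.seg r
  exact ⟨R, fun X Y hXY => hr (G X) (G Y) (fun i hi => hR X Y hXY i hi)⟩

theorem Tail.comp {F G : Set ℕ → Set ℕ} (hF : Tail F) (hG : Tail G) :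
    Tail (fun X => F (G X)) := by
  intro k
  obtain ⟨e, he⟩ := hG k
  obtain ⟨e', he'⟩ := hF e
  exact ⟨e', fun X Y hXY => he' (G X) (G Y) (fun i hi => he X Y hXY i hi)⟩

theorem cont_id : Cont (fun X => X) := fun m => ⟨m + 1, fun _ _ h => h m (Nat.lt_succ_self m)⟩

/-- A set of reals that contains a dense union of cylinders. -/
def DO (U : Set (Set ℕ)) : Prop := ∀ σ : List Bool, ∃ τ, σ <+: τ ∧ ∀ Z, Ext τ Z → Z ∈ U

theorem DO.preimage {U : Set (Set ℕ)} (hU : DO U) {K K' : Set ℕ → Set ℕ} (hK : Cont K)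
    (hK' : Cont K') (h1 : ∀ Z, K' (K Z) = Z) (h2 : ∀ Z, K (K' Z) = Z) :
    DO {Z | K Z ∈ U} := by
  intro σ
  obtain ⟨R, hR⟩ := hK'.seg σ.length
  obtain ⟨ρ', hρρ', hρ'U⟩ := hU (pref (K (ofList σ)) R)
  have hW0 : Ext ρ' (ofList ρ') := ext_ofList ρ'
  have hagree : ∀ i, i < R → (i ∈ ofList ρ' ↔ i ∈ K (ofList σ)) := by
    have e1 : Ext (pref (K (ofList σ)) R) (ofList ρ') := Ext.mono hρρ' hW0
    have e2 : Ext (pref (K (ofList σ)) R) (K (ofList σ)) := ext_pref _ _
    have := Ext.agree e1 e2
    simpa using this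
  have hX0 : Ext σ (K' (ofList ρ')) := by
    refine (ext_ofList σ).of_agree fun i hi => ?_
    have := hR (ofList ρ') (K (ofList σ)) hagree i hi
    rw [h1] at this
    exact this.symm
  obtain ⟨R', hR'⟩ := hK.seg ρ'.length
  refine ⟨pref (K' (ofList ρ')) (max R' σ.length), hX0.to_pref (le_max_right _ _), ?_⟩
  intro Z hZ
  have hag : ∀ i, i < max R' σ.length → (i ∈ Z ↔ i ∈ K' (ofList ρ')) := by
    have := Ext.agree hZ (ext_pref (K' (ofList ρ')) (max R' σ.length))
    simpa using this
  have hKag : ∀ m, m < ρ'.length → (m ∈ K Z ↔ m ∈ K (K' (ofList ρ'))) :=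
    hR' Z (K' (ofList ρ')) fun i hi => hag i (lt_of_lt_of_le hi (le_max_left _ _))
  rw [h2] at hKag
  exact hρ'U (K Z) (hW0.of_agree fun m hm => (hKag m hm).symm)

theorem ext_iff' (σ : List Bool) (Z : Set ℕ) :
    Ext σ Z ↔ ∀ i b, σ[i]? = some b → bit Z i = b := by
  rw [ext_iff]
  constructor
  · intro h i b hb
    have hi : i < σ.length := by
      by_contra hc
      rw [List.getElem?_eq_none (by omega)] at hb
      cases hb
    rw [List.getElem?_eq_getElem hi] at hb
    rw [← h i hi]; exact Option.some.inj hb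
  · intro h i hi
    exact (h i _ (List.getElem?_eq_getElem hi)).symm

/-- Replace the first bits of a set by the bits of a string. -/
def spliceSet (τ0 : List Bool) (Z : Set ℕ) : Set ℕ :=
  {i | if i < τ0.length then τ0[i]? = some true else i ∈ Z}

theorem spliceSet_agree (τ0 : List Bool) (Z : Set ℕ) :
    ∀ i, τ0.length ≤ i → (i ∈ spliceSet τ0 Z ↔ i ∈ Z) := by
  intro i hi
  unfold spliceSet
  simp [Nat.not_lt.mpr hi]

theorem ext_splice (τ0 σ : List Bool) (Z : Set ℕ) (h : Ext σ Z) :
    Ext (τ0 ++ σ.drop τ0.length) (spliceSet τ0 Z) := by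
  rw [ext_iff'] at h ⊢
  intro i b hb
  rw [List.getElem?_append] at hb
  split_ifs at hb with hi
  · cases b
    · by_contra hc
      have hm : i ∈ spliceSet τ0 Z := (bit_eq_true_iff _ _).mp (by simpa using hc)
      unfold spliceSet at hm
      simp only [Set.mem_ofPred_eq, if_pos hi] at hm
      rw [hb] at hm
      cases hm
    · apply (bit_eq_true_iff _ _).mpr
      unfold spliceSet
      simp only [Set.mem_ofPred_eq, if_pos hi]
      exact hb
  · rw [List.getElem?_drop] at hb
    have e : τ0.length + (i - τ0.length) = i := by omega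
    rw [e] at hb
    rw [← h i b hb]
    exact (bit_eq_bit_iff _ _ _ _).mpr (spliceSet_agree τ0 Z i (by omega))

/-- A function on strings that only depends on the first `R` bits is primitive recursive. -/
theorem primrec_of_take {β : Type} [Primcodable β] (R : ℕ) :
    ∀ f : List Bool → β, (∀ σ, f σ = f (σ.take R)) → Primrec f := by
  induction R with
  | zero =>
    intro f hf
    have : f = fun _ => f [] := by
      funext σ; rw [hf σ]; rfl
    rw [this]; exact Primrec.const _
  | succ R ih =>
    intro f hf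
    have h1 : Primrec (fun t : List Bool => f (true :: t)) :=
      ih _ fun t => by rw [hf (true :: t), hf (true :: t.take R)]; simp [List.take_take]
    have h0 : Primrec (fun t : List Bool => f (false :: t)) :=
      ih _ fun t => by rw [hf (false :: t), hf (false :: t.take R)]; simp [List.take_take]
    have hstep : Primrec₂ (fun (_ : List Bool) (p : Bool × List Bool) =>
        cond p.1 (f (true :: p.2)) (f (false :: p.2))) :=
      (Primrec.cond (Primrec.fst.comp Primrec.snd) (h1.comp (Primrec.snd.comp Primrec.snd))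
        (h0.comp (Primrec.snd.comp Primrec.snd))).to₂
    have := Primrec.list_casesOn (f := fun σ : List Bool => σ) (g := fun _ => f [])
      Primrec.id (Primrec.const _) hstep
    refine this.of_eq fun σ => ?_
    cases σ with
    | nil => rfl
    | cons b t => cases b <;> rfl

theorem primrec_bfind {α : Type} [Primcodable α] {F : α → ℕ → ℕ} {T : α → ℕ}
    (hF : Primrec₂ F) (hT : Primrec T) : Primrec (fun a => bfind (F a) (T a)) := by
  have hS : Primrec (fun q : ℕ × ℕ × ℕ =>
      if q.1 < q.2.1 then q.1 else if q.2.2 = 0 then q.2.1 + 1 else q.2.1) := by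
    refine Primrec.ite (Primrec.nat_lt.comp Primrec.fst (Primrec.fst.comp Primrec.snd))
      Primrec.fst ?_
    refine Primrec.ite (Primrec.eq.comp (Primrec.snd.comp Primrec.snd) (Primrec.const 0))
      (Primrec.succ.comp (Primrec.fst.comp Primrec.snd)) (Primrec.fst.comp Primrec.snd)
  have h : Primrec₂ (fun (a : α) (p : ℕ × ℕ) =>
      if p.2 < p.1 then p.2 else if F a p.1 = 0 then p.1 + 1 else p.1) := by
    have := hS.comp (Primrec.pair (Primrec.snd.comp Primrec.snd)
      (Primrec.pair (Primrec.fst.comp Primrec.snd)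
        (hF.comp Primrec.fst (Primrec.fst.comp Primrec.snd))))
    exact this
  refine (Primrec.nat_rec' hT (Primrec.const 0) h).of_eq fun a => ?_
  have : ∀ t, (Nat.rec (motive := fun _ => ℕ) 0
      (fun n IH => if IH < n then IH else if F a n = 0 then n + 1 else n) t) = bfind (F a) t := by
    intro t
    induction t with
    | zero => unfold bfind; rfl
    | succ t ih => rw [bfind_succ, ← ih]
  exact this (T a)

end Vale.Agent.Lib.P327
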