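import Mathlib
import Vale.Agent.Lib.P327.Maps

/-!
A category argument: a continuous map `K` of Cantor space with `K Z` Turing reducible to `Z`
for every `Z` is computed, on a dense set of strings above some string, by a single monotone
string functional.
-/

namespace Vale.Agent.Lib.P327

open Nat.Partrec (Code)

theorem baire_step (K : Set ℕ → Set ℕ) (hK : Cont K)
    (hno : ¬ ∃ (c : Code) (τ0 : List Bool), Mono c ∧
      (∀ ρ, τ0 <+: ρ → ∀ n, ∃ ρ', ρ <+: ρ' ∧ (phi c ρ' n).Dom) ∧
      (∀ ρ' n v, τ0 <+: ρ' → v ∈ phi c ρ' n → ∀ Z, Ext ρ' Z → chi (K Z) n = v))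
    (c : Code) (τ : List Bool) :
    ∃ τ', τ <+: τ' ∧ ∀ Z, Ext τ' Z → ¬ (Mono c ∧ Computes c (K Z) Z) := by
  by_cases hm : Mono c
  · have hbad : ¬ ((∀ ρ, τ <+: ρ → ∀ n, ∃ ρ', ρ <+: ρ' ∧ (phi c ρ' n).Dom) ∧
        (∀ ρ' n v, τ <+: ρ' → v ∈ phi c ρ' n → ∀ Z, Ext ρ' Z → chi (K Z) n = v)) :=
      fun h => hno ⟨c, τ, hm, h.1, h.2⟩
    by_cases hD : ∀ ρ, τ <+: ρ → ∀ n, ∃ ρ', ρ <+: ρ' ∧ (phi c ρ' n).Dom
    · have hC : ¬ ∀ ρ' n v, τ <+: ρ' → v ∈ phi c ρ' n → ∀ Z, Ext ρ' Z → chi (K Z) n = v :=
        fun h => hbad ⟨hD, h⟩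
      simp only [not_forall] at hC
      obtain ⟨ρ', n, v, hτρ, hv, Z0, hZ0, hne⟩ := hC
      obtain ⟨r, hr⟩ := hK n
      refine ⟨pref Z0 (max r ρ'.length), hτρ.trans (hZ0.to_pref (le_max_right _ _)), ?_⟩
      intro Z hZ ⟨_, hcomp⟩
      have hag : ∀ i, i < max r ρ'.length → (i ∈ Z ↔ i ∈ Z0) := by
        have := Ext.agree hZ (ext_pref Z0 (max r ρ'.length))
        simpa using this
      have hKn : chi (K Z) n = chi (K Z0) n :=
        (chi_eq_chi_iff _ _ _ _).mpr
          (hr Z Z0 fun i hi => hag i (lt_of_lt_of_le hi (le_max_left _ _)))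
      have hρZ : Ext ρ' Z := Ext.mono (hZ0.to_pref (le_max_right _ _)) hZ
      obtain ⟨k, hk⟩ := hcomp n
      have e1 := hm _ _ n _ (pref_le Z (le_max_left k ρ'.length)) hk
      have e2 := hm _ _ n _ (hρZ.to_pref (le_max_right k ρ'.length)) hv
      have := Part.mem_unique e1 e2
      exact hne (hKn ▸ this)
    · simp only [not_forall] at hD
      obtain ⟨ρ, hτρ, n, hn⟩ := hD
      simp only [not_exists, not_and] at hn
      refine ⟨ρ, hτρ, ?_⟩
      intro Z hZ ⟨_, hcomp⟩
      obtain ⟨k, hk⟩ := hcomp n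
      by_cases hkl : ρ.length ≤ k
      · exact hn _ (hZ.to_pref hkl) (Part.dom_iff_mem.mpr ⟨_, hk⟩)
      · have := hm _ _ n _ (hZ.of_pref (by omega)) hk
        exact hn ρ List.prefix_rfl (Part.dom_iff_mem.mpr ⟨_, this⟩)
  · exact ⟨τ, List.prefix_rfl, fun Z _ h => hm h.1⟩

/-- The chain of strings built by handling all codes one after the other. -/
noncomputable def baireSeq (step : Code → List Bool → List Bool) : ℕ → List Bool
  | 0 => []
  | e + 1 => step (Denumerable.ofNat Code e) (baireSeq step e)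

theorem baire_local (K : Set ℕ → Set ℕ) (hK : Cont K) (hred : ∀ Z, TLe (K Z) Z) :
    ∃ (c : Code) (τ0 : List Bool), Mono c ∧
      (∀ ρ, τ0 <+: ρ → ∀ n, ∃ ρ', ρ <+: ρ' ∧ (phi c ρ' n).Dom) ∧
      (∀ ρ' n v, τ0 <+: ρ' → v ∈ phi c ρ' n → ∀ Z, Ext ρ' Z → chi (K Z) n = v) := by
  by_contra hno
  have hstep := baire_step K hK hno
  choose step hstep1 hstep2 using hstep
  have hchain : ∀ e, baireSeq step e <+: baireSeq step (e + 1) := fun e => hstep1 _ _
  obtain ⟨c, hm, hc⟩ := use_principle (hred (chainLim (baireSeq step)))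
  have hE := ext_chainLim hchain (Encodable.encode c + 1)
  have : baireSeq step (Encodable.encode c + 1) = step c (baireSeq step (Encodable.encode c)) := by
    show step (Denumerable.ofNat Code (Encodable.encode c)) _ = _
    rw [Denumerable.ofNat_encode]
  rw [this] at hE
  exact hstep2 c _ _ hE ⟨hm, hc⟩

/-- `Approx g K` : the primitive recursive, monotone string map `g` sends every string to an
initial segment of the image under `K` of each of its extensions, and these segments are long
on a dense set of strings. -/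
def Approx (g : List Bool → List Bool) (K : Set ℕ → Set ℕ) : Prop :=
  Primrec g ∧ (∀ σ τ, σ <+: τ → g σ <+: g τ) ∧ (∀ σ Z, Ext σ Z → Ext (g σ) (K Z)) ∧
    (∀ σ l, ∃ τ, σ <+: τ ∧ l ≤ (g τ).length)

theorem approx_of_bits (K : Set ℕ → Set ℕ) (u : List Bool → ℕ → Option Bool) (hu : Primrec₂ u)
    (hmono : ∀ σ τ n b, σ <+: τ → u σ n = some b → u τ n = some b)
    (hsound : ∀ σ n b Z, Ext σ Z → u σ n = some b → b = bit (K Z) n)
    (hdense : ∀ σ n, ∃ τ, σ <+: τ ∧ u τ n ≠ none) : ∃ g, Approx g K := by
  let f : List Bool → ℕ → ℕ := fun σ n => cond (u σ n).isSome 0 1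
  let l : List Bool → ℕ := fun σ => bfind (f σ) σ.length
  have hl_le : ∀ σ, l σ ≤ σ.length := fun σ => bfind_le _ _
  have hl_some : ∀ σ n, n < l σ → ∃ b, u σ n = some b := by
    intro σ n hn
    have h0 : f σ n = 0 := (bfind_spec (f σ) σ.length).2 n hn
    cases hv : u σ n with
    | none => simp [f, hv] at h0
    | some b => exact ⟨b, rfl⟩
  have hl_none : ∀ σ, l σ < σ.length → u σ (l σ) = none := by
    intro σ h
    have h0 : f σ (l σ) ≠ 0 := (bfind_spec (f σ) σ.length).1 h
    cases hv : u σ (l σ) with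
    | none => rfl
    | some b => simp [f, hv] at h0
  have hl_mono : ∀ σ τ, σ <+: τ → l σ ≤ l τ := by
    intro σ τ hst
    by_contra hc
    have h1 : l τ < l σ := by omega
    have h2 := hl_le σ
    have h3 := hst.length_le
    obtain ⟨b, hb⟩ := hl_some σ (l τ) h1
    have h4 := hmono σ τ _ b hst hb
    rw [hl_none τ (by omega)] at h4
    cases h4
  let g : List Bool → List Bool := fun σ => (List.range (l σ)).map fun n => (u σ n).getD false
  have hg_len : ∀ σ, (g σ).length = l σ := fun σ => by simp [g]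
  refine ⟨g, ?_, ?_, ?_, ?_⟩
  · have hf : Primrec₂ f :=
      (Primrec.cond (Primrec.option_isSome.comp hu) (Primrec.const 0) (Primrec.const 1)).to₂
    have hl : Primrec l := primrec_bfind hf Primrec.list_length
    have hgd : Primrec₂ (fun (σ : List Bool) (n : ℕ) => (u σ n).getD false) :=
      (Primrec.option_getD.comp hu (Primrec.const false)).to₂
    exact Primrec.list_map (Primrec.list_range.comp hl) hgd
  · intro σ τ hst
    rw [List.prefix_iff_eq_take, hg_len]
    show (List.range (l σ)).map (fun n => (u σ n).getD false) =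
      ((List.range (l τ)).map fun n => (u τ n).getD false).take (l σ)
    rw [← List.map_take, List.take_range, min_eq_left (hl_mono σ τ hst)]
    apply List.map_congr_left
    intro n hn
    obtain ⟨b, hb⟩ := hl_some σ n (List.mem_range.mp hn)
    rw [hb, hmono σ τ n b hst hb]
  · intro σ Z hZ
    rw [ext_iff]
    intro i hi
    rw [hg_len] at hi
    obtain ⟨b, hb⟩ := hl_some σ i hi
    have : (g σ)[i] = (u σ i).getD false := by simp [g]
    rw [this, hb]
    exact hsound σ i b Z hZ hb
  · intro σ L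
    have key : ∀ L, ∃ τ, σ <+: τ ∧ L ≤ τ.length ∧ ∀ n, n < L → u τ n ≠ none := by
      intro L
      induction L with
      | zero => exact ⟨σ, List.prefix_rfl, Nat.zero_le _, fun n hn => absurd hn (by omega)⟩
      | succ L ih =>
        obtain ⟨τ, h1, _, h3⟩ := ih
        obtain ⟨τ', h4, h5⟩ := hdense τ L
        obtain ⟨τ'', h6, h7⟩ := exists_long_ext τ' (L + 1)
        refine ⟨τ'', h1.trans (h4.trans h6), h7, fun n hn => ?_⟩
        rcases Nat.lt_succ_iff_lt_or_eq.mp hn with h' | rfl
        · cases hv : u τ n with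
          | none => exact absurd hv (h3 n h')
          | some b => rw [hmono τ τ'' n b (h4.trans h6) hv]; simp
        · cases hv : u τ' n with
          | none => exact absurd hv h5
          | some b => rw [hmono τ' τ'' n b h6 hv]; simp
    obtain ⟨τ, h1, h2, h3⟩ := key L
    refine ⟨τ, h1, ?_⟩
    rw [hg_len]
    by_contra hc
    exact h3 (l τ) (by omega) (hl_none τ (by omega))

theorem drop_le {σ τ : List Bool} (h : σ <+: τ) (n : ℕ) : σ.drop n <+: τ.drop n := by
  obtain ⟨t, rfl⟩ := h
  rw [List.drop_append]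
  exact List.prefix_append _ _

/-- The step-bounded value of the functional of `c` on the string obtained from the first `j`
bits of `σ` by replacing its first bits with `τ0`. -/
def hiW (c : Code) (τ0 σ : List Bool) (n j : ℕ) : Option ℕ :=
  c.evaln σ.length (Encodable.encode (τ0 ++ (σ.take j).drop τ0.length, n))

/-- The first `j` at which `hiW` gives a value. -/
def hiJ (c : Code) (τ0 σ : List Bool) (n : ℕ) : ℕ :=
  bfind (fun j => cond (hiW c τ0 σ n j).isSome 1 0) (σ.length + 1)

/-- The bit found by the bounded search. -/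
def hiU (c : Code) (τ0 σ : List Bool) (n : ℕ) : Option Bool :=
  (hiW c τ0 σ n (hiJ c τ0 σ n)).map fun v => decide (v = 1)

theorem hiU_some {c : Code} {τ0 σ : List Bool} {n : ℕ} {b : Bool} (h : hiU c τ0 σ n = some b) :
    ∃ j v, hiW c τ0 σ n j = some v ∧ b = decide (v = 1) := by
  unfold hiU at h
  rw [Option.map_eq_some_iff] at h
  obtain ⟨v, hv, rfl⟩ := h
  exact ⟨_, v, hv, rfl⟩

theorem hiU_of {c : Code} {τ0 σ : List Bool} {n j v : ℕ} (hj : j ≤ σ.length)
    (h : hiW c τ0 σ n j = some v) : ∃ b, hiU c τ0 σ n = some b := by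
  have h1 : hiJ c τ0 σ n < σ.length + 1 :=
    bfind_lt_of_exists _ (Nat.lt_succ_of_le hj) (by simp [h])
  have h2 := (bfind_spec (fun j => cond (hiW c τ0 σ n j).isSome 1 0) (σ.length + 1)).1 h1
  unfold hiU
  cases hv : hiW c τ0 σ n (hiJ c τ0 σ n) with
  | none =>
    exfalso; apply h2
    show cond (hiW c τ0 σ n (hiJ c τ0 σ n)).isSome 1 0 = 0
    rw [hv]; rfl
  | some w => exact ⟨decide (w = 1), rfl⟩

theorem hiW_mem {c : Code} {τ0 σ : List Bool} {n j v : ℕ} (h : hiW c τ0 σ n j = some v) :
    v ∈ phi c (τ0 ++ (σ.take j).drop τ0.length) n :=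
  Nat.Partrec.Code.evaln_sound h

theorem hiU_mono {c : Code} {τ0 : List Bool} (hm : Mono c) {σ τ : List Bool} {n : ℕ} {b : Bool}
    (hst : σ <+: τ) (h : hiU c τ0 σ n = some b) : hiU c τ0 τ n = some b := by
  obtain ⟨j, v, hw, rfl⟩ := hiU_some h
  have hw' : hiW c τ0 σ n (min j σ.length) = some v := by
    rcases le_total j σ.length with hj | hj
    · rw [min_eq_left hj]; exact hw
    · rw [min_eq_right hj]
      unfold hiW at hw ⊢
      rw [List.take_of_length_le hj] at hw
      rw [List.take_of_length_le le_rfl]; exact hw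
  have hwτ : hiW c τ0 τ n (min j σ.length) = some v := by
    obtain ⟨t, rfl⟩ := hst
    unfold hiW at hw' ⊢
    rw [List.take_append_of_le_length (min_le_right _ _)]
    exact Nat.Partrec.Code.evaln_mono (by simp) hw'
  obtain ⟨b', hb'⟩ := hiU_of ((min_le_right _ _).trans hst.length_le) hwτ
  obtain ⟨j2, v2, hw2, rfl⟩ := hiU_some hb'
  have hle : ∀ x, τ0 ++ (τ.take x).drop τ0.length <+: τ0 ++ τ.drop τ0.length := fun x =>
    (List.prefix_append_right_inj τ0).mpr (drop_le (List.take_prefix x τ) _)
  have e1 := hm _ _ n _ (hle _) (hiW_mem hwτ)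
  have e2 := hm _ _ n _ (hle _) (hiW_mem hw2)
  rw [hb', Part.mem_unique e1 e2]

theorem primrec_hiU (c : Code) (τ0 : List Bool) :
    Primrec₂ (fun (σ : List Bool) (n : ℕ) => hiU c τ0 σ n) := by
  have hW : Primrec (fun q : (List Bool × ℕ) × ℕ => hiW c τ0 q.1.1 q.1.2 q.2) := by
    refine Nat.Partrec.Code.primrec_evaln.comp (Primrec.pair (Primrec.pair
      (Primrec.list_length.comp (Primrec.fst.comp Primrec.fst)) (Primrec.const c)) ?_)
    refine Primrec.encode.comp (Primrec.pair ?_ (Primrec.snd.comp Primrec.fst))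
    exact Primrec.list_append.comp (Primrec.const τ0)
      (Primrec.list_drop.comp (Primrec.const τ0.length)
        (Primrec.list_take.comp Primrec.snd (Primrec.fst.comp Primrec.fst)))
  have hF : Primrec₂ (fun (p : List Bool × ℕ) (j : ℕ) =>
      cond (hiW c τ0 p.1 p.2 j).isSome 1 0) :=
    (Primrec.cond (Primrec.option_isSome.comp hW) (Primrec.const 1) (Primrec.const 0)).to₂
  have hJ : Primrec (fun p : List Bool × ℕ => hiJ c τ0 p.1 p.2) :=
    primrec_bfind hF (Primrec.succ.comp (Primrec.list_length.comp Primrec.fst))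
  have hWJ : Primrec (fun p : List Bool × ℕ => hiW c τ0 p.1 p.2 (hiJ c τ0 p.1 p.2)) :=
    hW.comp (Primrec.pair Primrec.id hJ)
  have hdec : Primrec₂ (fun (_ : List Bool × ℕ) (v : ℕ) => decide (v = 1)) :=
    (Primrec.eq.decide.comp Primrec.snd (Primrec.const 1)).to₂
  exact Primrec.option_map hWJ hdec

/-- Every continuous map `K` of Cantor space that is uniformly invariant under finite
modifications and has `K Z` Turing reducible to `Z` for all `Z` has a computable
approximation. -/
theorem baire_global (K : Set ℕ → Set ℕ) (hK : Cont K) (hT : Tail K)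
    (hred : ∀ Z, TLe (K Z) Z) : ∃ g, Approx g K := by
  obtain ⟨c, τ0, hm, hD, hC⟩ := baire_local K hK hred
  obtain ⟨b, hb⟩ := hT τ0.length
  obtain ⟨R, hR⟩ := hK.seg b
  let lowtab : List Bool → List Bool := fun σ => pref (K (ofList (σ.take R))) b
  have hlow : Primrec lowtab :=
    primrec_of_take R lowtab fun σ => by simp [lowtab, List.take_take]
  let u : List Bool → ℕ → Option Bool := fun σ n =>
    if n < b then (if R ≤ σ.length then (lowtab σ)[n]? else none) else hiU c τ0 σ n
  have hu : Primrec₂ u := by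
    refine Primrec.ite (Primrec.nat_lt.comp Primrec.snd (Primrec.const b)) ?_ (primrec_hiU c τ0)
    refine Primrec.ite (Primrec.nat_le.comp (Primrec.const R)
      (Primrec.list_length.comp Primrec.fst)) ?_ (Primrec.const none)
    exact Primrec.list_getElem?.comp (hlow.comp Primrec.fst) Primrec.snd
  refine approx_of_bits K u hu ?_ ?_ ?_
  · intro σ τ n bb hst h
    by_cases hn : n < b
    · simp only [u, if_pos hn] at h ⊢
      by_cases hRl : R ≤ σ.length
      · rw [if_pos hRl] at h
        rw [if_pos (hRl.trans hst.length_le)]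
        have : lowtab τ = lowtab σ := by
          obtain ⟨t, rfl⟩ := hst
          simp only [lowtab]
          rw [List.take_append_of_le_length hRl]
        rw [this]; exact h
      · rw [if_neg hRl] at h; cases h
    · simp only [u, if_neg hn] at h ⊢
      exact hiU_mono hm hst h
  · intro σ n bb Z hZ h
    by_cases hn : n < b
    · simp only [u, if_pos hn] at h
      by_cases hRl : R ≤ σ.length
      · rw [if_pos hRl] at h
        simp only [lowtab] at h
        rw [pref_getElem?, if_pos hn] at h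
        have h1 : bit (K (ofList (σ.take R))) n = bb := Option.some.inj h
        rw [← h1]
        refine (bit_eq_bit_iff _ _ _ _).mpr (hR _ _ ?_ n hn)
        have e1 : Ext (σ.take R) (ofList (σ.take R)) := ext_ofList _
        have e2 : Ext (σ.take R) Z := Ext.mono (List.take_prefix R σ) hZ
        have := Ext.agree e1 e2
        rw [List.length_take, min_eq_left hRl] at this
        exact this
      · rw [if_neg hRl] at h; cases h
    · simp only [u, if_neg hn] at h
      obtain ⟨j, v, hw, rfl⟩ := hiU_some h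
      have hv := hiW_mem hw
      have hE : Ext (τ0 ++ (σ.take j).drop τ0.length) (spliceSet τ0 Z) :=
        ext_splice τ0 _ Z (Ext.mono (List.take_prefix j σ) hZ)
      have h1 : chi (K (spliceSet τ0 Z)) n = v :=
        hC _ n v (List.prefix_append _ _) hv _ hE
      have h2 : n ∈ K (spliceSet τ0 Z) ↔ n ∈ K Z :=
        hb _ _ (spliceSet_agree τ0 Z) n (by omega)
      have h3 : chi (K Z) n = v := by
        rw [← h1]; exact (chi_eq_chi_iff _ _ _ _).mpr h2.symm
      rw [← h3]
      by_cases hmem : n ∈ K Z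
      · rw [(bit_eq_true_iff _ _).mpr hmem, (chi_eq_one_iff _ _).mpr hmem]; simp
      · have hz : chi (K Z) n = 0 := (chi_eq_zero_iff _ _).mpr hmem
        rw [hz]
        have : bit (K Z) n = false := by
          cases hbit : bit (K Z) n
          · rfl
          · exact absurd ((bit_eq_true_iff _ _).mp hbit) hmem
        rw [this]; simp
  · intro σ n
    by_cases hn : n < b
    · refine ⟨σ ++ List.replicate R false, List.prefix_append _ _, ?_⟩
      simp only [u, if_pos hn]
      rw [if_pos (by simp)]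
      simp only [lowtab]
      rw [pref_getElem?, if_pos hn]
      simp
    · obtain ⟨σ1, hσσ1, hlen⟩ := exists_long_ext σ τ0.length
      obtain ⟨ρ', hρ, hdom⟩ := hD (τ0 ++ σ1.drop τ0.length) (List.prefix_append _ _) n
      obtain ⟨t, rfl⟩ := hρ
      obtain ⟨v, hv⟩ := Part.dom_iff_mem.mp hdom
      obtain ⟨s, hs⟩ := Nat.Partrec.Code.evaln_complete.mp hv
      refine ⟨(σ1 ++ t) ++ List.replicate s false,
        hσσ1.trans ((List.prefix_append _ _).trans (List.prefix_append _ _)), ?_⟩
      have hw : hiW c τ0 ((σ1 ++ t) ++ List.replicate s false) n (σ1 ++ t).length = some v := by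
        unfold hiW
        rw [List.take_left' rfl, List.drop_append_of_le_length hlen, ← List.append_assoc]
        exact Nat.Partrec.Code.evaln_mono (by simp; omega) hs
      obtain ⟨bb, hbb⟩ := hiU_of (by simp) hw
      simp only [u, if_neg hn]
      rw [hbb]; simp

end Vale.Agent.Lib.P327
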