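import Mathlib
import Vale.Agent.Lib.P327.Baire

/-!
Four computable homeomorphisms of Cantor space (a shift of the coordinates along a single
orbit, its inverse, the flip of coordinate `0`, and the flip of coordinate `0` controlled by
coordinate `1`), with their moduli, and truth-table style reductions.
-/

namespace Vale.Agent.Lib.P327

/-- A reduction with a computable bound on the use. -/
theorem TLe_of_tt {A B : Set ℕ} (r : ℕ → ℕ) (V : ℕ → List Bool → Bool) (hr : Computable r)
    (hV : Computable₂ V) (h : ∀ n, bit A n = V n (pref B (r n))) : TLe A B := by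
  refine TLe_of_use (fun σ n => if r n ≤ σ.length then some (V n (σ.take (r n))) else none)
    ?_ ?_ ?_
  · have h1 : Computable (fun p : List Bool × ℕ => decide (r p.2 ≤ p.1.length)) :=
      (Primrec.nat_le.decide.to_comp).comp (hr.comp Computable.snd)
        (Computable.list_length.comp Computable.fst)
    have h2 : Computable (fun p : List Bool × ℕ => some (V p.2 (p.1.take (r p.2)))) :=
      Computable.option_some.comp (hV.comp Computable.snd
        ((Primrec.list_take.to_comp).comp (hr.comp Computable.snd) Computable.fst))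
    have h3 : Computable (fun p : List Bool × ℕ =>
        if r p.2 ≤ p.1.length then some (V p.2 (p.1.take (r p.2))) else none) :=
      (Computable.cond h1 h2 (Computable.const none)).of_eq fun p => by
        by_cases hp : r p.2 ≤ p.1.length <;> simp [hp]
    exact h3.to₂
  · intro n
    refine ⟨r n, ?_⟩
    simp only [length_pref, le_refl, if_true]
    rw [h n, List.take_of_length_le (by simp)]
  · intro n k b hb
    split_ifs at hb with hk
    · rw [length_pref] at hk
      have e : (pref B k).take (r n) = pref B (r n) := by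
        have := pref_le B hk
        rw [List.prefix_iff_eq_take, length_pref] at this
        exact this.symm
      rw [e] at hb
      rw [h n]; exact (Option.some.inj hb).symm

/-- The shift of the coordinates along the orbit `… → 4 → 2 → 0 → 1 → 3 → 5 → …`. -/
def shf (n : ℕ) : ℕ := if n % 2 = 1 then n + 2 else if n = 0 then 1 else n - 2

/-- The inverse of `shf`. -/
def shb (n : ℕ) : ℕ := if n % 2 = 0 then n + 2 else if n = 1 then 0 else n - 2

theorem shf_shb (n : ℕ) : shf (shb n) = n := by
  unfold shb
  by_cases h : n % 2 = 0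
  · rw [if_pos h]; unfold shf
    have h1 : ¬ ((n + 2) % 2 = 1) := by omega
    have h2 : ¬ (n + 2 = 0) := by omega
    rw [if_neg h1, if_neg h2]; omega
  · rw [if_neg h]
    by_cases h1 : n = 1
    · rw [if_pos h1]; subst h1; rfl
    · rw [if_neg h1]; unfold shf
      have h2 : (n - 2) % 2 = 1 := by omega
      rw [if_pos h2]; omega

theorem shb_shf (n : ℕ) : shb (shf n) = n := by
  unfold shf
  by_cases h : n % 2 = 1
  · rw [if_pos h]; unfold shb
    have h1 : ¬ ((n + 2) % 2 = 0) := by omega
    have h2 : ¬ (n + 2 = 1) := by omega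
    rw [if_neg h1, if_neg h2]; omega
  · rw [if_neg h]
    by_cases h1 : n = 0
    · rw [if_pos h1]; subst h1; rfl
    · rw [if_neg h1]; unfold shb
      have h2 : (n - 2) % 2 = 0 := by omega
      rw [if_pos h2]; omega

theorem shf_ge (n : ℕ) : n ≤ shf n + 2 := by
  unfold shf; split_ifs <;> omega

theorem shb_ge (n : ℕ) : n ≤ shb n + 2 := by
  unfold shb; split_ifs <;> omega

theorem shf_iter_one (j : ℕ) : shf^[j] 1 = 2 * j + 1 := by
  induction j with
  | zero => rfl
  | succ j ih =>
    rw [Function.iterate_succ_apply', ih]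
    unfold shf
    split_ifs <;> omega

theorem shb_iter_one (j : ℕ) : shb^[j + 1] 1 = 2 * j := by
  induction j with
  | zero => rfl
  | succ j ih =>
    rw [Function.iterate_succ_apply', ih]
    unfold shb
    split_ifs <;> omega

theorem primrec_shf : Primrec shf := by
  unfold shf
  refine Primrec.ite (Primrec.eq.comp (Primrec.nat_mod.comp Primrec.id (Primrec.const 2))
    (Primrec.const 1)) (Primrec.nat_add.comp Primrec.id (Primrec.const 2)) ?_
  exact Primrec.ite (Primrec.eq.comp Primrec.id (Primrec.const 0)) (Primrec.const 1)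
    (Primrec.nat_sub.comp Primrec.id (Primrec.const 2))

theorem primrec_shb : Primrec shb := by
  unfold shb
  refine Primrec.ite (Primrec.eq.comp (Primrec.nat_mod.comp Primrec.id (Primrec.const 2))
    (Primrec.const 0)) (Primrec.nat_add.comp Primrec.id (Primrec.const 2)) ?_
  exact Primrec.ite (Primrec.eq.comp Primrec.id (Primrec.const 1)) (Primrec.const 0)
    (Primrec.nat_sub.comp Primrec.id (Primrec.const 2))

/-- The forward shift of a set. -/
def gateS (X : Set ℕ) : Set ℕ := {n | shb n ∈ X}

/-- The backward shift of a set. -/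
def gateR (X : Set ℕ) : Set ℕ := {n | shf n ∈ X}

/-- The flip of coordinate `0`. -/
def gateT (X : Set ℕ) : Set ℕ := {n | if n = 0 then 0 ∉ X else n ∈ X}

/-- The flip of coordinate `0` controlled by coordinate `1`. -/
def gateC (X : Set ℕ) : Set ℕ := {n | if n = 0 then (0 ∈ X ↔ 1 ∉ X) else n ∈ X}

theorem mem_gateS (X : Set ℕ) (n : ℕ) : n ∈ gateS X ↔ shb n ∈ X := Iff.rfl

theorem mem_gateR (X : Set ℕ) (n : ℕ) : n ∈ gateR X ↔ shf n ∈ X := Iff.rfl

theorem mem_gateT (X : Set ℕ) (n : ℕ) : n ∈ gateT X ↔ if n = 0 then 0 ∉ X else n ∈ X := Iff.rfl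

theorem mem_gateC (X : Set ℕ) (n : ℕ) :
    n ∈ gateC X ↔ if n = 0 then (0 ∈ X ↔ 1 ∉ X) else n ∈ X := Iff.rfl

theorem gateS_gateR (X : Set ℕ) : gateS (gateR X) = X := by
  ext n; rw [mem_gateS, mem_gateR, shf_shb]

theorem gateR_gateS (X : Set ℕ) : gateR (gateS X) = X := by
  ext n; rw [mem_gateR, mem_gateS, shb_shf]

theorem gateT_gateT (X : Set ℕ) : gateT (gateT X) = X := by
  ext n
  rw [mem_gateT]
  by_cases hn : n = 0
  · subst hn
    simp only [if_true, mem_gateT]
    exact not_not
  · simp only [if_neg hn, mem_gateT]

theorem gateC_gateC (X : Set ℕ) : gateC (gateC X) = X := by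
  ext n
  rw [mem_gateC]
  by_cases hn : n = 0
  · subst hn
    simp only [if_true, mem_gateC]
    have : (1 : ℕ) ≠ 0 := by omega
    simp only [if_neg this]
    tauto
  · simp only [if_neg hn, mem_gateC]

theorem gateT_ne (X : Set ℕ) : gateT X ≠ X := by
  intro h
  have : (0 : ℕ) ∈ gateT X ↔ 0 ∈ X := by rw [h]
  rw [mem_gateT] at this
  simp only [if_true] at this
  tauto

theorem gateC_of_not_mem {X : Set ℕ} (h : 1 ∉ X) : gateC X = X := by
  ext n
  rw [mem_gateC]
  by_cases hn : n = 0
  · subst hn; simp only [if_true]; tauto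
  · simp only [if_neg hn]

theorem gateC_of_mem {X : Set ℕ} (h : 1 ∈ X) : gateC X = gateT X := by
  ext n
  rw [mem_gateC, mem_gateT]
  by_cases hn : n = 0
  · subst hn; simp only [if_true]; tauto
  · simp only [if_neg hn]

theorem mem_gateR_iter (X : Set ℕ) (j n : ℕ) : n ∈ gateR^[j] X ↔ shf^[j] n ∈ X := by
  induction j generalizing n with
  | zero => rfl
  | succ j ih =>
    rw [Function.iterate_succ_apply', mem_gateR, ih, ← Function.iterate_succ_apply]

theorem mem_gateS_iter (X : Set ℕ) (j n : ℕ) : n ∈ gateS^[j] X ↔ shb^[j] n ∈ X := by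
  induction j generalizing n with
  | zero => rfl
  | succ j ih =>
    rw [Function.iterate_succ_apply', mem_gateS, ih, ← Function.iterate_succ_apply]

theorem cont_gateS : Cont gateS := fun m =>
  ⟨shb m + 1, fun X Y h => by rw [mem_gateS, mem_gateS]; exact h _ (Nat.lt_succ_self _)⟩

theorem cont_gateR : Cont gateR := fun m =>
  ⟨shf m + 1, fun X Y h => by rw [mem_gateR, mem_gateR]; exact h _ (Nat.lt_succ_self _)⟩

theorem cont_gateT : Cont gateT := fun m =>
  ⟨m + 1, fun X Y h => by
    rw [mem_gateT, mem_gateT]
    by_cases hm : m = 0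
    · subst hm; simp only [if_true]; exact not_congr (h 0 (by omega))
    · simp only [if_neg hm]; exact h m (by omega)⟩

theorem cont_gateC : Cont gateC := fun m =>
  ⟨m + 2, fun X Y h => by
    rw [mem_gateC, mem_gateC]
    by_cases hm : m = 0
    · subst hm; simp only [if_true]
      rw [h 0 (by omega), h 1 (by omega)]
    · simp only [if_neg hm]; exact h m (by omega)⟩

theorem tail_gateS : Tail gateS := fun k =>
  ⟨k + 2, fun X Y h m hm => by
    rw [mem_gateS, mem_gateS]; exact h _ (by have := shb_ge m; omega)⟩

theorem tail_gateR : Tail gateR := fun k =>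
  ⟨k + 2, fun X Y h m hm => by
    rw [mem_gateR, mem_gateR]; exact h _ (by have := shf_ge m; omega)⟩

theorem tail_gateT : Tail gateT := fun k =>
  ⟨k + 1, fun X Y h m hm => by
    rw [mem_gateT, mem_gateT]
    have hm0 : m ≠ 0 := by omega
    simp only [if_neg hm0]; exact h m (by omega)⟩

theorem tail_gateC : Tail gateC := fun k =>
  ⟨k + 1, fun X Y h m hm => by
    rw [mem_gateC, mem_gateC]
    have hm0 : m ≠ 0 := by omega
    simp only [if_neg hm0]; exact h m (by omega)⟩

theorem TLe_gateS (X : Set ℕ) : TLe (gateS X) X :=
  TLe_of_comp shb (fun _ v => v) primrec_shb.to_comp (Computable.snd.to₂) fun i =>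
    (chi_eq_chi_iff _ _ _ _).mpr (mem_gateS X i)

theorem TLe_gateR (X : Set ℕ) : TLe (gateR X) X :=
  TLe_of_comp shf (fun _ v => v) primrec_shf.to_comp (Computable.snd.to₂) fun i =>
    (chi_eq_chi_iff _ _ _ _).mpr (mem_gateR X i)

theorem TLe_gateT (X : Set ℕ) : TLe (gateT X) X := by
  refine TLe_of_tt (fun n => n + 1)
    (fun n σ => if n = 0 then !((σ[0]?).getD false) else (σ[n]?).getD false) ?_ ?_ ?_
  · exact Computable.succ
  · have h1 : Primrec (fun p : ℕ × List Bool => !((p.2[0]?).getD false)) :=
      Primrec.not.comp (Primrec.option_getD.comp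
        (Primrec.list_getElem?.comp Primrec.snd (Primrec.const 0)) (Primrec.const false))
    have h2 : Primrec (fun p : ℕ × List Bool => (p.2[p.1]?).getD false) :=
      Primrec.option_getD.comp (Primrec.list_getElem?.comp Primrec.snd Primrec.fst)
        (Primrec.const false)
    exact (Primrec.ite (Primrec.eq.comp Primrec.fst (Primrec.const 0)) h1 h2).to_comp.to₂
  · intro n
    by_cases hn : n = 0
    · subst hn
      simp only [if_true, pref_getElem?]
      simp only [show (0 : ℕ) < 0 + 1 by omega, if_true, Option.getD_some]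
      by_cases h0 : 0 ∈ X
      · have h1 : bit X 0 = true := (bit_eq_true_iff _ _).mpr h0
        have h2 : ¬ (0 ∈ gateT X) := by rw [mem_gateT]; simp [h0]
        have h3 : bit (gateT X) 0 = false := by
          cases hb : bit (gateT X) 0
          · rfl
          · exact absurd ((bit_eq_true_iff _ _).mp hb) h2
        rw [h1, h3]; rfl
      · have h1 : bit X 0 = false := by
          cases hb : bit X 0
          · rfl
          · exact absurd ((bit_eq_true_iff _ _).mp hb) h0
        have h2 : 0 ∈ gateT X := by rw [mem_gateT]; simp [h0]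
        rw [h1, (bit_eq_true_iff _ _).mpr h2]; rfl
    · simp only [if_neg hn, pref_getElem?]
      simp only [show n < n + 1 by omega, if_true, Option.getD_some]
      refine (bit_eq_bit_iff _ _ _ _).mpr ?_
      rw [mem_gateT]; simp only [if_neg hn]

theorem TLe_gateC (X : Set ℕ) : TLe (gateC X) X := by
  refine TLe_of_tt (fun n => n + 2)
    (fun n σ => if n = 0 then xor ((σ[0]?).getD false) ((σ[1]?).getD false)
      else (σ[n]?).getD false) ?_ ?_ ?_
  · exact Primrec.nat_add.to_comp.comp Computable.id (Computable.const 2)
  · have h0 : Primrec (fun p : ℕ × List Bool => (p.2[0]?).getD false) :=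
      Primrec.option_getD.comp
        (Primrec.list_getElem?.comp Primrec.snd (Primrec.const 0)) (Primrec.const false)
    have h1 : Primrec (fun p : ℕ × List Bool => (p.2[1]?).getD false) :=
      Primrec.option_getD.comp
        (Primrec.list_getElem?.comp Primrec.snd (Primrec.const 1)) (Primrec.const false)
    have hx : Primrec₂ xor := Primrec.dom_finite _
    have h2 : Primrec (fun p : ℕ × List Bool => (p.2[p.1]?).getD false) :=
      Primrec.option_getD.comp (Primrec.list_getElem?.comp Primrec.snd Primrec.fst)
        (Primrec.const false)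
    exact (Primrec.ite (Primrec.eq.comp Primrec.fst (Primrec.const 0)) (hx.comp h0 h1)
      h2).to_comp.to₂
  · intro n
    by_cases hn : n = 0
    · subst hn
      simp only [if_true, pref_getElem?]
      simp only [show (0 : ℕ) < 0 + 2 by omega, show (1 : ℕ) < 0 + 2 by omega, if_true,
        Option.getD_some]
      have key : (0 ∈ gateC X) ↔ (0 ∈ X ↔ 1 ∉ X) := by rw [mem_gateC]; simp
      by_cases h0 : 0 ∈ X <;> by_cases h1 : 1 ∈ X
      · have e0 : bit X 0 = true := (bit_eq_true_iff _ _).mpr h0
        have e1 : bit X 1 = true := (bit_eq_true_iff _ _).mpr h1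
        have e2 : bit (gateC X) 0 = false := by
          cases hb : bit (gateC X) 0
          · rfl
          · have := key.mp ((bit_eq_true_iff _ _).mp hb); tauto
        rw [e0, e1, e2]; rfl
      · have e0 : bit X 0 = true := (bit_eq_true_iff _ _).mpr h0
        have e1 : bit X 1 = false := by
          cases hb : bit X 1
          · rfl
          · exact absurd ((bit_eq_true_iff _ _).mp hb) h1
        have e2 : bit (gateC X) 0 = true := (bit_eq_true_iff _ _).mpr (key.mpr (by tauto))
        rw [e0, e1, e2]; rfl
      · have e0 : bit X 0 = false := by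
          cases hb : bit X 0
          · rfl
          · exact absurd ((bit_eq_true_iff _ _).mp hb) h0
        have e1 : bit X 1 = true := (bit_eq_true_iff _ _).mpr h1
        have e2 : bit (gateC X) 0 = true := (bit_eq_true_iff _ _).mpr (key.mpr (by tauto))
        rw [e0, e1, e2]; rfl
      · have e0 : bit X 0 = false := by
          cases hb : bit X 0
          · rfl
          · exact absurd ((bit_eq_true_iff _ _).mp hb) h0
        have e1 : bit X 1 = false := by
          cases hb : bit X 1
          · rfl
          · exact absurd ((bit_eq_true_iff _ _).mp hb) h1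
        have e2 : bit (gateC X) 0 = false := by
          cases hb : bit (gateC X) 0
          · rfl
          · have := key.mp ((bit_eq_true_iff _ _).mp hb); tauto
        rw [e0, e1, e2]; rfl
    · simp only [if_neg hn, pref_getElem?]
      simp only [show n < n + 2 by omega, if_true, Option.getD_some]
      refine (bit_eq_bit_iff _ _ _ _).mpr ?_
      rw [mem_gateC]; simp only [if_neg hn]

end Vale.Agent.Lib.P327
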