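import Mathlib
import Vale.Agent.Lib.P327.Gates

/-!
Decoding the preimage under a homeomorphism `F` of Cantor space (with inverse `G`) from
computable approximations of the conjugates `F ∘ a ∘ G` of the four gates.
-/

namespace Vale.Agent.Lib.P327

/-- `Good g Z` : the values of `g` on the initial segments of `Z` get arbitrarily long. -/
def Good (g : List Bool → List Bool) (Z : Set ℕ) : Prop :=
  ∀ L, ∃ k, L ≤ (g (pref Z k)).length

theorem iter_mono {g : List Bool → List Bool} (hm : ∀ σ τ, σ <+: τ → g σ <+: g τ) (j : ℕ) :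
    ∀ σ τ, σ <+: τ → g^[j] σ <+: g^[j] τ := by
  induction j with
  | zero => exact fun σ τ h => h
  | succ j ih =>
    intro σ τ h
    rw [Function.iterate_succ_apply', Function.iterate_succ_apply']
    exact hm _ _ (ih σ τ h)

theorem iter_sound {g : List Bool → List Bool} {K : Set ℕ → Set ℕ}
    (hs : ∀ σ Z, Ext σ Z → Ext (g σ) (K Z)) (j : ℕ) :
    ∀ σ Z, Ext σ Z → Ext (g^[j] σ) (K^[j] Z) := by
  induction j with
  | zero => exact fun σ Z h => h
  | succ j ih =>
    intro σ Z h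
    rw [Function.iterate_succ_apply', Function.iterate_succ_apply']
    exact hs _ _ (ih σ Z h)

theorem good_comp {g1 g2 : List Bool → List Bool} {K2 : Set ℕ → Set ℕ}
    (hm1 : ∀ σ τ, σ <+: τ → g1 σ <+: g1 τ) (hs2 : ∀ σ Z, Ext σ Z → Ext (g2 σ) (K2 Z))
    {Z : Set ℕ} (h2 : Good g2 Z) (h1 : Good g1 (K2 Z)) : Good (fun σ => g1 (g2 σ)) Z := by
  intro L
  obtain ⟨k1, hk1⟩ := h1 L
  obtain ⟨k2, hk2⟩ := h2 k1
  refine ⟨k2, ?_⟩
  have hE : Ext (g2 (pref Z k2)) (K2 Z) := hs2 _ _ (ext_pref Z k2)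
  have := hm1 _ _ (hE.of_pref hk2)
  exact hk1.trans this.length_le

theorem good_iter {g : List Bool → List Bool} {K : Set ℕ → Set ℕ}
    (hm : ∀ σ τ, σ <+: τ → g σ <+: g τ) (hs : ∀ σ Z, Ext σ Z → Ext (g σ) (K Z)) {Z : Set ℕ}
    (j : ℕ) (h : ∀ i, i < j → Good g (K^[i] Z)) : Good (g^[j]) Z := by
  induction j with
  | zero => intro L; exact ⟨L, by simp⟩
  | succ j ih =>
    have h1 : Good (g^[j]) Z := ih fun i hi => h i (by omega)
    have h2 := good_comp (g1 := g) (g2 := g^[j]) (K2 := K^[j]) hm (iter_sound hs j) h1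
      (h j (by omega))
    intro L
    obtain ⟨k, hk⟩ := h2 L
    exact ⟨k, by rw [Function.iterate_succ_apply']; exact hk⟩

theorem good_ge {g : List Bool → List Bool} (hm : ∀ σ τ, σ <+: τ → g σ <+: g τ) {Z : Set ℕ}
    (h : Good g Z) (L : ℕ) : ∃ k0, ∀ k, k0 ≤ k → L ≤ (g (pref Z k)).length := by
  obtain ⟨k0, hk0⟩ := h L
  exact ⟨k0, fun k hk => hk0.trans (hm _ _ (pref_le Z hk)).length_le⟩

theorem ext_getD {τ : List Bool} {W : Set ℕ} (h : Ext τ W) {m : ℕ} (hm : m < τ.length) :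
    (τ[m]?).getD false = bit W m := by
  rw [List.getElem?_eq_getElem hm, Option.getD_some]
  exact (ext_iff τ W).mp h m hm

/-- Compare three strings: at the first position where `A` and `σ` differ, report whether `B`
differs from `σ` there. -/
def decide3 (A B σ : List Bool) : Option Bool :=
  if bfind (fun m => cond ((A[m]?).getD false == (σ[m]?).getD false) 0 1)
      (min A.length σ.length) < min A.length σ.length then
    (if bfind (fun m => cond ((A[m]?).getD false == (σ[m]?).getD false) 0 1)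
        (min A.length σ.length) < B.length then
      some (!((B[bfind (fun m => cond ((A[m]?).getD false == (σ[m]?).getD false) 0 1)
        (min A.length σ.length)]?).getD false ==
        (σ[bfind (fun m => cond ((A[m]?).getD false == (σ[m]?).getD false) 0 1)
        (min A.length σ.length)]?).getD false))
    else none)
  else none

theorem decide3_spec1 {A B σ : List Bool} {v : Bool} (h : decide3 A B σ = some v) :
    ∃ m, m < A.length ∧ m < σ.length ∧ m < B.length ∧
      (A[m]?).getD false ≠ (σ[m]?).getD false ∧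
      v = !((B[m]?).getD false == (σ[m]?).getD false) := by
  unfold decide3 at h
  split_ifs at h with h1 h2
  refine ⟨_, lt_of_lt_of_le h1 (min_le_left _ _), lt_of_lt_of_le h1 (min_le_right _ _), h2, ?_,
    (Option.some.inj h).symm⟩
  have h3 := (bfind_spec (fun m => cond ((A[m]?).getD false == (σ[m]?).getD false) 0 1)
    (min A.length σ.length)).1 h1
  intro hc
  apply h3
  simp only [hc, beq_self_eq_true, cond_true]

theorem decide3_spec2 {A B σ : List Bool} {m0 : ℕ} (hA : m0 < A.length) (hσ : m0 < σ.length)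
    (hB : m0 < B.length) (hne : (A[m0]?).getD false ≠ (σ[m0]?).getD false) :
    ∃ v, decide3 A B σ = some v := by
  have hf : (fun m => cond ((A[m]?).getD false == (σ[m]?).getD false) 0 1) m0 ≠ 0 := by
    have : ((A[m0]?).getD false == (σ[m0]?).getD false) = false := by
      simpa using hne
    simp only [this, cond_false]
    omega
  have h1 := bfind_lt_of_exists
    (fun m => cond ((A[m]?).getD false == (σ[m]?).getD false) 0 1) (lt_min hA hσ) hf
  have h2 : bfind (fun m => cond ((A[m]?).getD false == (σ[m]?).getD false) 0 1)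
      (min A.length σ.length) < B.length := by
    by_contra hc
    exact hf ((bfind_spec (fun m => cond ((A[m]?).getD false == (σ[m]?).getD false) 0 1)
      (min A.length σ.length)).2 m0 (by omega))
  unfold decide3
  rw [if_pos h1, if_pos h2]
  exact ⟨_, rfl⟩

theorem primrec_decide3 :
    Primrec (fun q : List Bool × List Bool × List Bool => decide3 q.1 q.2.1 q.2.2) := by
  have getb : Primrec (fun p : List Bool × ℕ => (p.1[p.2]?).getD false) :=
    Primrec.option_getD.comp (Primrec.list_getElem?.comp Primrec.fst Primrec.snd)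
      (Primrec.const false)
  have hF : Primrec₂ (fun (q : List Bool × List Bool × List Bool) (m : ℕ) =>
      cond ((q.1[m]?).getD false == (q.2.2[m]?).getD false) 0 1) :=
    (Primrec.cond (Primrec.beq.comp
      (getb.comp (Primrec.pair (Primrec.fst.comp Primrec.fst) Primrec.snd))
      (getb.comp (Primrec.pair (Primrec.snd.comp (Primrec.snd.comp Primrec.fst)) Primrec.snd)))
      (Primrec.const 0) (Primrec.const 1)).to₂
  have hT : Primrec (fun q : List Bool × List Bool × List Bool =>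
      min q.1.length q.2.2.length) :=
    Primrec.nat_min.comp (Primrec.list_length.comp Primrec.fst)
      (Primrec.list_length.comp (Primrec.snd.comp Primrec.snd))
  have hM := primrec_bfind hF hT
  have hout : Primrec (fun q : List Bool × List Bool × List Bool =>
      some (!((q.2.1[bfind (fun m => cond ((q.1[m]?).getD false == (q.2.2[m]?).getD false) 0 1)
        (min q.1.length q.2.2.length)]?).getD false ==
        (q.2.2[bfind (fun m => cond ((q.1[m]?).getD false == (q.2.2[m]?).getD false) 0 1)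
        (min q.1.length q.2.2.length)]?).getD false))) :=
    Primrec.option_some.comp (Primrec.not.comp (Primrec.beq.comp
      (getb.comp (Primrec.pair (Primrec.fst.comp Primrec.snd) hM))
      (getb.comp (Primrec.pair (Primrec.snd.comp Primrec.snd) hM))))
  exact Primrec.ite (Primrec.nat_lt.comp hM hT)
    (Primrec.ite (Primrec.nat_lt.comp hM (Primrec.list_length.comp
      (Primrec.fst.comp Primrec.snd))) hout (Primrec.const none)) (Primrec.const none)

/-- The decoder for one control position. -/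
def decGate (gP gQ gT gC : List Bool → List Bool) (j : ℕ) (σ : List Bool) : Option Bool :=
  decide3 (gP^[j] (gT (gQ^[j] σ))) (gP^[j] (gC (gQ^[j] σ))) σ

theorem primrec_decGate {gP gQ gT gC : List Bool → List Bool} (hP : Primrec gP)
    (hQ : Primrec gQ) (hT : Primrec gT) (hC : Primrec gC) :
    Primrec (fun p : ℕ × List Bool => decGate gP gQ gT gC p.1 p.2) := by
  have hQi : Primrec (fun p : ℕ × List Bool => gQ^[p.1] p.2) :=
    Primrec.nat_iterate Primrec.fst Primrec.snd (hQ.comp Primrec.snd).to₂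
  have hA : Primrec (fun p : ℕ × List Bool => gP^[p.1] (gT (gQ^[p.1] p.2))) :=
    Primrec.nat_iterate Primrec.fst (hT.comp hQi) (hP.comp Primrec.snd).to₂
  have hB : Primrec (fun p : ℕ × List Bool => gP^[p.1] (gC (gQ^[p.1] p.2))) :=
    Primrec.nat_iterate Primrec.fst (hC.comp hQi) (hP.comp Primrec.snd).to₂
  exact primrec_decide3.comp (Primrec.pair hA (Primrec.pair hB Primrec.snd))

/-- The conjugate of a map `a` by `F`, with `G` the inverse of `F`. -/
def conj (F G a : Set ℕ → Set ℕ) : Set ℕ → Set ℕ := fun Z => F (a (G Z))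

theorem conj_iter {F G : Set ℕ → Set ℕ} (hGF : ∀ X, G (F X) = X) (hFG : ∀ Z, F (G Z) = Z)
    (a : Set ℕ → Set ℕ) (j : ℕ) (Z : Set ℕ) : (conj F G a)^[j] Z = F (a^[j] (G Z)) := by
  induction j with
  | zero => simp [hFG]
  | succ j ih =>
    rw [Function.iterate_succ_apply', ih, Function.iterate_succ_apply']
    unfold conj
    rw [hGF]

theorem decode_fact {F G : Set ℕ → Set ℕ} (hGF : ∀ X, G (F X) = X) (hFG : ∀ Z, F (G Z) = Z)
    (P Q : Set ℕ → Set ℕ) (hPQ : ∀ X, P (Q X) = X) (hQP : ∀ X, Q (P X) = X) (Z : Set ℕ)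
    (j : ℕ) :
    (conj F G P)^[j] (conj F G gateT ((conj F G Q)^[j] Z)) ≠ Z ∧
    (1 ∈ Q^[j] (G Z) → (conj F G P)^[j] (conj F G gateC ((conj F G Q)^[j] Z)) =
      (conj F G P)^[j] (conj F G gateT ((conj F G Q)^[j] Z))) ∧
    (1 ∉ Q^[j] (G Z) → (conj F G P)^[j] (conj F G gateC ((conj F G Q)^[j] Z)) = Z) := by
  have e1 : (conj F G Q)^[j] Z = F (Q^[j] (G Z)) := conj_iter hGF hFG Q j Z
  have e2 : ∀ a : Set ℕ → Set ℕ, (conj F G P)^[j] (conj F G a ((conj F G Q)^[j] Z)) =
      F (P^[j] (a (Q^[j] (G Z)))) := by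
    intro a
    rw [conj_iter hGF hFG P j, e1]
    unfold conj
    rw [hGF, hGF]
  have e3 : P^[j] (Q^[j] (G Z)) = G Z :=
    Function.LeftInverse.iterate (g := P) (f := Q) hPQ j (G Z)
  refine ⟨?_, ?_, ?_⟩
  · rw [e2]
    intro h
    have h1 : P^[j] (gateT (Q^[j] (G Z))) = G Z := by
      have := congrArg G h
      rwa [hGF] at this
    have h2 : Q^[j] (P^[j] (gateT (Q^[j] (G Z)))) = gateT (Q^[j] (G Z)) :=
      Function.LeftInverse.iterate (g := Q) (f := P) hQP j _
    rw [h1] at h2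
    exact gateT_ne _ h2.symm
  · intro h
    rw [e2, e2, gateC_of_mem h]
  · intro h
    rw [e2, gateC_of_not_mem h, e3, hFG]

theorem decode_sound {F G : Set ℕ → Set ℕ} (hGF : ∀ X, G (F X) = X) (hFG : ∀ Z, F (G Z) = Z)
    (P Q : Set ℕ → Set ℕ) (hPQ : ∀ X, P (Q X) = X) (hQP : ∀ X, Q (P X) = X)
    {gP gQ gT gC : List Bool → List Bool} (hP : Approx gP (conj F G P))
    (hQ : Approx gQ (conj F G Q)) (hT : Approx gT (conj F G gateT))
    (hC : Approx gC (conj F G gateC)) (Z : Set ℕ) (j : ℕ) (σ : List Bool) (v : Bool)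
    (hσ : Ext σ Z) (h : decGate gP gQ gT gC j σ = some v) :
    (v = true ↔ 1 ∈ Q^[j] (G Z)) := by
  obtain ⟨hne, hin, hout⟩ := decode_fact hGF hFG P Q hPQ hQP Z j
  have hA : Ext (gP^[j] (gT (gQ^[j] σ)))
      ((conj F G P)^[j] (conj F G gateT ((conj F G Q)^[j] Z))) :=
    iter_sound hP.2.2.1 j _ _ (hT.2.2.1 _ _ (iter_sound hQ.2.2.1 j _ _ hσ))
  have hB : Ext (gP^[j] (gC (gQ^[j] σ)))
      ((conj F G P)^[j] (conj F G gateC ((conj F G Q)^[j] Z))) :=
    iter_sound hP.2.2.1 j _ _ (hC.2.2.1 _ _ (iter_sound hQ.2.2.1 j _ _ hσ))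
  obtain ⟨m, hmA, hmσ, hmB, hne2, hv⟩ := decide3_spec1 h
  rw [ext_getD hA hmA, ext_getD hσ hmσ] at hne2
  rw [ext_getD hB hmB, ext_getD hσ hmσ] at hv
  by_cases hY : 1 ∈ Q^[j] (G Z)
  · rw [hin hY] at hv
    have : v = true := by
      rw [hv]
      simpa using hne2
    exact ⟨fun _ => hY, fun _ => this⟩
  · rw [hout hY] at hv
    have : v = false := by rw [hv]; simp
    exact ⟨fun hv' => (by rw [this] at hv'; cases hv'), fun h' => absurd h' hY⟩

theorem decode_total {F G : Set ℕ → Set ℕ} (hGF : ∀ X, G (F X) = X) (hFG : ∀ Z, F (G Z) = Z)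
    (P Q : Set ℕ → Set ℕ) (hPQ : ∀ X, P (Q X) = X) (hQP : ∀ X, Q (P X) = X)
    {gP gQ gT gC : List Bool → List Bool} (hP : Approx gP (conj F G P))
    (hQ : Approx gQ (conj F G Q)) (hT : Approx gT (conj F G gateT))
    (hC : Approx gC (conj F G gateC)) (Z : Set ℕ) (j : ℕ)
    (h1 : ∀ i, Good gQ ((conj F G Q)^[i] Z))
    (h2 : Good gT ((conj F G Q)^[j] Z)) (h3 : Good gC ((conj F G Q)^[j] Z))
    (h4 : ∀ i, Good gP ((conj F G P)^[i] (conj F G gateT ((conj F G Q)^[j] Z))))
    (h5 : ∀ i, Good gP ((conj F G P)^[i] (conj F G gateC ((conj F G Q)^[j] Z)))) :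
    ∃ k v, decGate gP gQ gT gC j (pref Z k) = some v := by
  obtain ⟨hne, -, -⟩ := decode_fact hGF hFG P Q hPQ hQP Z j
  have hQj : Good (gQ^[j]) Z := good_iter hQ.2.1 hQ.2.2.1 j fun i _ => h1 i
  have hsQ := iter_sound hQ.2.2.1 j
  have gA1 : Good (fun σ => gT (gQ^[j] σ)) Z := good_comp hT.2.1 hsQ hQj h2
  have gB1 : Good (fun σ => gC (gQ^[j] σ)) Z := good_comp hC.2.1 hsQ hQj h3
  have gA : Good (fun σ => gP^[j] (gT (gQ^[j] σ))) Z :=
    good_comp (g1 := gP^[j]) (g2 := fun σ => gT (gQ^[j] σ))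
      (K2 := fun Z => conj F G gateT ((conj F G Q)^[j] Z)) (iter_mono hP.2.1 j)
      (fun σ Z hσ => hT.2.2.1 _ _ (hsQ _ _ hσ)) gA1
      (good_iter hP.2.1 hP.2.2.1 j fun i _ => h4 i)
  have gB : Good (fun σ => gP^[j] (gC (gQ^[j] σ))) Z :=
    good_comp (g1 := gP^[j]) (g2 := fun σ => gC (gQ^[j] σ))
      (K2 := fun Z => conj F G gateC ((conj F G Q)^[j] Z)) (iter_mono hP.2.1 j)
      (fun σ Z hσ => hC.2.2.1 _ _ (hsQ _ _ hσ)) gB1
      (good_iter hP.2.1 hP.2.2.1 j fun i _ => h5 i)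
  have mA : ∀ σ τ : List Bool, σ <+: τ → gP^[j] (gT (gQ^[j] σ)) <+: gP^[j] (gT (gQ^[j] τ)) :=
    fun σ τ h => iter_mono hP.2.1 j _ _ (hT.2.1 _ _ (iter_mono hQ.2.1 j _ _ h))
  have mB : ∀ σ τ : List Bool, σ <+: τ → gP^[j] (gC (gQ^[j] σ)) <+: gP^[j] (gC (gQ^[j] τ)) :=
    fun σ τ h => iter_mono hP.2.1 j _ _ (hC.2.1 _ _ (iter_mono hQ.2.1 j _ _ h))
  have hdiff : ∃ m0, bit ((conj F G P)^[j] (conj F G gateT ((conj F G Q)^[j] Z))) m0 ≠
      bit Z m0 := by
    by_contra hc
    simp only [not_exists, not_not] at hc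
    apply hne
    ext m
    exact (bit_eq_bit_iff _ _ _ _).mp (hc m)
  obtain ⟨m0, hm0⟩ := hdiff
  obtain ⟨kA, hkA⟩ := good_ge mA gA (m0 + 1)
  obtain ⟨kB, hkB⟩ := good_ge mB gB (m0 + 1)
  refine ⟨max (max kA kB) (m0 + 1), ?_⟩
  have hσ : Ext (pref Z (max (max kA kB) (m0 + 1))) Z := ext_pref _ _
  have hA : Ext (gP^[j] (gT (gQ^[j] (pref Z (max (max kA kB) (m0 + 1))))))
      ((conj F G P)^[j] (conj F G gateT ((conj F G Q)^[j] Z))) :=
    iter_sound hP.2.2.1 j _ _ (hT.2.2.1 _ _ (hsQ _ _ hσ))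
  have lA := hkA (max (max kA kB) (m0 + 1)) (le_trans (le_max_left _ _) (le_max_left _ _))
  have lB := hkB (max (max kA kB) (m0 + 1)) (le_trans (le_max_right _ _) (le_max_left _ _))
  have lσ : m0 < (pref Z (max (max kA kB) (m0 + 1))).length := by
    rw [length_pref]
    exact lt_of_lt_of_le (Nat.lt_succ_self m0) (le_max_right _ _)
  unfold decGate
  refine decide3_spec2 (m0 := m0) (by omega) lσ (by omega) ?_
  rw [ext_getD hA (by omega), ext_getD hσ lσ]
  exact hm0

end Vale.Agent.Lib.P327
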