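import Mathlib
import Vale.Agent.Lib.P327.Maps

/-!
A meet argument in the style of Jockusch and Posner: an automorphism of the Turing degrees
that fixes the degree of every member of a countable intersection of sets of reals, each
containing a dense union of cylinders, is the identity.
-/

namespace Vale.Agent.Lib.P327

open Nat.Partrec (Code)

/-- The join of two sets. -/
def tjoin (A B : Set ℕ) : Set ℕ := {n | if n % 2 = 0 then n / 2 ∈ A else n / 2 ∈ B}

theorem mem_tjoin_even (A B : Set ℕ) (i : ℕ) : 2 * i ∈ tjoin A B ↔ i ∈ A := by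
  unfold tjoin
  have h1 : (2 * i) % 2 = 0 := by omega
  have h2 : (2 * i) / 2 = i := by omega
  simp only [Set.mem_ofPred_eq, if_pos h1, h2]

theorem mem_tjoin_odd (A B : Set ℕ) (i : ℕ) : 2 * i + 1 ∈ tjoin A B ↔ i ∈ B := by
  unfold tjoin
  have h1 : ¬ ((2 * i + 1) % 2 = 0) := by omega
  have h2 : (2 * i + 1) / 2 = i := by omega
  simp only [Set.mem_ofPred_eq, if_neg h1, h2]

theorem TLe_join_left (A B : Set ℕ) : TLe A (tjoin A B) :=
  TLe_of_comp (fun i => 2 * i) (fun _ v => v)
    ((Primrec.nat_mul.comp (Primrec.const 2) Primrec.id).to_comp) (Computable.snd.to₂)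
    (fun i => (chi_eq_chi_iff _ _ _ _).mpr (mem_tjoin_even A B i).symm)

theorem TLe_join_right (A B : Set ℕ) : TLe B (tjoin A B) :=
  TLe_of_comp (fun i => 2 * i + 1) (fun _ v => v)
    ((Primrec.succ.comp (Primrec.nat_mul.comp (Primrec.const 2) Primrec.id)).to_comp)
    (Computable.snd.to₂)
    (fun i => (chi_eq_chi_iff _ _ _ _).mpr (mem_tjoin_odd A B i).symm)

theorem chi_tjoin (A B : Set ℕ) (n : ℕ) :
    chi (tjoin A B) n = if n % 2 = 0 then chi A (n / 2) else chi B (n / 2) := by
  by_cases h : n % 2 = 0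
  · rw [if_pos h]
    have e : n = 2 * (n / 2) := by omega
    have e2 : (2 * (n / 2)) / 2 = n / 2 := by omega
    exact (chi_eq_chi_iff _ _ _ _).mpr (by rw [e, mem_tjoin_even, e2])
  · rw [if_neg h]
    have e : n = 2 * (n / 2) + 1 := by omega
    have e2 : (2 * (n / 2) + 1) / 2 = n / 2 := by omega
    exact (chi_eq_chi_iff _ _ _ _).mpr (by rw [e, mem_tjoin_odd, e2])

theorem TLe_join {A B C : Set ℕ} (hA : TLe A C) (hB : TLe B C) : TLe (tjoin A B) C := by
  have hA' : RecIn {fun n => Part.some (chi C n)} (chi A) := RecursiveIn.iff_nat.mp hA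
  have hB' : RecIn {fun n => Part.some (chi C n)} (chi B) := RecursiveIn.iff_nat.mp hB
  have hhalf : Computable (fun n : ℕ => n / 2) :=
    (Primrec.nat_div.comp Primrec.id (Primrec.const 2)).to_comp
  have hG : Primrec₂ (fun (p b : ℕ) => if p.unpair.1 % 2 = 0 then p.unpair.2 else b) :=
    Primrec.ite (Primrec.eq.comp (Primrec.nat_mod.comp
      (Primrec.fst.comp (Primrec.unpair.comp Primrec.fst)) (Primrec.const 2)) (Primrec.const 0))
      (Primrec.snd.comp (Primrec.unpair.comp Primrec.fst)) Primrec.snd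
  have h := RecIn.comp₂ hG.to_comp
    ((RecIn.of_comp Computable.id).pair (hA'.comp (RecIn.of_comp hhalf)))
    (hB'.comp (RecIn.of_comp hhalf))
  refine RecursiveIn.iff_nat.mpr (h.of_eq fun n => ?_)
  congr 1
  simp only [Nat.unpair_pair, id]
  exact (chi_tjoin A B n).symm

/-- The symmetric difference of two sets. -/
def sdiff2 (A G : Set ℕ) : Set ℕ := {n | ¬ (n ∈ A ↔ n ∈ G)}

theorem mem_sdiff2 (A G : Set ℕ) (n : ℕ) : n ∈ sdiff2 A G ↔ ¬ (n ∈ A ↔ n ∈ G) := Iff.rfl

theorem sdiff2_sdiff2 (A G : Set ℕ) : sdiff2 A (sdiff2 A G) = G := by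
  ext n
  simp only [mem_sdiff2]
  tauto

theorem sdiff2_sdiff2' (A G : Set ℕ) : sdiff2 (sdiff2 A G) G = A := by
  ext n
  simp only [mem_sdiff2]
  tauto

theorem cont_sdiff2 (A : Set ℕ) : Cont (sdiff2 A) := fun m =>
  ⟨m + 1, fun X Y h => by
    simp only [mem_sdiff2]
    rw [h m (Nat.lt_succ_self m)]⟩

theorem TLe_sdiff2 {A B C : Set ℕ} (hA : TLe A C) (hB : TLe B C) : TLe (sdiff2 A B) C := by
  have hA' : RecIn {fun n => Part.some (chi C n)} (chi A) := RecursiveIn.iff_nat.mp hA
  have hB' : RecIn {fun n => Part.some (chi C n)} (chi B) := RecursiveIn.iff_nat.mp hB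
  have hG : Primrec₂ (fun (a b : ℕ) => if a = b then 0 else 1) :=
    Primrec.ite (Primrec.eq.comp Primrec.fst Primrec.snd) (Primrec.const 0) (Primrec.const 1)
  have h := RecIn.comp₂ hG.to_comp hA' hB'
  refine RecursiveIn.iff_nat.mpr (h.of_eq fun n => ?_)
  congr 1
  show (if chi A n = chi B n then 0 else 1) = chi (sdiff2 A B) n
  by_cases hc : chi A n = chi B n
  · rw [if_pos hc]
    have h0 : chi (sdiff2 A B) n = 0 :=
      (chi_eq_zero_iff (sdiff2 A B) n).mpr fun hm => hm ((chi_eq_chi_iff _ _ _ _).mp hc)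
    exact h0.symm
  · rw [if_neg hc]
    have h1 : chi (sdiff2 A B) n = 1 :=
      (chi_eq_one_iff (sdiff2 A B) n).mpr fun hiff => hc ((chi_eq_chi_iff _ _ _ _).mpr hiff)
    exact h1.symm

theorem DO.inter {U V : Set (Set ℕ)} (hU : DO U) (hV : DO V) : DO {Z | Z ∈ U ∧ Z ∈ V} := by
  intro σ
  obtain ⟨τ, hστ, hτ⟩ := hU σ
  obtain ⟨τ', hττ', hτ'⟩ := hV τ
  exact ⟨τ', hστ.trans hττ', fun Z hZ => ⟨hτ Z (Ext.mono hττ' hZ), hτ' Z hZ⟩⟩

/-- An automorphism that fixes two degrees fixes their join. -/
theorem fix_join {π : Deg → Deg} (hπ : IsAut π) {B C : Set ℕ} (hB : π (deg B) = deg B)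
    (hC : π (deg C) = deg C) : π (deg (tjoin B C)) = deg (tjoin B C) := by
  obtain ⟨D, hD⟩ := Quotient.exists_rep (π (deg (tjoin B C)))
  have hD' : deg D = π (deg (tjoin B C)) := hD
  obtain ⟨e, he⟩ := hπ.1.2 (deg (tjoin B C))
  obtain ⟨E, hE⟩ := Quotient.exists_rep e
  have hE' : π (deg E) = deg (tjoin B C) := by
    rw [← he]; exact congrArg π hE
  rw [← hD', deg_eq_deg]
  constructor
  · have h1 : TLe B E := by
      have : Deg.le (π (deg B)) (π (deg E)) := by
        rw [hB, hE']; exact (deg_le_deg _ _).mpr (TLe_join_left B C)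
      exact (deg_le_deg _ _).mp ((hπ.2 _ _).mpr this)
    have h2 : TLe C E := by
      have : Deg.le (π (deg C)) (π (deg E)) := by
        rw [hC, hE']; exact (deg_le_deg _ _).mpr (TLe_join_right B C)
      exact (deg_le_deg _ _).mp ((hπ.2 _ _).mpr this)
    have h3 : Deg.le (π (deg (tjoin B C))) (π (deg E)) :=
      (hπ.2 _ _).mp ((deg_le_deg _ _).mpr (TLe_join h1 h2))
    rw [← hD', hE'] at h3
    exact (deg_le_deg _ _).mp h3
  · have h1 : TLe B D := by
      have : Deg.le (π (deg B)) (π (deg (tjoin B C))) :=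
        (hπ.2 _ _).mp ((deg_le_deg _ _).mpr (TLe_join_left B C))
      rw [hB, ← hD'] at this
      exact (deg_le_deg _ _).mp this
    have h2 : TLe C D := by
      have : Deg.le (π (deg C)) (π (deg (tjoin B C))) :=
        (hπ.2 _ _).mp ((deg_le_deg _ _).mpr (TLe_join_right B C))
      rw [hC, ← hD'] at this
      exact (deg_le_deg _ _).mp this
    exact TLe_join h1 h2

/-- An automorphism that fixes two degrees fixes their meet, if it exists. -/
theorem fix_meet {π : Deg → Deg} (hπ : IsAut π) {A P Q : Set ℕ} (hP : π (deg P) = deg P)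
    (hQ : π (deg Q) = deg Q) (hAP : TLe A P) (hAQ : TLe A Q)
    (hmeet : ∀ Y, TLe Y P → TLe Y Q → TLe Y A) : π (deg A) = deg A := by
  obtain ⟨D, hD⟩ := Quotient.exists_rep (π (deg A))
  have hD' : deg D = π (deg A) := hD
  obtain ⟨e, he⟩ := hπ.1.2 (deg A)
  obtain ⟨E, hE⟩ := Quotient.exists_rep e
  have hE' : π (deg E) = deg A := by
    rw [← he]; exact congrArg π hE
  rw [← hD', deg_eq_deg]
  constructor
  · have h1 : TLe D P := by
      have : Deg.le (π (deg A)) (π (deg P)) := (hπ.2 _ _).mp ((deg_le_deg _ _).mpr hAP)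
      rw [hP, ← hD'] at this
      exact (deg_le_deg _ _).mp this
    have h2 : TLe D Q := by
      have : Deg.le (π (deg A)) (π (deg Q)) := (hπ.2 _ _).mp ((deg_le_deg _ _).mpr hAQ)
      rw [hQ, ← hD'] at this
      exact (deg_le_deg _ _).mp this
    exact hmeet D h1 h2
  · have h1 : TLe E P := by
      have : Deg.le (π (deg E)) (π (deg P)) := by
        rw [hE', hP]; exact (deg_le_deg _ _).mpr hAP
      exact (deg_le_deg _ _).mp ((hπ.2 _ _).mpr this)
    have h2 : TLe E Q := by
      have : Deg.le (π (deg E)) (π (deg Q)) := by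
        rw [hE', hQ]; exact (deg_le_deg _ _).mpr hAQ
      exact (deg_le_deg _ _).mp ((hπ.2 _ _).mpr this)
    have h3 : Deg.le (π (deg E)) (π (deg A)) :=
      (hπ.2 _ _).mp ((deg_le_deg _ _).mpr (hmeet E h1 h2))
    rw [hE', ← hD'] at h3
    exact (deg_le_deg _ _).mp h3

/-- The interleaving of two strings, as long as twice the second one. -/
def inter (α ρ : List Bool) : List Bool :=
  (List.range (2 * ρ.length)).map fun i =>
    if i % 2 = 0 then (α[i / 2]?).getD false else (ρ[i / 2]?).getD false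

/-- The initial segment of `tjoin A X` determined by an initial segment `ρ` of `X`. -/
noncomputable def IA (A : Set ℕ) (ρ : List Bool) : List Bool :=
  pref (tjoin A (ofList ρ)) (2 * ρ.length)

theorem IA_eq {A X : Set ℕ} {ρ : List Bool} (h : Ext ρ X) :
    IA A ρ = pref (tjoin A X) (2 * ρ.length) := by
  unfold IA
  apply pref_eq_of_agree
  intro i hi
  have hag := Ext.agree (ext_ofList ρ) h
  by_cases h2 : i % 2 = 0
  · unfold tjoin; simp only [Set.mem_ofPred_eq, if_pos h2]
  · unfold tjoin; simp only [Set.mem_ofPred_eq, if_neg h2]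
    exact hag (i / 2) (by omega)

theorem inter_pref (A : Set ℕ) (ρ : List Bool) {k : ℕ} (hk : ρ.length ≤ k) :
    inter (pref A k) ρ = IA A ρ := by
  unfold inter IA
  show _ = (List.range (2 * ρ.length)).map (bit (tjoin A (ofList ρ)))
  apply List.map_congr_left
  intro i hi
  have hi' : i < 2 * ρ.length := List.mem_range.mp hi
  by_cases h2 : i % 2 = 0
  · rw [if_pos h2, pref_getElem?, if_pos (by omega)]
    simp only [Option.getD_some]
    exact (bit_eq_bit_iff _ _ _ _).mpr
      (by unfold tjoin; simp only [Set.mem_ofPred_eq, if_pos h2])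
  · rw [if_neg h2]
    have hlt : i / 2 < ρ.length := by omega
    rw [List.getElem?_eq_getElem hlt]
    simp only [Option.getD_some]
    have h3 := (ext_iff ρ (ofList ρ)).mp (ext_ofList ρ) (i / 2) hlt
    rw [h3]
    exact (bit_eq_bit_iff _ _ _ _).mpr
      (by unfold tjoin; simp only [Set.mem_ofPred_eq, if_neg h2])

theorem primrec_inter : Primrec₂ inter := by
  have h1 : Primrec (fun p : List Bool × List Bool => List.range (2 * p.2.length)) :=
    Primrec.list_range.comp
      (Primrec.nat_mul.comp (Primrec.const 2) (Primrec.list_length.comp Primrec.snd))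
  have h2 : Primrec₂ (fun (p : List Bool × List Bool) (i : ℕ) =>
      if i % 2 = 0 then (p.1[i / 2]?).getD false else (p.2[i / 2]?).getD false) := by
    refine Primrec.ite
      (Primrec.eq.comp (Primrec.nat_mod.comp Primrec.snd (Primrec.const 2)) (Primrec.const 0))
      ?_ ?_
    · exact Primrec.option_getD.comp (Primrec.list_getElem?.comp (Primrec.fst.comp Primrec.fst)
        (Primrec.nat_div.comp Primrec.snd (Primrec.const 2))) (Primrec.const false)
    · exact Primrec.option_getD.comp (Primrec.list_getElem?.comp (Primrec.snd.comp Primrec.fst)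
        (Primrec.nat_div.comp Primrec.snd (Primrec.const 2))) (Primrec.const false)
  exact Primrec.list_map h1 h2

/-- A pair of strings on which the two functionals give different values. -/
def Split (A : Set ℕ) (c1 c2 : Code) (ρ1 ρ2 : List Bool) : Prop :=
  ∃ n v1 v2, v1 ∈ phi c1 (IA A ρ1) n ∧ v2 ∈ phi c2 (IA A ρ2) n ∧ v1 ≠ v2

theorem computes_IA {A Y G : Set ℕ} {c : Code} (hm : Mono c) (hc : Computes c Y (tjoin A G))
    (p : List Bool) (n : ℕ) : ∃ K, p.length ≤ K ∧ chi Y n ∈ phi c (IA A (pref G K)) n := by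
  obtain ⟨k, hk⟩ := hc n
  refine ⟨max k p.length, le_max_right _ _, ?_⟩
  rw [IA_eq (ext_pref G _), length_pref]
  exact hm _ _ n _ (pref_le _ (by have := le_max_left k p.length; omega)) hk

/-- The search procedure that computes, from an oracle string, a value of the first functional
on some string extending `p1`. -/
def meetU (c1 : Code) (p1 : List Bool) (α : List Bool) (n : ℕ) : Option Bool :=
  (Encodable.decode (α := List Bool) α.length.unpair.1).bind fun ρ =>
    if ρ.take p1.length = p1 ∧ ρ.length ≤ α.length then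
      (Code.evaln α.length.unpair.2 c1 (Encodable.encode (inter α ρ, n))).map
        fun v => decide (v = 1)
    else none

theorem primrec_meetU (c1 : Code) (p1 : List Bool) : Primrec₂ (meetU c1 p1) := by
  have hdec : Primrec (fun q : List Bool × ℕ =>
      Encodable.decode (α := List Bool) q.1.length.unpair.1) :=
    Primrec.decode.comp
      (Primrec.fst.comp (Primrec.unpair.comp (Primrec.list_length.comp Primrec.fst)))
  have hbody : Primrec₂ (fun (q : List Bool × ℕ) (ρ : List Bool) =>
      if ρ.take p1.length = p1 ∧ ρ.length ≤ q.1.length then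
        (Code.evaln q.1.length.unpair.2 c1 (Encodable.encode (inter q.1 ρ, q.2))).map
          fun v => decide (v = 1)
      else none) := by
    have hc1 : PrimrecPred (fun r : (List Bool × ℕ) × List Bool => r.2.take p1.length = p1) :=
      Primrec.eq.comp (Primrec.list_take.comp (Primrec.const p1.length) Primrec.snd)
        (Primrec.const p1)
    have hc2 : PrimrecPred (fun r : (List Bool × ℕ) × List Bool =>
        r.2.length ≤ r.1.1.length) :=
      Primrec.nat_le.comp (Primrec.list_length.comp Primrec.snd)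
        (Primrec.list_length.comp (Primrec.fst.comp Primrec.fst))
    have hev : Primrec (fun r : (List Bool × ℕ) × List Bool =>
        Code.evaln r.1.1.length.unpair.2 c1 (Encodable.encode (inter r.1.1 r.2, r.1.2))) :=
      Nat.Partrec.Code.primrec_evaln.comp (Primrec.pair (Primrec.pair
        (Primrec.snd.comp (Primrec.unpair.comp
          (Primrec.list_length.comp (Primrec.fst.comp Primrec.fst)))) (Primrec.const c1))
        (Primrec.encode.comp (Primrec.pair
          (primrec_inter.comp (Primrec.fst.comp Primrec.fst) Primrec.snd)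
          (Primrec.snd.comp Primrec.fst))))
    have hmap : Primrec (fun r : (List Bool × ℕ) × List Bool =>
        (Code.evaln r.1.1.length.unpair.2 c1 (Encodable.encode (inter r.1.1 r.2, r.1.2))).map
          fun v => decide (v = 1)) :=
      Primrec.option_map hev ((Primrec.eq.decide.comp Primrec.snd (Primrec.const 1)).to₂)
    exact Primrec.ite (hc1.and hc2) hmap (Primrec.const none)
  exact Primrec.option_bind hdec hbody

theorem meetU_some {c1 : Code} {p1 : List Bool} {A : Set ℕ} {k n : ℕ} {b : Bool}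
    (h : meetU c1 p1 (pref A k) n = some b) :
    ∃ ρ v, p1 <+: ρ ∧ v ∈ phi c1 (IA A ρ) n ∧ b = decide (v = 1) := by
  unfold meetU at h
  rw [Option.bind_eq_some_iff] at h
  obtain ⟨ρ, _, h⟩ := h
  split_ifs at h with hc
  rw [Option.map_eq_some_iff] at h
  obtain ⟨v, hv, rfl⟩ := h
  refine ⟨ρ, v, List.prefix_iff_eq_take.mpr hc.1.symm, ?_, rfl⟩
  have := Code.evaln_sound hv
  rw [inter_pref A ρ (by simpa using hc.2)] at this
  exact this

theorem meetU_eq (c1 : Code) {p1 ρ : List Bool} (A : Set ℕ) {s : ℕ} (n : ℕ) (hp : p1 <+: ρ)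
    (hs : ρ.length ≤ s) :
    meetU c1 p1 (pref A (Nat.pair (Encodable.encode ρ) s)) n =
      (Code.evaln s c1 (Encodable.encode (IA A ρ, n))).map fun v => decide (v = 1) := by
  have hsk : s ≤ Nat.pair (Encodable.encode ρ) s := Nat.right_le_pair _ _
  unfold meetU
  rw [length_pref, Nat.unpair_pair, Encodable.encodek]
  simp only [Option.bind_some]
  rw [if_pos ⟨(List.prefix_iff_eq_take.mp hp).symm, le_trans hs hsk⟩,
    inter_pref A ρ (le_trans hs hsk)]

theorem nosplit_TLe {A Y G1 G2 : Set ℕ} {c1 c2 : Code} {p1 p2 : List Bool}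
    (hG1 : Ext p1 G1) (hG2 : Ext p2 G2) (hm1 : Mono c1) (hm2 : Mono c2)
    (hc1 : Computes c1 Y (tjoin A G1)) (hc2 : Computes c2 Y (tjoin A G2))
    (hns : ∀ ρ1 ρ2, p1 <+: ρ1 → p2 <+: ρ2 → ¬ Split A c1 c2 ρ1 ρ2) : TLe Y A := by
  have key : ∀ ρ1 n v, p1 <+: ρ1 → v ∈ phi c1 (IA A ρ1) n → v = chi Y n := by
    intro ρ1 n v hρ hv
    obtain ⟨K, hK, hK2⟩ := computes_IA hm2 hc2 p2 n
    by_contra hne
    exact hns ρ1 (pref G2 K) hρ (hG2.to_pref hK) ⟨n, v, chi Y n, hv, hK2, hne⟩
  have hbit : ∀ n, decide (chi Y n = 1) = bit Y n := by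
    intro n
    rw [chi_eq_cond_bit]
    cases bit Y n <;> simp
  refine TLe_of_use (meetU c1 p1) (primrec_meetU c1 p1).to_comp ?_ ?_
  · intro n
    obtain ⟨K, hK, hK2⟩ := computes_IA hm1 hc1 p1 n
    have hev : chi Y n ∈ c1.eval (Encodable.encode (IA A (pref G1 K), n)) := hK2
    obtain ⟨k0, hk0⟩ := Code.evaln_complete.mp hev
    refine ⟨Nat.pair (Encodable.encode (pref G1 K)) (max k0 K), ?_⟩
    rw [meetU_eq c1 A n (hG1.to_pref hK) (by rw [length_pref]; exact le_max_right _ _)]
    have := Code.evaln_mono (le_max_left k0 K) hk0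
    rw [Option.mem_def] at this
    rw [this]
    simp only [Option.map_some]
    rw [hbit]
  · intro n k b hb
    obtain ⟨ρ, v, hρ, hv, rfl⟩ := meetU_some hb
    rw [key ρ n v hρ hv, hbit]

/-- The requirements handled at stage `t` of the construction. -/
def StageOK {ι : Type} [Encodable ι] (A : Set ℕ) (W : ι → Set (Set ℕ)) (t : ℕ)
    (q : List Bool × List Bool) : Prop :=
  (∀ i, Encodable.decode (α := ι) t = some i → ∀ Z, (Ext q.1 Z ∨ Ext q.2 Z) → Z ∈ W i) ∧
    (Split A (Denumerable.ofNat (Code × Code) t).1 (Denumerable.ofNat (Code × Code) t).2 q.1 q.2 ∨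
      ∀ ρ1 ρ2, q.1 <+: ρ1 → q.2 <+: ρ2 →
        ¬ Split A (Denumerable.ofNat (Code × Code) t).1 (Denumerable.ofNat (Code × Code) t).2
          ρ1 ρ2)

theorem meet_step {ι : Type} [Encodable ι] (A : Set ℕ) (W : ι → Set (Set ℕ))
    (hW : ∀ i, DO (W i)) (t : ℕ) (p : List Bool × List Bool) :
    ∃ q : List Bool × List Bool, p.1 <+: q.1 ∧ p.2 <+: q.2 ∧ StageOK A W t q := by
  have hd : ∀ σ : List Bool, ∃ τ, σ <+: τ ∧
      ∀ i, Encodable.decode (α := ι) t = some i → ∀ Z, Ext τ Z → Z ∈ W i := by
    intro σ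
    cases hdec : Encodable.decode (α := ι) t with
    | none => exact ⟨σ, List.prefix_rfl, fun i hi => by cases hi⟩
    | some i =>
      obtain ⟨τ, hτ, hτ2⟩ := hW i σ
      exact ⟨τ, hτ, fun j hj => by cases hj; exact hτ2⟩
  obtain ⟨q1, hq1, hq1W⟩ := hd p.1
  obtain ⟨q2, hq2, hq2W⟩ := hd p.2
  by_cases hs : ∃ ρ1 ρ2, q1 <+: ρ1 ∧ q2 <+: ρ2 ∧
      Split A (Denumerable.ofNat (Code × Code) t).1 (Denumerable.ofNat (Code × Code) t).2 ρ1 ρ2
  · obtain ⟨ρ1, ρ2, h1, h2, hsp⟩ := hs
    refine ⟨(ρ1, ρ2), hq1.trans h1, hq2.trans h2, ?_, Or.inl hsp⟩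
    intro i hi Z hZ
    rcases hZ with hZ | hZ
    · exact hq1W i hi Z (Ext.mono h1 hZ)
    · exact hq2W i hi Z (Ext.mono h2 hZ)
  · refine ⟨(q1, q2), hq1, hq2, ?_, Or.inr ?_⟩
    · intro i hi Z hZ
      rcases hZ with hZ | hZ
      · exact hq1W i hi Z hZ
      · exact hq2W i hi Z hZ
    · intro ρ1 ρ2 h1 h2 hsp
      exact hs ⟨ρ1, ρ2, h1, h2, hsp⟩

/-- The chain of pairs of strings built by handling all requirements one after the other. -/
noncomputable def meetSeq (step : ℕ → List Bool × List Bool → List Bool × List Bool) :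
    ℕ → List Bool × List Bool
  | 0 => ([], [])
  | t + 1 => step t (meetSeq step t)

/-- An automorphism of the Turing degrees that fixes the degree of every member of a countable
intersection of sets of reals, each containing a dense union of cylinders, is the identity. -/
theorem jp_lemma {ι : Type} [Encodable ι] (U : ι → Set (Set ℕ)) (hU : ∀ i, DO (U i))
    (π : Deg → Deg) (hπ : IsAut π) (hfix : ∀ X, (∀ i, X ∈ U i) → π (deg X) = deg X) :
    ∀ d, π d = d := by
  intro d
  induction d using Quotient.ind with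
  | _ A =>
    show π (deg A) = deg A
    let W : ι → Set (Set ℕ) := fun i => {Z | Z ∈ U i ∧ Z ∈ {Z | sdiff2 A Z ∈ U i}}
    have hW : ∀ i, DO (W i) := fun i =>
      (hU i).inter ((hU i).preimage (cont_sdiff2 A) (cont_sdiff2 A) (sdiff2_sdiff2 A)
        (sdiff2_sdiff2 A))
    choose step hs1 hs2 hs3 using meet_step A W hW
    have hch1 : ∀ t, (meetSeq step t).1 <+: (meetSeq step (t + 1)).1 := fun t => hs1 t _
    have hch2 : ∀ t, (meetSeq step t).2 <+: (meetSeq step (t + 1)).2 := fun t => hs2 t _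
    have hE1 : ∀ t, Ext (meetSeq step t).1 (chainLim fun t => (meetSeq step t).1) :=
      ext_chainLim hch1
    have hE2 : ∀ t, Ext (meetSeq step t).2 (chainLim fun t => (meetSeq step t).2) :=
      ext_chainLim hch2
    generalize (chainLim fun t => (meetSeq step t).1) = G1 at hE1
    generalize (chainLim fun t => (meetSeq step t).2) = G2 at hE2
    have hOK : ∀ t, StageOK A W t (meetSeq step (t + 1)) := fun t => hs3 t _
    have hG1W : ∀ i, G1 ∈ W i := fun i =>
      (hOK (Encodable.encode i)).1 i (Encodable.encodek i) G1 (Or.inl (hE1 _))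
    have hG2W : ∀ i, G2 ∈ W i := fun i =>
      (hOK (Encodable.encode i)).1 i (Encodable.encodek i) G2 (Or.inr (hE2 _))
    have hfixG : ∀ G, (∀ i, G ∈ W i) → π (deg (tjoin A G)) = deg (tjoin A G) := by
      intro G hG
      have h1 : π (deg G) = deg G := hfix G fun i => (hG i).1
      have h2 : π (deg (sdiff2 A G)) = deg (sdiff2 A G) := hfix _ fun i => (hG i).2
      have h3 := fix_join hπ h1 h2
      have e : deg (tjoin A G) = deg (tjoin G (sdiff2 A G)) := by
        rw [deg_eq_deg]
        constructor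
        · refine TLe_join ?_ (TLe_join_left _ _)
          have := TLe_sdiff2 (TLe_join_right G (sdiff2 A G)) (TLe_join_left G (sdiff2 A G))
          rwa [sdiff2_sdiff2'] at this
        · exact TLe_join (TLe_join_right A G)
            (TLe_sdiff2 (TLe_join_left A G) (TLe_join_right A G))
      rw [e]; exact h3
    refine fix_meet hπ (hfixG G1 hG1W) (hfixG G2 hG2W) (TLe_join_left A G1)
      (TLe_join_left A G2) ?_
    intro Y hY1 hY2
    obtain ⟨c1, hm1, hc1⟩ := use_principle hY1
    obtain ⟨c2, hm2, hc2⟩ := use_principle hY2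
    have hof : Denumerable.ofNat (Code × Code) (Encodable.encode (c1, c2)) = (c1, c2) :=
      Denumerable.ofNat_encode _
    have h := (hOK (Encodable.encode (c1, c2))).2
    rw [hof] at h
    rcases h with hsp | hns
    · exfalso
      obtain ⟨n, v1, v2, hv1, hv2, hne⟩ := hsp
      have e1 : v1 = chi Y n := by
        obtain ⟨k, hk⟩ := hc1 n
        rw [IA_eq (hE1 _)] at hv1
        generalize 2 * (meetSeq step (Encodable.encode (c1, c2) + 1)).1.length = L at hv1
        have a := hm1 _ _ n _ (pref_le (tjoin A G1) (le_max_left L k)) hv1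
        have b := hm1 _ _ n _ (pref_le (tjoin A G1) (le_max_right L k)) hk
        exact Part.mem_unique a b
      have e2 : v2 = chi Y n := by
        obtain ⟨k, hk⟩ := hc2 n
        rw [IA_eq (hE2 _)] at hv2
        generalize 2 * (meetSeq step (Encodable.encode (c1, c2) + 1)).2.length = L at hv2
        have a := hm2 _ _ n _ (pref_le (tjoin A G2) (le_max_left L k)) hv2
        have b := hm2 _ _ n _ (pref_le (tjoin A G2) (le_max_right L k)) hk
        exact Part.mem_unique a b
      exact hne (e1.trans e2.symm)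
    · exact nosplit_TLe (hE1 _) (hE2 _) hm1 hm2 hc1 hc2 hns

end Vale.Agent.Lib.P327
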