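import Mathlib
import Vale.Agent.Lib.P327.Decode

/-!
The main technical theorem: for a homeomorphism `F` of Cantor space with inverse `G`, both
uniformly invariant under finite modifications, such that `F` is monotone for Turing
reducibility, the inverse `G` is computable on a comeager set: `G Z` is Turing reducible to `Z`
for all `Z` in a countable intersection of sets with dense interior.
-/

namespace Vale.Agent.Lib.P327

/-- The four gates, indexed. -/
def gate (a : Fin 4) : Set ℕ → Set ℕ := ![gateS, gateR, gateT, gateC] a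

/-- The index of the inverse gate. -/
def ginv (a : Fin 4) : Fin 4 := ![1, 0, 2, 3] a

theorem gate_ginv (a : Fin 4) (X : Set ℕ) : gate (ginv a) (gate a X) = X := by
  fin_cases a
  · exact gateR_gateS X
  · exact gateS_gateR X
  · exact gateT_gateT X
  · exact gateC_gateC X

theorem gate_ginv' (a : Fin 4) (X : Set ℕ) : gate a (gate (ginv a) X) = X := by
  fin_cases a
  · exact gateS_gateR X
  · exact gateR_gateS X
  · exact gateT_gateT X
  · exact gateC_gateC X

theorem cont_gate (a : Fin 4) : Cont (gate a) := by
  fin_cases a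
  · exact cont_gateS
  · exact cont_gateR
  · exact cont_gateT
  · exact cont_gateC

theorem tail_gate (a : Fin 4) : Tail (gate a) := by
  fin_cases a
  · exact tail_gateS
  · exact tail_gateR
  · exact tail_gateT
  · exact tail_gateC

theorem TLe_gate (a : Fin 4) (X : Set ℕ) : TLe (gate a X) X := by
  fin_cases a
  · exact TLe_gateS X
  · exact TLe_gateR X
  · exact TLe_gateT X
  · exact TLe_gateC X

/-- The composition of the maps `KK a` along a word. -/
def wordMap (KK : Fin 4 → Set ℕ → Set ℕ) : List (Fin 4) → Set ℕ → Set ℕ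
  | [], Z => Z
  | a :: w, Z => KK a (wordMap KK w Z)

theorem wordMap_append (KK : Fin 4 → Set ℕ → Set ℕ) (w1 w2 : List (Fin 4)) (Z : Set ℕ) :
    wordMap KK (w1 ++ w2) Z = wordMap KK w1 (wordMap KK w2 Z) := by
  induction w1 with
  | nil => rfl
  | cons a w ih => simp only [List.cons_append, wordMap, ih]

theorem wordMap_replicate (KK : Fin 4 → Set ℕ → Set ℕ) (a : Fin 4) (i : ℕ) (Z : Set ℕ) :
    wordMap KK (List.replicate i a) Z = (KK a)^[i] Z := by
  induction i with
  | zero => rfl
  | succ i ih =>
    rw [List.replicate_succ, Function.iterate_succ_apply']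
    simp only [wordMap, ih]

theorem wordMap_homeo (KK : Fin 4 → Set ℕ → Set ℕ) (hc : ∀ a, Cont (KK a))
    (h1 : ∀ a Z, KK (ginv a) (KK a Z) = Z) (h2 : ∀ a Z, KK a (KK (ginv a) Z) = Z)
    (w : List (Fin 4)) :
    Cont (wordMap KK w) ∧ ∃ K' : Set ℕ → Set ℕ, Cont K' ∧
      (∀ Z, K' (wordMap KK w Z) = Z) ∧ (∀ Z, wordMap KK w (K' Z) = Z) := by
  induction w with
  | nil => exact ⟨cont_id, fun X => X, cont_id, fun _ => rfl, fun _ => rfl⟩
  | cons a w ih =>
    obtain ⟨hcw, K', hK', e1, e2⟩ := ih
    refine ⟨(hc a).comp hcw, fun Z => K' (KK (ginv a) Z), hK'.comp (hc (ginv a)), ?_, ?_⟩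
    · intro Z
      show K' (KK (ginv a) (KK a (wordMap KK w Z))) = Z
      rw [h1, e1]
    · intro Z
      show KK a (wordMap KK w (K' (KK (ginv a) Z))) = Z
      rw [e2, h2]

theorem main_tech (F G : Set ℕ → Set ℕ) (hGF : ∀ X, G (F X) = X) (hFG : ∀ Z, F (G Z) = Z)
    (hFc : Cont F) (hGc : Cont G) (hFt : Tail F) (hGt : Tail G)
    (hmF : ∀ X Y, TLe X Y → TLe (F X) (F Y)) :
    ∃ U : (List (Fin 4) × Fin 4 × ℕ) → Set (Set ℕ), (∀ i, DO (U i)) ∧
      ∀ Z, (∀ i, Z ∈ U i) → TLe (G Z) Z := by
  let KK : Fin 4 → Set ℕ → Set ℕ := fun a => conj F G (gate a)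
  have hKc : ∀ a, Cont (KK a) := fun a => hFc.comp ((cont_gate a).comp hGc)
  have hKt : ∀ a, Tail (KK a) := fun a => hFt.comp ((tail_gate a).comp hGt)
  have hKr : ∀ a Z, TLe (KK a Z) Z := by
    intro a Z
    have := hmF _ _ (TLe_gate a (G Z))
    rwa [hFG] at this
  have hex : ∀ a, ∃ g, Approx g (KK a) := fun a => baire_global (KK a) (hKc a) (hKt a) (hKr a)
  choose gg hgg using hex
  have hK1 : ∀ a Z, KK (ginv a) (KK a Z) = Z := by
    intro a Z
    show F (gate (ginv a) (G (F (gate a (G Z))))) = Z
    rw [hGF, gate_ginv, hFG]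
  have hK2 : ∀ a Z, KK a (KK (ginv a) Z) = Z := by
    intro a Z
    show F (gate a (G (F (gate (ginv a) (G Z))))) = Z
    rw [hGF, gate_ginv', hFG]
  refine ⟨fun i => {Z | ∃ k, i.2.2 ≤ (gg i.2.1 (pref (wordMap KK i.1 Z) k)).length}, ?_, ?_⟩
  · rintro ⟨w, a, L⟩
    obtain ⟨hcw, K', hK', e1, e2⟩ := wordMap_homeo KK hKc hK1 hK2 w
    have hU : DO {Y : Set ℕ | ∃ k, L ≤ (gg a (pref Y k)).length} := by
      intro σ
      obtain ⟨τ, hστ, hτ⟩ := (hgg a).2.2.2 σ L
      refine ⟨τ, hστ, fun Y hY => ⟨τ.length, ?_⟩⟩
      rw [show pref Y τ.length = τ from hY]; exact hτ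
    exact hU.preimage hcw hK' e1 e2
  · intro Z hZ
    have hgood : ∀ (w : List (Fin 4)) (a : Fin 4), Good (gg a) (wordMap KK w Z) :=
      fun w a L => hZ (w, a, L)
    -- the decoder
    let u : List Bool → ℕ → Option Bool := fun σ n =>
      if n % 2 = 1 then decGate (gg 0) (gg 1) (gg 2) (gg 3) (n / 2) σ
      else decGate (gg 1) (gg 0) (gg 2) (gg 3) (n / 2 + 1) σ
    have hu : Computable₂ u := by
      have hd1 := primrec_decGate (hgg 0).1 (hgg 1).1 (hgg 2).1 (hgg 3).1
      have hd2 := primrec_decGate (hgg 1).1 (hgg 0).1 (hgg 2).1 (hgg 3).1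
      have hdiv : Primrec (fun p : List Bool × ℕ => p.2 / 2) :=
        Primrec.nat_div.comp Primrec.snd (Primrec.const 2)
      have h1 : Primrec (fun p : List Bool × ℕ =>
          decGate (gg 0) (gg 1) (gg 2) (gg 3) (p.2 / 2) p.1) :=
        hd1.comp (Primrec.pair hdiv Primrec.fst)
      have h2 : Primrec (fun p : List Bool × ℕ =>
          decGate (gg 1) (gg 0) (gg 2) (gg 3) (p.2 / 2 + 1) p.1) :=
        hd2.comp (Primrec.pair (Primrec.succ.comp hdiv) Primrec.fst)
      have h3 : Primrec (fun p : List Bool × ℕ => u p.1 p.2) :=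
        Primrec.ite (Primrec.eq.comp (Primrec.nat_mod.comp Primrec.snd (Primrec.const 2))
          (Primrec.const 1)) h1 h2
      exact h3.to_comp.to₂
    -- the points at which approximations must be good
    have eS : ∀ i Y, (KK 0)^[i] Y = wordMap KK (List.replicate i 0) Y :=
      fun i Y => (wordMap_replicate KK 0 i Y).symm
    have eR : ∀ i Y, (KK 1)^[i] Y = wordMap KK (List.replicate i 1) Y :=
      fun i Y => (wordMap_replicate KK 1 i Y).symm
    have gS : ∀ (w : List (Fin 4)) i, Good (gg 0) ((KK 0)^[i] (wordMap KK w Z)) := by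
      intro w i
      rw [eS, ← wordMap_append]; exact hgood _ _
    have gR : ∀ (w : List (Fin 4)) i, Good (gg 1) ((KK 1)^[i] (wordMap KK w Z)) := by
      intro w i
      rw [eR, ← wordMap_append]; exact hgood _ _
    have hsound : ∀ n k b, u (pref Z k) n = some b → b = bit (G Z) n := by
      intro n k b hb
      by_cases hn : n % 2 = 1
      · simp only [u, if_pos hn] at hb
        have := decode_sound hGF hFG gateS gateR gateS_gateR gateR_gateS (hgg 0) (hgg 1)
          (hgg 2) (hgg 3) Z (n / 2) _ b (ext_pref Z k) hb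
        rw [mem_gateR_iter, shf_iter_one] at this
        have e : 2 * (n / 2) + 1 = n := by omega
        rw [e] at this
        cases b
        · cases hbit : bit (G Z) n
          · rfl
          · have := this.mpr ((bit_eq_true_iff _ _).mp hbit); cases this
        · exact ((bit_eq_true_iff _ _).mpr (this.mp rfl)).symm
      · simp only [u, if_neg hn] at hb
        have := decode_sound hGF hFG gateR gateS gateR_gateS gateS_gateR (hgg 1) (hgg 0)
          (hgg 2) (hgg 3) Z (n / 2 + 1) _ b (ext_pref Z k) hb
        rw [mem_gateS_iter, shb_iter_one] at this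
        have e : 2 * (n / 2) = n := by omega
        rw [e] at this
        cases b
        · cases hbit : bit (G Z) n
          · rfl
          · have := this.mpr ((bit_eq_true_iff _ _).mp hbit); cases this
        · exact ((bit_eq_true_iff _ _).mpr (this.mp rfl)).symm
    refine TLe_of_use u hu ?_ hsound
    intro n
    have htot : ∃ k v, u (pref Z k) n = some v := by
      by_cases hn : n % 2 = 1
      · simp only [u, if_pos hn]
        refine decode_total hGF hFG gateS gateR gateS_gateR gateR_gateS (hgg 0) (hgg 1)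
          (hgg 2) (hgg 3) Z (n / 2) ?_ ?_ ?_ ?_ ?_
        · intro i; exact gR [] i
        · have := hgood (List.replicate (n / 2) 1) 2
          rwa [wordMap_replicate] at this
        · have := hgood (List.replicate (n / 2) 1) 3
          rwa [wordMap_replicate] at this
        · intro i
          have := gS (2 :: List.replicate (n / 2) 1) i
          simp only [wordMap] at this
          rwa [wordMap_replicate] at this
        · intro i
          have := gS (3 :: List.replicate (n / 2) 1) i
          simp only [wordMap] at this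
          rwa [wordMap_replicate] at this
      · simp only [u, if_neg hn]
        refine decode_total hGF hFG gateR gateS gateR_gateS gateS_gateR (hgg 1) (hgg 0)
          (hgg 2) (hgg 3) Z (n / 2 + 1) ?_ ?_ ?_ ?_ ?_
        · intro i; exact gS [] i
        · have := hgood (List.replicate (n / 2 + 1) 0) 2
          rwa [wordMap_replicate] at this
        · have := hgood (List.replicate (n / 2 + 1) 0) 3
          rwa [wordMap_replicate] at this
        · intro i
          have := gR (2 :: List.replicate (n / 2 + 1) 0) i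
          simp only [wordMap] at this
          rwa [wordMap_replicate] at this
        · intro i
          have := gR (3 :: List.replicate (n / 2 + 1) 0) i
          simp only [wordMap] at this
          rwa [wordMap_replicate] at this
    obtain ⟨k, v, hv⟩ := htot
    exact ⟨k, by rw [hv, hsound n k v hv]⟩

end Vale.Agent.Lib.P327
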