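import Mathlib
import Vale.Agent.Lib.P327.Tech
import Vale.Agent.Lib.P327.Meet

/-!
Homeomorphisms of Cantor space that are, together with their inverses, uniformly invariant
under finite modifications induce only the trivial automorphism of the Turing degrees.
-/

namespace Vale.Agent.Lib.P327

theorem ezero_trivial (F G : Set ℕ → Set ℕ) (hGF : ∀ X, G (F X) = X) (hFG : ∀ Y, F (G Y) = Y)
    (hFc : Cont F) (hGc : Cont G) (hFt : Tail F) (hGt : Tail G)
    (π : Deg → Deg) (hπ : IsAut π) (hF : ∀ X, π (deg X) = deg (F X)) : ∀ d, π d = d := by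
  have hmF : ∀ X Y, TLe X Y → TLe (F X) (F Y) := by
    intro X Y h
    have h1 : Deg.le (π (deg X)) (π (deg Y)) := (hπ.2 _ _).mp ((deg_le_deg _ _).mpr h)
    rw [hF, hF] at h1
    exact (deg_le_deg _ _).mp h1
  have hmG : ∀ X Y, TLe X Y → TLe (G X) (G Y) := by
    intro X Y h
    have h1 : Deg.le (π (deg (G X))) (π (deg (G Y))) := by
      rw [hF, hF, hFG, hFG]; exact (deg_le_deg _ _).mpr h
    exact (deg_le_deg _ _).mp ((hπ.2 _ _).mpr h1)
  obtain ⟨U, hU, hUG⟩ := main_tech F G hGF hFG hFc hGc hFt hGt hmF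
  obtain ⟨U', hU', hUF⟩ := main_tech G F hFG hGF hGc hFc hGt hFt hmG
  let V : (List (Fin 4) × Fin 4 × ℕ) ⊕ (List (Fin 4) × Fin 4 × ℕ) → Set (Set ℕ) :=
    fun i => Sum.elim (fun j => U' j) (fun j => {X | F X ∈ U j}) i
  have hV : ∀ i, DO (V i) := by
    intro i
    cases i with
    | inl j => exact hU' j
    | inr j => exact (hU j).preimage hFc hGc hGF hFG
  refine jp_lemma V hV π hπ ?_
  intro X hX
  rw [hF, deg_eq_deg]
  constructor
  · exact hUF X fun j => hX (Sum.inl j)
  · have h1 := hUG (F X) fun j => hX (Sum.inr j)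
    rwa [hGF] at h1

end Vale.Agent.Lib.P327
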