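import Mathlib
import Vale.Agent.Lib.P327.Defs
import Vale.Agent.Lib.P327.Translation
import Vale.Agent.Lib.P327.Tools

/-!
Maps of Cantor space with computable moduli of locality: a sparse computable set on whose
subsets such a map acts by substituting finite patterns.
-/

namespace Vale.Agent.Lib.P327

/-- The set of computable sets is countable. -/
theorem countable_computable_sets : {X : Set ℕ | TLe X ∅}.Countable := by
  have hsub : {X : Set ℕ | TLe X ∅} ⊆
      Set.range (fun c : Nat.Partrec.Code => {n | (1 : ℕ) ∈ c.eval n}) := by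
    intro X hX
    obtain ⟨c, hc⟩ := Nat.Partrec.Code.exists_code.mp (partrec_of_TLe_empty hX)
    refine ⟨c, ?_⟩
    ext n
    simp only [Set.mem_ofPred_eq, hc, Part.mem_some_iff]
    rw [eq_comm, chi_eq_one_iff]
  exact (Set.countable_range _).mono hsub

/-- The powerset of an infinite set is uncountable. -/
theorem not_countable_powerset {S : Set ℕ} (hS : S.Infinite) : ¬ (𝒫 S).Countable := by
  intro hc
  have h1 : Cardinal.mk (𝒫 S) ≤ Cardinal.aleph0 := Cardinal.le_aleph0_iff_set_countable.mpr hc
  rw [Cardinal.mk_powerset] at h1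
  have h2 : Cardinal.aleph0 ≤ Cardinal.mk S :=
    Cardinal.infinite_iff.mp (Set.infinite_coe_iff.mpr hS)
  have h3 : (2 : Cardinal) ^ Cardinal.aleph0 ≤ 2 ^ Cardinal.mk S :=
    Cardinal.power_le_power_left two_ne_zero h2
  exact absurd (lt_of_lt_of_le (Cardinal.cantor Cardinal.aleph0) (h3.trans h1)) (lt_irrefl _)

section Construction

variable (r e : ℕ → ℕ)

/-- A monotone majorant of `e` that dominates the identity. -/
def eM (k : ℕ) : ℕ := max k (bmax e (k + 1))

theorem le_eM (k : ℕ) : k ≤ eM e k := le_max_left _ _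

theorem e_le_eM (k : ℕ) : e k ≤ eM e k :=
  le_trans (le_bmax e (Nat.lt_succ_self k)) (le_max_right _ _)

theorem eM_mono : Monotone (eM e) := fun a b hab =>
  max_le_max hab (bmax_mono e (by omega))

theorem computable_eM (he : Computable e) : Computable (eM e) :=
  (Primrec.nat_max.to_comp).comp Computable.id ((computable_bmax he).comp Computable.succ)

attribute [irreducible] eM

/-- The sparse sequence attached to the two moduli. -/
def sp (n : ℕ) : ℕ :=
  Nat.rec 0 (fun _ pn => max pn (bmax r (eM e (pn + 1))) + 1) n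

theorem sp_succ (n : ℕ) :
    sp r e (n + 1) = max (sp r e n) (bmax r (eM e (sp r e n + 1))) + 1 := rfl

theorem sp_lt_succ (n : ℕ) : sp r e n < sp r e (n + 1) := by
  rw [sp_succ]
  have := le_max_left (sp r e n) (bmax r (eM e (sp r e n + 1)))
  omega

theorem sp_strictMono : StrictMono (sp r e) := strictMono_nat_of_lt_succ (sp_lt_succ r e)

theorem le_sp (n : ℕ) : n ≤ sp r e n := (sp_strictMono r e).le_apply

theorem computable_sp (hr : Computable r) (he : Computable e) : Computable (sp r e) := by
  have hS : Computable (fun x : ℕ => max x (bmax r (eM e (x + 1))) + 1) :=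
    Computable.succ.comp ((Primrec.nat_max.to_comp).comp Computable.id
      ((computable_bmax hr).comp ((computable_eM e he).comp Computable.succ)))
  have h : Computable₂ (fun (_ : ℕ) (p : ℕ × ℕ) => max p.2 (bmax r (eM e (p.2 + 1))) + 1) :=
    hS.comp (Computable.snd.comp Computable.snd)
  exact (Computable.nat_rec Computable.id (Computable.const 0) h).of_eq fun t => rfl

attribute [irreducible] sp

/-- The end of the `n`-th block of output positions. -/
def qq (n : ℕ) : ℕ := eM e (sp r e n + 1)

theorem qq_def (n : ℕ) : qq r e n = eM e (sp r e n + 1) := rfl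

theorem lt_qq (n : ℕ) : n < qq r e n := by
  have h1 := le_eM e (sp r e n + 1)
  have h2 := le_sp r e n
  unfold qq
  omega

theorem computable_qq (hr : Computable r) (he : Computable e) : Computable (qq r e) :=
  (computable_eM e he).comp (Computable.succ.comp (computable_sp r e hr he))

theorem r_lt_sp_succ {n m : ℕ} (h : m < qq r e n) : r m < sp r e (n + 1) := by
  rw [sp_succ]
  have h1 : r m ≤ bmax r (eM e (sp r e n + 1)) := le_bmax r h
  have h2 := le_max_right (sp r e n) (bmax r (eM e (sp r e n + 1)))
  omega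

attribute [irreducible] qq

/-- The index of the block containing the output position `m`. -/
def nn (m : ℕ) : ℕ := bfind (fun n => if m < qq r e n then 1 else 0) (m + 1)

theorem nn_spec (m : ℕ) : m < qq r e (nn r e m) ∧ ∀ j, j < nn r e m → qq r e j ≤ m := by
  unfold nn
  generalize hf : (fun n => if m < qq r e n then 1 else 0) = f
  have hfb : ∀ n, f n = if m < qq r e n then 1 else 0 := fun n => by rw [← hf]
  have hlt : bfind f (m + 1) < m + 1 :=
    bfind_lt_of_exists f (Nat.lt_succ_self m)
      (by rw [hfb, if_pos (lt_qq r e m)]; exact one_ne_zero)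
  have hs := bfind_spec f (m + 1)
  refine ⟨?_, fun j hj => ?_⟩
  · have h1 := hs.1 hlt
    by_contra hc
    exact h1 (by rw [hfb, if_neg hc])
  · have h2 : f j = 0 := hs.2 j hj
    rw [hfb] at h2
    by_contra hc
    rw [if_pos (not_le.mp hc)] at h2
    exact one_ne_zero h2

theorem computable_nn (hr : Computable r) (he : Computable e) : Computable (nn r e) := by
  have hS : Primrec (fun q : ℕ × ℕ => if q.1 < q.2 then 1 else 0) :=
    Primrec.ite (Primrec.nat_lt.comp Primrec.fst Primrec.snd) (Primrec.const 1) (Primrec.const 0)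
  have hF : Computable₂ (fun m n : ℕ => if m < qq r e n then 1 else 0) :=
    hS.to_comp.comp (Computable.pair Computable.fst
      ((computable_qq r e hr he).comp Computable.snd))
  exact computable_bfind hF Computable.succ

attribute [irreducible] nn

end Construction

section Locality

variable {r e : ℕ → ℕ} (Φ : Set ℕ → Set ℕ)
  (hcont : ∀ (m : ℕ) (X Y : Set ℕ), (∀ i, i ≤ r m → (i ∈ X ↔ i ∈ Y)) → (m ∈ Φ X ↔ m ∈ Φ Y))
  (htail : ∀ (k : ℕ) (X Y : Set ℕ), (∀ i, k ≤ i → (i ∈ X ↔ i ∈ Y)) →
    ∀ m, e k ≤ m → (m ∈ Φ X ↔ m ∈ Φ Y))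

include hcont htail

/-- The output position `m` only depends on the input positions strictly between two
consecutive... elements of the sparse sequence around the block index of `m`. -/
theorem local_agree (m : ℕ) (X Y : Set ℕ)
    (h : ∀ i, (∀ j, nn r e m = j + 1 → sp r e j < i) → i < sp r e (nn r e m + 1) →
      (i ∈ X ↔ i ∈ Y)) :
    (m ∈ Φ X ↔ m ∈ Φ Y) := by
  classical
  obtain ⟨h1, h2⟩ := nn_spec r e m
  set Z : Set ℕ := {i | if i < sp r e (nn r e m + 1) then i ∈ X else i ∈ Y} with hZ
  have hXZ : (m ∈ Φ X ↔ m ∈ Φ Z) := by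
    refine hcont m X Z fun i hi => ?_
    have hlt : i < sp r e (nn r e m + 1) := lt_of_le_of_lt hi (r_lt_sp_succ r e h1)
    simp only [hZ, Set.mem_ofPred_eq, if_pos hlt]
  have hZY : (m ∈ Φ Z ↔ m ∈ Φ Y) := by
    obtain hn | ⟨j, hn⟩ : nn r e m = 0 ∨ ∃ j, nn r e m = j + 1 := by
      rcases Nat.eq_zero_or_pos (nn r e m) with h0 | h0
      · exact Or.inl h0
      · exact Or.inr ⟨nn r e m - 1, by omega⟩
    · have hZeq : Z = Y := by
        ext i
        by_cases hi : i < sp r e (nn r e m + 1)
        · simp only [hZ, Set.mem_ofPred_eq, if_pos hi]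
          exact h i (fun j hj => by omega) hi
        · simp only [hZ, Set.mem_ofPred_eq, if_neg hi]
      rw [hZeq]
    · refine htail (sp r e j + 1) Z Y (fun i hi => ?_) m ?_
      · by_cases hi' : i < sp r e (nn r e m + 1)
        · simp only [hZ, Set.mem_ofPred_eq, if_pos hi']
          refine h i (fun j' hj' => ?_) hi'
          have hjj : j' = j := by omega
          subst hjj
          omega
        · simp only [hZ, Set.mem_ofPred_eq, if_neg hi']
      · have h3 := h2 j (by omega)
        rw [qq_def] at h3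
        exact le_trans (e_le_eM e _) h3
  exact hXZ.trans hZY

/-- On subsets of the sparse set the map acts by substituting patterns. -/
theorem mem_image_iff (X : Set ℕ) (hX : X ⊆ Set.range (sp r e)) (m : ℕ) :
    (sp r e (nn r e m) ∈ X → (m ∈ Φ X ↔ m ∈ Φ (Set.range (sp r e)))) ∧
      (sp r e (nn r e m) ∉ X → (m ∈ Φ X ↔ m ∈ Φ ∅)) := by
  have hint : ∀ i, (∀ j, nn r e m = j + 1 → sp r e j < i) → i < sp r e (nn r e m + 1) →
      i ∈ Set.range (sp r e) → i = sp r e (nn r e m) := by
    rintro i h1 h2 ⟨n', rfl⟩
    have hlt : n' < nn r e m + 1 := (sp_strictMono r e).lt_iff_lt.mp h2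
    have hge : nn r e m ≤ n' := by
      by_contra hc
      obtain ⟨j, hj⟩ : ∃ j, nn r e m = j + 1 := ⟨nn r e m - 1, by omega⟩
      have h3 : j < n' := (sp_strictMono r e).lt_iff_lt.mp (h1 j hj)
      omega
    have hn : n' = nn r e m := by omega
    rw [hn]
  refine ⟨fun hmem => ?_, fun hmem => ?_⟩
  · refine local_agree Φ hcont htail m X _ fun i h1 h2 => ⟨fun hi => hX hi, fun hi => ?_⟩
    rw [hint i h1 h2 hi]
    exact hmem
  · refine local_agree Φ hcont htail m X _ fun i h1 h2 =>
      ⟨fun hi => ?_, fun hi => absurd hi (Set.notMem_empty i)⟩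
    exact absurd (hint i h1 h2 (hX hi) ▸ hi) hmem

end Locality

end Vale.Agent.Lib.P327
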