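import Mathlib
import Vale.Agent.Lib.P327.Defs
import Vale.Agent.Lib.P327.Translation
import Vale.Agent.Lib.P327.Tools
import Vale.Agent.Lib.P327.Local

/-!
Automorphisms of the Turing degrees induced by maps of Cantor space with computable moduli
of locality are trivial.
-/

namespace Vale.Agent.Lib.P327

section Index

variable (r e : ℕ → ℕ)

/-- The index of `i` in the sparse sequence (and something larger than `i` if `i` is not in
the sequence). -/
def idx (i : ℕ) : ℕ := bfind (fun k => if sp r e k = i then 1 else 0) (i + 1)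

theorem idx_spec (i : ℕ) :
    (idx r e i ≤ i → sp r e (idx r e i) = i) ∧ (∀ n, sp r e n = i → idx r e i = n) := by
  unfold idx
  generalize hf : (fun k => if sp r e k = i then 1 else 0) = f
  have hfb : ∀ x, f x = if sp r e x = i then 1 else 0 := fun x => by rw [← hf]
  have hs := bfind_spec f (i + 1)
  have hfound : bfind f (i + 1) < i + 1 → sp r e (bfind f (i + 1)) = i := by
    intro hlt
    have h1 := hs.1 hlt
    by_contra hc
    exact h1 (by rw [hfb, if_neg hc])
  refine ⟨fun h => hfound (by omega), fun n hn => ?_⟩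
  have hn' : n < i + 1 := by have := le_sp r e n; omega
  have hlt : bfind f (i + 1) < i + 1 :=
    bfind_lt_of_exists f hn' (by rw [hfb, if_pos hn]; exact one_ne_zero)
  exact (sp_strictMono r e).injective ((hfound hlt).trans hn.symm)

theorem computable_idx (hr : Computable r) (he : Computable e) : Computable (idx r e) := by
  have hS : Primrec (fun q : ℕ × ℕ => if q.1 = q.2 then 1 else 0) :=
    Primrec.ite (Primrec.eq.comp Primrec.fst Primrec.snd) (Primrec.const 1) (Primrec.const 0)
  have hF : Computable₂ (fun i k : ℕ => if sp r e k = i then 1 else 0) :=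
    hS.to_comp.comp (Computable.pair ((computable_sp r e hr he).comp Computable.snd)
      Computable.fst)
  exact computable_bfind hF Computable.succ

attribute [irreducible] idx

/-- The sparse set is computable. -/
theorem TLe_range_sp (hr : Computable r) (he : Computable e) : TLe (Set.range (sp r e)) ∅ := by
  have hS : Primrec (fun q : ℕ × ℕ => if q.1 ≤ q.2 then 1 else 0) :=
    Primrec.ite (Primrec.nat_le.comp Primrec.fst Primrec.snd) (Primrec.const 1) (Primrec.const 0)
  have hG : Computable₂ (fun i (_ : ℕ) => if idx r e i ≤ i then 1 else 0) :=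
    hS.to_comp.comp (Computable.pair ((computable_idx r e hr he).comp Computable.fst)
      Computable.fst)
  refine TLe_of_comp id _ Computable.id hG (fun i => ?_)
  by_cases hi : idx r e i ≤ i
  · rw [if_pos hi]
    exact (chi_eq_one_iff _ _).mpr ⟨idx r e i, (idx_spec r e i).1 hi⟩
  · rw [if_neg hi]
    refine (chi_eq_zero_iff _ _).mpr fun ⟨n, hn⟩ => hi ?_
    rw [(idx_spec r e i).2 n hn, ← hn]
    exact le_sp r e n

/-- Coding an arbitrary set into the sparse set. -/
theorem TLe_code (hr : Computable r) (he : Computable e) (n0 : ℕ) (A : Set ℕ) :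
    TLe A {i | ∃ k ∈ A, sp r e (n0 + k) = i} := by
  refine TLe_of_comp (fun k => sp r e (n0 + k)) (fun _ v => v)
    ((computable_sp r e hr he).comp
      (Primrec.nat_add.to_comp.comp (Computable.const n0) Computable.id))
    Computable.snd (fun k => ?_)
  refine (chi_eq_chi_iff _ _ _ _).mpr ⟨fun hk => ⟨k, hk, rfl⟩, fun ⟨k', hk', h⟩ => ?_⟩
  have h1 := (sp_strictMono r e).injective h
  have h2 : k' = k := by omega
  rwa [← h2]

theorem TLe_decode (hr : Computable r) (he : Computable e) (n0 : ℕ) (A : Set ℕ) :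
    TLe {i | ∃ k ∈ A, sp r e (n0 + k) = i} A := by
  have hS : Primrec (fun q : ℕ × ℕ × ℕ × ℕ =>
      if q.1 ≤ q.2.1 ∧ q.2.2.1 ≤ q.1 then q.2.2.2 else 0) :=
    Primrec.ite (PrimrecPred.and (Primrec.nat_le.comp Primrec.fst (Primrec.fst.comp Primrec.snd))
      (Primrec.nat_le.comp (Primrec.fst.comp (Primrec.snd.comp Primrec.snd)) Primrec.fst))
      (Primrec.snd.comp (Primrec.snd.comp Primrec.snd)) (Primrec.const 0)
  have hidx := computable_idx r e hr he
  have hG : Computable₂ (fun i v : ℕ => if idx r e i ≤ i ∧ n0 ≤ idx r e i then v else 0) :=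
    hS.to_comp.comp (Computable.pair (hidx.comp Computable.fst)
      (Computable.pair Computable.fst (Computable.pair (Computable.const n0) Computable.snd)))
  refine TLe_of_comp (fun i => idx r e i - n0) _
    (Primrec.nat_sub.to_comp.comp hidx (Computable.const n0)) hG (fun i => ?_)
  by_cases hi : idx r e i ≤ i ∧ n0 ≤ idx r e i
  · rw [if_pos hi]
    have hsp : sp r e (idx r e i) = i := (idx_spec r e i).1 hi.1
    refine (chi_eq_chi_iff _ _ _ _).mpr ⟨fun ⟨k, hk, h⟩ => ?_, fun h => ⟨idx r e i - n0, h, ?_⟩⟩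
    · have h1 : idx r e i = n0 + k := (idx_spec r e i).2 _ h
      have h2 : idx r e i - n0 = k := by omega
      rwa [h2]
    · have h1 : n0 + (idx r e i - n0) = idx r e i := by omega
      rw [h1, hsp]
  · rw [if_neg hi]
    refine (chi_eq_zero_iff _ _).mpr fun ⟨k, hk, h⟩ => hi ?_
    have h1 : idx r e i = n0 + k := (idx_spec r e i).2 _ h
    rw [h1]
    exact ⟨by rw [← h]; exact le_sp r e _, by omega⟩

/-- A witness position for the pattern of index `n`. -/
def mm (cE cC : ℕ → ℕ) (n : ℕ) : ℕ :=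
  bfind (fun m => if nn r e m = n ∧ cE m ≠ cC m then 1 else 0) (qq r e n)

theorem mm_spec (cE cC : ℕ → ℕ) (n : ℕ) (h : ∃ m, nn r e m = n ∧ cE m ≠ cC m) :
    nn r e (mm r e cE cC n) = n ∧ cE (mm r e cE cC n) ≠ cC (mm r e cE cC n) := by
  obtain ⟨m, hm1, hm2⟩ := h
  have hlt : m < qq r e n := by
    have h1 := (nn_spec r e m).1
    rwa [hm1] at h1
  unfold mm
  generalize hf : (fun m => if nn r e m = n ∧ cE m ≠ cC m then 1 else 0) = f
  have hfb : ∀ x, f x = if nn r e x = n ∧ cE x ≠ cC x then 1 else 0 := fun x => by rw [← hf]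
  have hb : bfind f (qq r e n) < qq r e n :=
    bfind_lt_of_exists f hlt (by rw [hfb, if_pos ⟨hm1, hm2⟩]; exact one_ne_zero)
  have h1 := (bfind_spec f (qq r e n)).1 hb
  by_contra hc
  exact h1 (by rw [hfb, if_neg hc])

theorem computable_mm (hr : Computable r) (he : Computable e) {cE cC : ℕ → ℕ}
    (hE : Computable cE) (hC : Computable cC) : Computable (mm r e cE cC) := by
  have hS : Primrec (fun q : ℕ × ℕ × ℕ × ℕ =>
      if q.1 = q.2.1 ∧ q.2.2.1 ≠ q.2.2.2 then 1 else 0) :=
    Primrec.ite (PrimrecPred.and (Primrec.eq.comp Primrec.fst (Primrec.fst.comp Primrec.snd))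
      (PrimrecPred.not (Primrec.eq.comp (Primrec.fst.comp (Primrec.snd.comp Primrec.snd))
        (Primrec.snd.comp (Primrec.snd.comp Primrec.snd)))))
      (Primrec.const 1) (Primrec.const 0)
  have hF : Computable₂ (fun n m : ℕ => if nn r e m = n ∧ cE m ≠ cC m then 1 else 0) :=
    hS.to_comp.comp (Computable.pair ((computable_nn r e hr he).comp Computable.snd)
      (Computable.pair Computable.fst
        (Computable.pair (hE.comp Computable.snd) (hC.comp Computable.snd))))
  exact computable_bfind hF (computable_qq r e hr he)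

attribute [irreducible] mm

end Index

section Main

variable {r e : ℕ → ℕ} (Φ : Set ℕ → Set ℕ)
  (hcont : ∀ (m : ℕ) (X Y : Set ℕ), (∀ i, i ≤ r m → (i ∈ X ↔ i ∈ Y)) → (m ∈ Φ X ↔ m ∈ Φ Y))
  (htail : ∀ (k : ℕ) (X Y : Set ℕ), (∀ i, k ≤ i → (i ∈ X ↔ i ∈ Y)) →
    ∀ m, e k ≤ m → (m ∈ Φ X ↔ m ∈ Φ Y))

include hcont htail

theorem chi_image (X : Set ℕ) (hX : X ⊆ Set.range (sp r e)) (m : ℕ) :
    chi (Φ X) m = if chi X (sp r e (nn r e m)) = 1 then chi (Φ (Set.range (sp r e))) m
      else chi (Φ ∅) m := by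
  obtain ⟨h1, h2⟩ := mem_image_iff Φ hcont htail X hX m
  by_cases hmem : sp r e (nn r e m) ∈ X
  · rw [if_pos ((chi_eq_one_iff _ _).mpr hmem)]
    exact (chi_eq_chi_iff _ _ _ _).mpr (h1 hmem)
  · rw [if_neg (fun h => hmem ((chi_eq_one_iff _ _).mp h))]
    exact (chi_eq_chi_iff _ _ _ _).mpr (h2 hmem)

theorem TLe_image (hr : Computable r) (he : Computable e)
    (hC : Computable (chi (Φ ∅))) (hE : Computable (chi (Φ (Set.range (sp r e)))))
    (X : Set ℕ) (hX : X ⊆ Set.range (sp r e)) : TLe (Φ X) X := by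
  have hS : Primrec (fun q : ℕ × ℕ × ℕ => if q.1 = 1 then q.2.1 else q.2.2) :=
    Primrec.ite (Primrec.eq.comp Primrec.fst (Primrec.const 1)) (Primrec.fst.comp Primrec.snd)
      (Primrec.snd.comp Primrec.snd)
  have hG : Computable₂ (fun m v : ℕ =>
      if v = 1 then chi (Φ (Set.range (sp r e))) m else chi (Φ ∅) m) :=
    hS.to_comp.comp (Computable.pair Computable.snd
      (Computable.pair (hE.comp Computable.fst) (hC.comp Computable.fst)))
  exact TLe_of_comp (fun m => sp r e (nn r e m)) _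
    ((computable_sp r e hr he).comp (computable_nn r e hr he)) hG
    (chi_image Φ hcont htail X hX)

theorem TLe_preimage (hr : Computable r) (he : Computable e)
    (hC : Computable (chi (Φ ∅))) (hE : Computable (chi (Φ (Set.range (sp r e)))))
    (n0 : ℕ)
    (hgood : ∀ n, n0 ≤ n →
      ∃ m, nn r e m = n ∧ chi (Φ (Set.range (sp r e))) m ≠ chi (Φ ∅) m)
    (X : Set ℕ) (hX : ∀ i ∈ X, ∃ n, n0 ≤ n ∧ sp r e n = i) : TLe X (Φ X) := by
  have hXP : X ⊆ Set.range (sp r e) := fun i hi => by
    obtain ⟨n, _, hn⟩ := hX i hi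
    exact ⟨n, hn⟩
  generalize hcE : chi (Φ (Set.range (sp r e))) = cE at hE hgood
  generalize hcC : chi (Φ ∅) = cC at hC hgood
  have hS : Primrec (fun q : ℕ × ℕ × ℕ × ℕ × ℕ =>
      if q.1 ≤ q.2.1 ∧ q.2.2.1 ≤ q.1 then (if q.2.2.2.1 = q.2.2.2.2 then 1 else 0) else 0) :=
    Primrec.ite (PrimrecPred.and (Primrec.nat_le.comp Primrec.fst (Primrec.fst.comp Primrec.snd))
      (Primrec.nat_le.comp (Primrec.fst.comp (Primrec.snd.comp Primrec.snd)) Primrec.fst))
      (Primrec.ite (Primrec.eq.comp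
        (Primrec.fst.comp (Primrec.snd.comp (Primrec.snd.comp Primrec.snd)))
        (Primrec.snd.comp (Primrec.snd.comp (Primrec.snd.comp Primrec.snd))))
        (Primrec.const 1) (Primrec.const 0))
      (Primrec.const 0)
  have hidx := computable_idx r e hr he
  have hmm := computable_mm r e hr he hE hC
  have hG : Computable₂ (fun i v : ℕ => if idx r e i ≤ i ∧ n0 ≤ idx r e i then
      (if v = cE (mm r e cE cC (idx r e i)) then 1 else 0) else 0) :=
    hS.to_comp.comp (Computable.pair (hidx.comp Computable.fst)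
      (Computable.pair Computable.fst (Computable.pair (Computable.const n0)
        (Computable.pair Computable.snd
          (hE.comp (hmm.comp (hidx.comp Computable.fst)))))))
  refine TLe_of_comp (fun i => mm r e cE cC (idx r e i)) _ (hmm.comp hidx) hG (fun i => ?_)
  by_cases hi : idx r e i ≤ i ∧ n0 ≤ idx r e i
  · rw [if_pos hi]
    have hsp : sp r e (idx r e i) = i := (idx_spec r e i).1 hi.1
    obtain ⟨hm1, hm2⟩ := mm_spec r e cE cC (idx r e i) (hgood _ hi.2)
    have key := chi_image Φ hcont htail X hXP (mm r e cE cC (idx r e i))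
    rw [hm1, hsp, hcE, hcC] at key
    by_cases hmem : i ∈ X
    · rw [if_pos ((chi_eq_one_iff _ _).mpr hmem)] at key
      rw [if_pos key, (chi_eq_one_iff _ _).mpr hmem]
    · rw [if_neg (fun h => hmem ((chi_eq_one_iff _ _).mp h))] at key
      rw [if_neg (by rw [key]; exact fun h => hm2 h.symm), (chi_eq_zero_iff _ _).mpr hmem]
  · rw [if_neg hi]
    refine (chi_eq_zero_iff _ _).mpr fun hmem => hi ?_
    obtain ⟨n, hn0, hn⟩ := hX i hmem
    have h1 : idx r e i = n := (idx_spec r e i).2 n hn
    rw [h1]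
    exact ⟨by rw [← hn]; exact le_sp r e n, hn0⟩

/-- Main theorem: an automorphism of the Turing degrees induced by a map with computable
moduli of locality is the identity. -/
theorem local_trivial (hr : Computable r) (he : Computable e) (π : Deg → Deg) (hπ : IsAut π)
    (hΦ : ∀ X : Set ℕ, π (deg X) = deg (Φ X)) (d : Deg) : π d = d := by
  have hcomp : ∀ X : Set ℕ, TLe X ∅ → TLe (Φ X) ∅ := by
    intro X hX
    have h1 : deg X = deg ∅ := (deg_eq_deg X ∅).mpr ⟨hX, TLe_empty X⟩
    have h2 : Deg.le (π (deg X)) (deg ∅) := by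
      rw [h1]
      exact aut_deg_empty_le hπ (deg ∅)
    rw [hΦ X] at h2
    exact h2
  have hC : Computable (chi (Φ ∅)) := computable_chi_of_TLe_empty (hcomp ∅ (TLe.refl ∅))
  have hE : Computable (chi (Φ (Set.range (sp r e)))) :=
    computable_chi_of_TLe_empty (hcomp _ (TLe_range_sp r e hr he))
  have hfin : {n | ¬ ∃ m, nn r e m = n ∧
      chi (Φ (Set.range (sp r e))) m ≠ chi (Φ ∅) m}.Finite := by
    by_contra hinf
    have hinf' := Set.Infinite.image (sp_strictMono r e).injective.injOn hinf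
    refine not_countable_powerset hinf' (countable_computable_sets.mono fun X hX => ?_)
    have hXP : X ⊆ Set.range (sp r e) := fun i hi => by
      obtain ⟨n, _, hn⟩ := hX hi
      exact ⟨n, hn⟩
    have hΦX : Φ X = Φ ∅ := by
      ext m
      obtain ⟨h1, h2⟩ := mem_image_iff Φ hcont htail X hXP m
      by_cases hmem : sp r e (nn r e m) ∈ X
      · rw [h1 hmem]
        obtain ⟨n, hn, hsn⟩ := hX hmem
        have hnn : n = nn r e m := (sp_strictMono r e).injective hsn
        rw [hnn] at hn
        by_contra hc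
        exact hn ⟨m, rfl, fun h => hc ((chi_eq_chi_iff _ _ _ _).mp h)⟩
      · exact h2 hmem
    have h3 : π (deg X) = π (deg ∅) := by rw [hΦ X, hΦ ∅, hΦX]
    exact ((deg_eq_deg X ∅).mp (hπ.1.1 h3)).1
  obtain ⟨b, hb⟩ := hfin.bddAbove
  have hgood : ∀ n, b + 1 ≤ n →
      ∃ m, nn r e m = n ∧ chi (Φ (Set.range (sp r e))) m ≠ chi (Φ ∅) m := by
    intro n hn
    by_contra hc
    have h1 : n ≤ b := hb hc
    omega
  induction d using Quotient.ind with
  | _ A =>
    show π (deg A) = deg A
    have hXA' : ∀ i ∈ {i | ∃ k ∈ A, sp r e (b + 1 + k) = i}, ∃ n, b + 1 ≤ n ∧ sp r e n = i :=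
      fun i ⟨k, _, hk⟩ => ⟨b + 1 + k, by omega, hk⟩
    have hXP : {i | ∃ k ∈ A, sp r e (b + 1 + k) = i} ⊆ Set.range (sp r e) := fun i hi => by
      obtain ⟨n, _, hn⟩ := hXA' i hi
      exact ⟨n, hn⟩
    have e1 : deg A = deg {i | ∃ k ∈ A, sp r e (b + 1 + k) = i} :=
      (deg_eq_deg _ _).mpr ⟨TLe_code r e hr he (b + 1) A, TLe_decode r e hr he (b + 1) A⟩
    have e2 : deg (Φ {i | ∃ k ∈ A, sp r e (b + 1 + k) = i}) =
        deg {i | ∃ k ∈ A, sp r e (b + 1 + k) = i} :=
      (deg_eq_deg _ _).mpr ⟨TLe_image Φ hcont htail hr he hC hE _ hXP,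
        TLe_preimage Φ hcont htail hr he hC hE (b + 1) hgood _ hXA'⟩
    rw [e1, hΦ, e2]

end Main

end Vale.Agent.Lib.P327
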