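import Mathlib
import Vale.Agent.Lib.P327.Tech

/-!
A version of the global category argument in which invariance of the map under finite
modifications is replaced by a weaker hypothesis: every cylinder can be reached by a map that
modifies only boundedly many bits and changes the value of `K` only on boundedly many bits.
This applies to the conjugates `F ∘ a ∘ G` of the gates when only `F` (and not its inverse `G`)
is uniformly invariant under finite modifications.
-/

namespace Vale.Agent.Lib.P327

open Nat.Partrec (Code)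

theorem primrec_hiU2 (c : Code) :
    Primrec (fun q : (List Bool × List Bool) × ℕ => hiU c q.1.1 q.1.2 q.2) := by
  have hW : Primrec (fun q : ((List Bool × List Bool) × ℕ) × ℕ =>
      hiW c q.1.1.1 q.1.1.2 q.1.2 q.2) := by
    refine Nat.Partrec.Code.primrec_evaln.comp (Primrec.pair (Primrec.pair
      (Primrec.list_length.comp (Primrec.snd.comp (Primrec.fst.comp Primrec.fst)))
      (Primrec.const c)) ?_)
    refine Primrec.encode.comp (Primrec.pair ?_ (Primrec.snd.comp Primrec.fst))
    exact Primrec.list_append.comp (Primrec.fst.comp (Primrec.fst.comp Primrec.fst))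
      (Primrec.list_drop.comp
        (Primrec.list_length.comp (Primrec.fst.comp (Primrec.fst.comp Primrec.fst)))
        (Primrec.list_take.comp Primrec.snd
          (Primrec.snd.comp (Primrec.fst.comp Primrec.fst))))
  have hF : Primrec₂ (fun (p : (List Bool × List Bool) × ℕ) (j : ℕ) =>
      cond (hiW c p.1.1 p.1.2 p.2 j).isSome 1 0) :=
    (Primrec.cond (Primrec.option_isSome.comp hW) (Primrec.const 1) (Primrec.const 0)).to₂
  have hJ : Primrec (fun p : (List Bool × List Bool) × ℕ => hiJ c p.1.1 p.1.2 p.2) :=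
    primrec_bfind hF (Primrec.succ.comp (Primrec.list_length.comp
      (Primrec.snd.comp Primrec.fst)))
  have hWJ : Primrec (fun p : (List Bool × List Bool) × ℕ =>
      hiW c p.1.1 p.1.2 p.2 (hiJ c p.1.1 p.1.2 p.2)) :=
    hW.comp (Primrec.pair Primrec.id hJ)
  have hdec : Primrec₂ (fun (_ : (List Bool × List Bool) × ℕ) (v : ℕ) => decide (v = 1)) :=
    (Primrec.eq.decide.comp Primrec.snd (Primrec.const 1)).to₂
  exact Primrec.option_map hWJ hdec

theorem spliceSet_eq_of {M : Set ℕ → Set ℕ} {k : ℕ} (hMk : ∀ Z i, k ≤ i → (i ∈ M Z ↔ i ∈ Z))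
    (Z : Set ℕ) : spliceSet (pref (M Z) k) Z = M Z := by
  ext i
  unfold spliceSet
  simp only [Set.mem_ofPred_eq, length_pref]
  by_cases hi : i < k
  · rw [if_pos hi, pref_getElem?, if_pos hi]
    constructor
    · intro h
      exact (bit_eq_true_iff _ _).mp (Option.some.inj h)
    · intro h
      rw [(bit_eq_true_iff _ _).mpr h]
  · rw [if_neg hi]
    exact (hMk Z i (by omega)).symm

/-- The global category argument under a movability hypothesis. -/
theorem baire_global_mov (K : Set ℕ → Set ℕ) (hK : Cont K) (hred : ∀ Z, TLe (K Z) Z)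
    (hmov : ∀ τ0 : List Bool, ∃ (M : Set ℕ → Set ℕ) (k e : ℕ), Cont M ∧ (∀ Z, Ext τ0 (M Z)) ∧
      (∀ Z i, k ≤ i → (i ∈ M Z ↔ i ∈ Z)) ∧
      (∀ Z m, e ≤ m → (m ∈ K (M Z) ↔ m ∈ K Z))) : ∃ g, Approx g K := by
  obtain ⟨c, τ0, hm, hD, hC⟩ := baire_local K hK hred
  obtain ⟨M, k0, b, hMc, hMτ, hMk0, hMK⟩ := hmov τ0
  obtain ⟨k, hk⟩ : ∃ k, k = max k0 τ0.length := ⟨_, rfl⟩
  have hk1 : k0 ≤ k := by rw [hk]; exact le_max_left _ _
  have hk2 : τ0.length ≤ k := by rw [hk]; exact le_max_right _ _
  have hMk : ∀ Z i, k ≤ i → (i ∈ M Z ↔ i ∈ Z) := fun Z i hi => hMk0 Z i (le_trans hk1 hi)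
  obtain ⟨RM, hRM⟩ := hMc.seg k
  obtain ⟨R, hR⟩ := hK.seg b
  obtain ⟨R2, hR2⟩ : ∃ R2, R2 = max RM k := ⟨_, rfl⟩
  have hR2a : RM ≤ R2 := by rw [hR2]; exact le_max_left _ _
  have hR2b : k ≤ R2 := by rw [hR2]; exact le_max_right _ _
  let lowtab : List Bool → List Bool := fun σ => pref (K (ofList (σ.take R))) b
  have hlow : Primrec lowtab :=
    primrec_of_take R lowtab fun σ => by simp [lowtab, List.take_take]
  let headtab : List Bool → List Bool := fun σ => pref (M (ofList (σ.take R2))) k
  have hhead : Primrec headtab :=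
    primrec_of_take R2 headtab fun σ => by simp [headtab, List.take_take]
  have hhead_len : ∀ σ, (headtab σ).length = k := fun σ => length_pref _ _
  have hhead_ext : ∀ σ τ, σ <+: τ → R2 ≤ σ.length → headtab τ = headtab σ := by
    intro σ τ hst hl
    obtain ⟨t, rfl⟩ := hst
    simp only [headtab]
    rw [List.take_append_of_le_length hl]
  have hhead_eq : ∀ σ Z, Ext σ Z → R2 ≤ σ.length → headtab σ = pref (M Z) k := by
    intro σ Z hZ hl
    simp only [headtab]
    apply pref_eq_of_agree
    refine hRM _ _ ?_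
    intro i hi
    have e1 : Ext (σ.take R2) (ofList (σ.take R2)) := ext_ofList _
    have e2 : Ext (σ.take R2) Z := Ext.mono (List.take_prefix R2 σ) hZ
    have := Ext.agree e1 e2
    rw [List.length_take, min_eq_left hl] at this
    exact this i (by omega)
  have hhead_τ0 : ∀ σ, τ0 <+: headtab σ := by
    intro σ
    exact (hMτ (ofList (σ.take R2))).to_pref hk2
  let u : List Bool → ℕ → Option Bool := fun σ n =>
    if n < b then (if R ≤ σ.length then (lowtab σ)[n]? else none)
    else (if R2 ≤ σ.length then hiU c (headtab σ) σ n else none)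
  have hu : Primrec₂ u := by
    refine Primrec.ite (Primrec.nat_lt.comp Primrec.snd (Primrec.const b)) ?_ ?_
    · refine Primrec.ite (Primrec.nat_le.comp (Primrec.const R)
        (Primrec.list_length.comp Primrec.fst)) ?_ (Primrec.const none)
      exact Primrec.list_getElem?.comp (hlow.comp Primrec.fst) Primrec.snd
    · refine Primrec.ite (Primrec.nat_le.comp (Primrec.const R2)
        (Primrec.list_length.comp Primrec.fst)) ?_ (Primrec.const none)
      exact (primrec_hiU2 c).comp (Primrec.pair (Primrec.pair (hhead.comp Primrec.fst)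
        Primrec.fst) Primrec.snd)
  refine approx_of_bits K u hu ?_ ?_ ?_
  · intro σ τ n bb hst h
    by_cases hn : n < b
    · simp only [u, if_pos hn] at h ⊢
      by_cases hRl : R ≤ σ.length
      · rw [if_pos hRl] at h
        rw [if_pos (hRl.trans hst.length_le)]
        have : lowtab τ = lowtab σ := by
          obtain ⟨t, rfl⟩ := hst
          simp only [lowtab]
          rw [List.take_append_of_le_length hRl]
        rw [this]; exact h
      · rw [if_neg hRl] at h; cases h
    · simp only [u, if_neg hn] at h ⊢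
      by_cases hRl : R2 ≤ σ.length
      · rw [if_pos hRl] at h
        rw [if_pos (hRl.trans hst.length_le), hhead_ext σ τ hst hRl]
        exact hiU_mono hm hst h
      · rw [if_neg hRl] at h; cases h
  · intro σ n bb Z hZ h
    by_cases hn : n < b
    · simp only [u, if_pos hn] at h
      by_cases hRl : R ≤ σ.length
      · rw [if_pos hRl] at h
        simp only [lowtab] at h
        rw [pref_getElem?, if_pos hn] at h
        have h1 : bit (K (ofList (σ.take R))) n = bb := Option.some.inj h
        rw [← h1]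
        refine (bit_eq_bit_iff _ _ _ _).mpr (hR _ _ ?_ n hn)
        have e1 : Ext (σ.take R) (ofList (σ.take R)) := ext_ofList _
        have e2 : Ext (σ.take R) Z := Ext.mono (List.take_prefix R σ) hZ
        have := Ext.agree e1 e2
        rw [List.length_take, min_eq_left hRl] at this
        exact this
      · rw [if_neg hRl] at h; cases h
    · simp only [u, if_neg hn] at h
      by_cases hRl : R2 ≤ σ.length
      · rw [if_pos hRl] at h
        obtain ⟨j, v, hw, rfl⟩ := hiU_some h
        have hv := hiW_mem hw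
        have hH : headtab σ = pref (M Z) k := hhead_eq σ Z hZ hRl
        have hE : Ext (headtab σ ++ (σ.take j).drop (headtab σ).length) (M Z) := by
          have := ext_splice (headtab σ) _ Z (Ext.mono (List.take_prefix j σ) hZ)
          rw [hH, spliceSet_eq_of hMk Z] at this
          rw [hH]; exact this
        have h1 : chi (K (M Z)) n = v :=
          hC _ n v ((hhead_τ0 σ).trans (List.prefix_append _ _)) hv _ hE
        have h2 : n ∈ K (M Z) ↔ n ∈ K Z := hMK Z n (by omega)
        have h3 : chi (K Z) n = v := by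
          rw [← h1]; exact (chi_eq_chi_iff _ _ _ _).mpr h2.symm
        rw [← h3]
        by_cases hmem : n ∈ K Z
        · rw [(bit_eq_true_iff _ _).mpr hmem, (chi_eq_one_iff _ _).mpr hmem]; simp
        · have hz : chi (K Z) n = 0 := (chi_eq_zero_iff _ _).mpr hmem
          rw [hz]
          have : bit (K Z) n = false := by
            cases hbit : bit (K Z) n
            · rfl
            · exact absurd ((bit_eq_true_iff _ _).mp hbit) hmem
          rw [this]; simp
      · rw [if_neg hRl] at h; cases h
  · intro σ n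
    by_cases hn : n < b
    · refine ⟨σ ++ List.replicate R false, List.prefix_append _ _, ?_⟩
      simp only [u, if_pos hn]
      rw [if_pos (by simp)]
      simp only [lowtab]
      rw [pref_getElem?, if_pos hn]
      simp
    · obtain ⟨σ1, hσσ1, hlen⟩ := exists_long_ext σ R2
      have hlenk : (headtab σ1).length ≤ σ1.length := by rw [hhead_len]; omega
      obtain ⟨ρ', hρ, hdom⟩ := hD (headtab σ1 ++ σ1.drop (headtab σ1).length)
        ((hhead_τ0 σ1).trans (List.prefix_append _ _)) n
      obtain ⟨t, rfl⟩ := hρ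
      obtain ⟨v, hv⟩ := Part.dom_iff_mem.mp hdom
      obtain ⟨s, hs⟩ := Nat.Partrec.Code.evaln_complete.mp hv
      refine ⟨(σ1 ++ t) ++ List.replicate s false,
        hσσ1.trans ((List.prefix_append _ _).trans (List.prefix_append _ _)), ?_⟩
      have hhd : headtab ((σ1 ++ t) ++ List.replicate s false) = headtab σ1 :=
        hhead_ext σ1 _ ((List.prefix_append _ _).trans (List.prefix_append _ _)) hlen
      have hw : hiW c (headtab σ1) ((σ1 ++ t) ++ List.replicate s false) n (σ1 ++ t).length =
          some v := by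
        unfold hiW
        rw [List.take_left' rfl, List.drop_append_of_le_length hlenk, ← List.append_assoc]
        exact Nat.Partrec.Code.evaln_mono (by simp; omega) hs
      obtain ⟨bb, hbb⟩ := hiU_of (by simp) hw
      simp only [u, if_neg hn]
      rw [if_pos (by simp; omega), hhd, hbb]; simp

theorem cont_spliceSet (ρ : List Bool) : Cont (spliceSet ρ) := by
  intro m
  refine ⟨m + 1, fun X Y h => ?_⟩
  unfold spliceSet
  simp only [Set.mem_ofPred_eq]
  by_cases hm : m < ρ.length
  · rw [if_pos hm, if_pos hm]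
  · rw [if_neg hm, if_neg hm]; exact h m (Nat.lt_succ_self m)

/-- Movability for the conjugate of a map `γ` that is uniformly invariant under finite
modifications, when `F` is. -/
theorem movable_conj (F G γ : Set ℕ → Set ℕ) (hGF : ∀ X, G (F X) = X) (hFG : ∀ Z, F (G Z) = Z)
    (hFc : Cont F) (hGc : Cont G) (hFt : Tail F) (hγt : Tail γ) (τ0 : List Bool) :
    ∃ (M : Set ℕ → Set ℕ) (k e : ℕ), Cont M ∧ (∀ Z, Ext τ0 (M Z)) ∧
      (∀ Z i, k ≤ i → (i ∈ M Z ↔ i ∈ Z)) ∧
      (∀ Z m, e ≤ m → (m ∈ conj F G γ (M Z) ↔ m ∈ conj F G γ Z)) := by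
  obtain ⟨R0, hR0⟩ := hFc.seg τ0.length
  obtain ⟨e1, he1⟩ := hFt R0
  obtain ⟨e2, he2⟩ := hγt R0
  obtain ⟨e3, he3⟩ := hFt e2
  obtain ⟨ρ, hρ⟩ : ∃ ρ, ρ = pref (G (ofList τ0)) R0 := ⟨_, rfl⟩
  have hρlen : ρ.length = R0 := by rw [hρ]; exact length_pref _ _
  have hag : ∀ Z i, R0 ≤ i → (i ∈ spliceSet ρ (G Z) ↔ i ∈ G Z) := fun Z i hi =>
    spliceSet_agree ρ (G Z) i (by rw [hρlen]; exact hi)
  have hlow : ∀ Z i, i < R0 → (i ∈ spliceSet ρ (G Z) ↔ i ∈ G (ofList τ0)) := by
    intro Z i hi
    unfold spliceSet
    simp only [Set.mem_ofPred_eq]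
    rw [if_pos (by rw [hρlen]; exact hi), hρ, pref_getElem?, if_pos hi]
    constructor
    · intro h; exact (bit_eq_true_iff _ _).mp (Option.some.inj h)
    · intro h; rw [(bit_eq_true_iff _ _).mpr h]
  refine ⟨fun Z => F (spliceSet ρ (G Z)), e1, e3,
    hFc.comp ((cont_spliceSet ρ).comp hGc), ?_, ?_, ?_⟩
  · intro Z
    have h1 := hR0 (spliceSet ρ (G Z)) (G (ofList τ0)) (hlow Z)
    rw [hFG] at h1
    exact (ext_ofList τ0).of_agree fun i hi => (h1 i hi).symm
  · intro Z i hi
    have h1 := he1 (spliceSet ρ (G Z)) (G Z) (hag Z) i hi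
    rw [hFG] at h1
    exact h1
  · intro Z m hm
    unfold conj
    rw [hGF]
    exact he3 _ _ (he2 (spliceSet ρ (G Z)) (G Z) (hag Z)) m hm

/-- Computable approximations of the conjugates of the four gates, when only `F` is uniformly
invariant under finite modifications. -/
theorem approx_gate (F G : Set ℕ → Set ℕ) (hGF : ∀ X, G (F X) = X) (hFG : ∀ Z, F (G Z) = Z)
    (hFc : Cont F) (hGc : Cont G) (hFt : Tail F)
    (hmF : ∀ X Y, TLe X Y → TLe (F X) (F Y)) (a : Fin 4) :
    ∃ g, Approx g (conj F G (gate a)) := by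
  refine baire_global_mov _ (hFc.comp ((cont_gate a).comp hGc)) ?_
    (movable_conj F G (gate a) hGF hFG hFc hGc hFt (tail_gate a))
  intro Z
  have h1 := hmF _ _ (TLe_gate a (G Z))
  rwa [hFG] at h1

end Vale.Agent.Lib.P327
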