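import Mathlib
import Vale.Agent.Lib.P327.Move

/-!
The decoder of the main technical theorem as an explicit object: from computable approximations
of the conjugates of the four gates one obtains a primitive recursive procedure on strings that
never gives a wrong bit of `G Z`, and gives every bit of `G Z` for all `Z` in a countable
intersection of sets with dense interior.
-/

namespace Vale.Agent.Lib.P327

theorem main_tech_u (F G : Set ℕ → Set ℕ) (hGF : ∀ X, G (F X) = X) (hFG : ∀ Z, F (G Z) = Z)
    (hFc : Cont F) (hGc : Cont G)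
    (gg : Fin 4 → List Bool → List Bool) (hgg : ∀ a, Approx (gg a) (conj F G (gate a))) :
    ∃ u : List Bool → ℕ → Option Bool, Primrec₂ u ∧
      (∀ σ n b Z, Ext σ Z → u σ n = some b → b = bit (G Z) n) ∧
      ∃ U : (List (Fin 4) × Fin 4 × ℕ) → Set (Set ℕ), (∀ i, DO (U i)) ∧
        ∀ Z, (∀ i, Z ∈ U i) → ∀ n, ∃ k v, u (pref Z k) n = some v := by
  let KK : Fin 4 → Set ℕ → Set ℕ := fun a => conj F G (gate a)
  have hKc : ∀ a, Cont (KK a) := fun a => hFc.comp ((cont_gate a).comp hGc)
  have hK1 : ∀ a Z, KK (ginv a) (KK a Z) = Z := by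
    intro a Z
    show F (gate (ginv a) (G (F (gate a (G Z))))) = Z
    rw [hGF, gate_ginv, hFG]
  have hK2 : ∀ a Z, KK a (KK (ginv a) Z) = Z := by
    intro a Z
    show F (gate a (G (F (gate (ginv a) (G Z))))) = Z
    rw [hGF, gate_ginv', hFG]
  let u : List Bool → ℕ → Option Bool := fun σ n =>
    if n % 2 = 1 then decGate (gg 0) (gg 1) (gg 2) (gg 3) (n / 2) σ
    else decGate (gg 1) (gg 0) (gg 2) (gg 3) (n / 2 + 1) σ
  have hu : Primrec₂ u := by
    have hd1 := primrec_decGate (hgg 0).1 (hgg 1).1 (hgg 2).1 (hgg 3).1
    have hd2 := primrec_decGate (hgg 1).1 (hgg 0).1 (hgg 2).1 (hgg 3).1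
    have hdiv : Primrec (fun p : List Bool × ℕ => p.2 / 2) :=
      Primrec.nat_div.comp Primrec.snd (Primrec.const 2)
    have h1 : Primrec (fun p : List Bool × ℕ =>
        decGate (gg 0) (gg 1) (gg 2) (gg 3) (p.2 / 2) p.1) :=
      hd1.comp (Primrec.pair hdiv Primrec.fst)
    have h2 : Primrec (fun p : List Bool × ℕ =>
        decGate (gg 1) (gg 0) (gg 2) (gg 3) (p.2 / 2 + 1) p.1) :=
      hd2.comp (Primrec.pair (Primrec.succ.comp hdiv) Primrec.fst)
    exact Primrec.ite (Primrec.eq.comp (Primrec.nat_mod.comp Primrec.snd (Primrec.const 2))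
      (Primrec.const 1)) h1 h2
  have hsound : ∀ σ n b Z, Ext σ Z → u σ n = some b → b = bit (G Z) n := by
    intro σ n b Z hσ hb
    by_cases hn : n % 2 = 1
    · simp only [u, if_pos hn] at hb
      have := decode_sound hGF hFG gateS gateR gateS_gateR gateR_gateS (hgg 0) (hgg 1)
        (hgg 2) (hgg 3) Z (n / 2) _ b hσ hb
      rw [mem_gateR_iter, shf_iter_one] at this
      have e : 2 * (n / 2) + 1 = n := by omega
      rw [e] at this
      cases b
      · cases hbit : bit (G Z) n
        · rfl
        · have := this.mpr ((bit_eq_true_iff _ _).mp hbit); cases this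
      · exact ((bit_eq_true_iff _ _).mpr (this.mp rfl)).symm
    · simp only [u, if_neg hn] at hb
      have := decode_sound hGF hFG gateR gateS gateR_gateS gateS_gateR (hgg 1) (hgg 0)
        (hgg 2) (hgg 3) Z (n / 2 + 1) _ b hσ hb
      rw [mem_gateS_iter, shb_iter_one] at this
      have e : 2 * (n / 2) = n := by omega
      rw [e] at this
      cases b
      · cases hbit : bit (G Z) n
        · rfl
        · have := this.mpr ((bit_eq_true_iff _ _).mp hbit); cases this
      · exact ((bit_eq_true_iff _ _).mpr (this.mp rfl)).symm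
  refine ⟨u, hu, hsound,
    fun i => {Z | ∃ k, i.2.2 ≤ (gg i.2.1 (pref (wordMap KK i.1 Z) k)).length}, ?_, ?_⟩
  · rintro ⟨w, a, L⟩
    obtain ⟨hcw, K', hK', e1, e2⟩ := wordMap_homeo KK hKc hK1 hK2 w
    have hU : DO {Y : Set ℕ | ∃ k, L ≤ (gg a (pref Y k)).length} := by
      intro σ
      obtain ⟨τ, hστ, hτ⟩ := (hgg a).2.2.2 σ L
      refine ⟨τ, hστ, fun Y hY => ⟨τ.length, ?_⟩⟩
      rw [show pref Y τ.length = τ from hY]; exact hτ
    exact hU.preimage hcw hK' e1 e2
  · intro Z hZ n
    have hgood : ∀ (w : List (Fin 4)) (a : Fin 4), Good (gg a) (wordMap KK w Z) :=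
      fun w a L => hZ (w, a, L)
    have eS : ∀ i Y, (KK 0)^[i] Y = wordMap KK (List.replicate i 0) Y :=
      fun i Y => (wordMap_replicate KK 0 i Y).symm
    have eR : ∀ i Y, (KK 1)^[i] Y = wordMap KK (List.replicate i 1) Y :=
      fun i Y => (wordMap_replicate KK 1 i Y).symm
    have gS : ∀ (w : List (Fin 4)) i, Good (gg 0) ((KK 0)^[i] (wordMap KK w Z)) := by
      intro w i
      rw [eS, ← wordMap_append]; exact hgood _ _
    have gR : ∀ (w : List (Fin 4)) i, Good (gg 1) ((KK 1)^[i] (wordMap KK w Z)) := by
      intro w i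
      rw [eR, ← wordMap_append]; exact hgood _ _
    have htot : ∃ k v, u (pref Z k) n = some v := by
      by_cases hn : n % 2 = 1
      · simp only [u, if_pos hn]
        refine decode_total hGF hFG gateS gateR gateS_gateR gateR_gateS (hgg 0) (hgg 1)
          (hgg 2) (hgg 3) Z (n / 2) ?_ ?_ ?_ ?_ ?_
        · intro i; exact gR [] i
        · have := hgood (List.replicate (n / 2) 1) 2
          rwa [wordMap_replicate] at this
        · have := hgood (List.replicate (n / 2) 1) 3
          rwa [wordMap_replicate] at this
        · intro i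
          have := gS (2 :: List.replicate (n / 2) 1) i
          simp only [wordMap] at this
          rwa [wordMap_replicate] at this
        · intro i
          have := gS (3 :: List.replicate (n / 2) 1) i
          simp only [wordMap] at this
          rwa [wordMap_replicate] at this
      · simp only [u, if_neg hn]
        refine decode_total hGF hFG gateR gateS gateR_gateS gateS_gateR (hgg 1) (hgg 0)
          (hgg 2) (hgg 3) Z (n / 2 + 1) ?_ ?_ ?_ ?_ ?_
        · intro i; exact gS [] i
        · have := hgood (List.replicate (n / 2 + 1) 0) 2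
          rwa [wordMap_replicate] at this
        · have := hgood (List.replicate (n / 2 + 1) 0) 3
          rwa [wordMap_replicate] at this
        · intro i
          have := gR (2 :: List.replicate (n / 2 + 1) 0) i
          simp only [wordMap] at this
          rwa [wordMap_replicate] at this
        · intro i
          have := gR (3 :: List.replicate (n / 2 + 1) 0) i
          simp only [wordMap] at this
          rwa [wordMap_replicate] at this
    exact htot

end Vale.Agent.Lib.P327
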