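import Mathlib
import Vale.Agent.Lib.P327.Tech2

/-!
A computable tree of strings along which a string procedure answers and along which branches
are told apart by the answers. For an injective map `G` of Cantor space with a computable
string procedure that never gives a wrong bit of `G Z` and answers everywhere on a dense set of
reals, every real `X` is Turing equivalent to a real `Z` with `G Z` Turing equivalent to `Z`.
-/

namespace Vale.Agent.Lib.P327

/-- Countably many sets of reals with dense interior have a common point in every cylinder. -/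
theorem DO_inter_dense {ι : Type} [Encodable ι] (U : ι → Set (Set ℕ)) (hU : ∀ i, DO (U i))
    (σ : List Bool) : ∃ Z, Ext σ Z ∧ ∀ i, Z ∈ U i := by
  choose step hstep1 hstep2 using fun (i : ι) (τ : List Bool) => hU i τ
  let p : ℕ → List Bool := fun t => Nat.rec (motive := fun _ => List Bool) σ
    (fun e acc => (Encodable.decode (α := ι) e).elim acc fun i => step i acc) t
  have hsucc : ∀ t, p (t + 1) = (Encodable.decode (α := ι) t).elim (p t) fun i => step i (p t) :=
    fun t => rfl
  have hp : ∀ t, p t <+: p (t + 1) := by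
    intro t
    rw [hsucc]
    cases Encodable.decode (α := ι) t with
    | none => exact List.prefix_rfl
    | some i => exact hstep1 i _
  refine ⟨chainLim p, ext_chainLim hp 0, fun i => ?_⟩
  have hE := ext_chainLim hp (Encodable.encode i + 1)
  rw [hsucc, Encodable.encodek] at hE
  exact hstep2 i _ _ hE

theorem bfind_eq (f : ℕ → ℕ) {t j : ℕ} (hj : j < t) (hf : f j ≠ 0) (h0 : ∀ i, i < j → f i = 0) :
    bfind f t = j := by
  have h1 := bfind_lt_of_exists f hj hf
  have h2 := bfind_spec f t
  rcases Nat.lt_trichotomy (bfind f t) j with h | h | h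
  · exact absurd (h0 _ h) (h2.1 h1)
  · exact h
  · exact absurd (h2.2 j h) hf

/-- The closure of a string procedure under extension of strings: the answer of `u` on the
shortest initial segment of the string on which `u` answers. -/
def mclo (u : List Bool → ℕ → Option Bool) (σ : List Bool) (n : ℕ) : Option Bool :=
  u (σ.take (bfind (fun k => cond (u (σ.take k) n).isSome 1 0) (σ.length + 1))) n

theorem mclo_some {u : List Bool → ℕ → Option Bool} {σ : List Bool} {n : ℕ} {b : Bool}
    (h : mclo u σ n = some b) : ∃ k, u (σ.take k) n = some b := ⟨_, h⟩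

theorem mclo_eq_of {u : List Bool → ℕ → Option Bool} {σ : List Bool} {n k : ℕ}
    (hk : k ≤ σ.length) (hs : u (σ.take k) n ≠ none)
    (hmin : ∀ i, i < k → u (σ.take i) n = none) : mclo u σ n = u (σ.take k) n := by
  unfold mclo
  rw [bfind_eq (fun k => cond (u (σ.take k) n).isSome 1 0) (Nat.lt_succ_of_le hk)]
  · cases hv : u (σ.take k) n with
    | none => exact absurd hv hs
    | some b => simp
  · intro i hi
    rw [hmin i hi]; rfl

theorem exists_least_some (u : List Bool → ℕ → Option Bool) (σ : List Bool) (n : ℕ) {k : ℕ}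
    (hs : u (σ.take k) n ≠ none) :
    ∃ k', k' ≤ k ∧ u (σ.take k') n ≠ none ∧ ∀ i, i < k' → u (σ.take i) n = none := by
  classical
  have hex : ∃ k', u (σ.take k') n ≠ none := ⟨k, hs⟩
  refine ⟨Nat.find hex, Nat.find_min' hex hs, Nat.find_spec hex, fun i hi => ?_⟩
  have := Nat.find_min hex hi
  simpa using this

theorem mclo_of {u : List Bool → ℕ → Option Bool} {σ : List Bool} {n k : ℕ}
    (hs : u (σ.take k) n ≠ none) : ∃ b, mclo u σ n = some b := by
  have hs' : u (σ.take (min k σ.length)) n ≠ none := by
    rcases le_total k σ.length with h | h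
    · rw [min_eq_left h]; exact hs
    · rw [min_eq_right h, List.take_of_length_le le_rfl]
      rwa [List.take_of_length_le h] at hs
  obtain ⟨k', hk', hs2, hmin⟩ := exists_least_some u σ n hs'
  have hk'' : k' ≤ σ.length := hk'.trans (min_le_right _ _)
  rw [mclo_eq_of hk'' hs2 hmin]
  cases hv : u (σ.take k') n with
  | none => exact absurd hv hs2
  | some b => exact ⟨b, rfl⟩

theorem mclo_mono {u : List Bool → ℕ → Option Bool} {σ τ : List Bool} {n : ℕ} {b : Bool}
    (hst : σ <+: τ) (h : mclo u σ n = some b) : mclo u τ n = some b := by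
  obtain ⟨k, hk⟩ := mclo_some h
  have hs : u (σ.take k) n ≠ none := by rw [hk]; simp
  have hs' : u (σ.take (min k σ.length)) n ≠ none := by
    rcases le_total k σ.length with h | h
    · rw [min_eq_left h]; exact hs
    · rw [min_eq_right h, List.take_of_length_le le_rfl]
      rwa [List.take_of_length_le h] at hs
  obtain ⟨k', hk', hs2, hmin⟩ := exists_least_some u σ n hs'
  have hk'' : k' ≤ σ.length := hk'.trans (min_le_right _ _)
  have e1 := mclo_eq_of hk'' hs2 hmin
  have htake : ∀ i, i ≤ σ.length → τ.take i = σ.take i := by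
    intro i hi
    obtain ⟨t, rfl⟩ := hst
    exact List.take_append_of_le_length hi
  have e2 : mclo u τ n = u (τ.take k') n := by
    refine mclo_eq_of (hk''.trans hst.length_le) ?_ ?_
    · rw [htake k' hk'']; exact hs2
    · intro i hi
      rw [htake i (by omega)]; exact hmin i hi
  rw [e2, htake k' hk'', ← e1]; exact h

theorem primrec_mclo {u : List Bool → ℕ → Option Bool} (hu : Primrec₂ u) :
    Primrec₂ (mclo u) := by
  have hF : Primrec₂ (fun (p : List Bool × ℕ) (k : ℕ) =>
      cond (u (p.1.take k) p.2).isSome 1 0) :=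
    (Primrec.cond (Primrec.option_isSome.comp (hu.comp
      (Primrec.list_take.comp Primrec.snd (Primrec.fst.comp Primrec.fst))
      (Primrec.snd.comp Primrec.fst))) (Primrec.const 1) (Primrec.const 0)).to₂
  have hJ : Primrec (fun p : List Bool × ℕ =>
      bfind (fun k => cond (u (p.1.take k) p.2).isSome 1 0) (p.1.length + 1)) :=
    primrec_bfind hF (Primrec.succ.comp (Primrec.list_length.comp Primrec.fst))
  exact hu.comp (Primrec.list_take.comp hJ Primrec.fst) Primrec.snd

open Classical in
/-- The least number at which a test holds (and `0` if there is none). -/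
noncomputable def leastN (P : ℕ → Bool) : ℕ :=
  if h : ∃ n, P n = true then Nat.find h else 0

theorem leastN_spec {P : ℕ → Bool} (h : ∃ n, P n = true) : P (leastN P) = true := by
  unfold leastN
  rw [dif_pos h]
  exact Nat.find_spec h

theorem leastN_min {P : ℕ → Bool} {m : ℕ} (hm : m < leastN P) : P m = false := by
  unfold leastN at hm
  by_cases h : ∃ n, P n = true
  · rw [dif_pos h] at hm
    have := Nat.find_min h hm
    simpa using this
  · rw [dif_neg h] at hm
    omega

theorem computable_leastN {α : Type} [Primcodable α] {P : α → ℕ → Bool} (hP : Computable₂ P)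
    (hex : ∀ a, ∃ n, P a n = true) : Computable (fun a => leastN (P a)) := by
  have h1 : Partrec₂ (fun (a : α) (n : ℕ) => (Part.some (P a n) : Part Bool)) := hP.partrec₂
  refine (Partrec.rfind h1).of_eq_tot fun a => ?_
  refine Nat.mem_rfind.mpr ⟨?_, fun {m} hm => ?_⟩
  · rw [leastN_spec (hex a)]; exact Part.mem_some _
  · rw [leastN_min hm]; exact Part.mem_some _

/-- Decoding of a number as a pair of strings with a number. -/
def dec3 (p : ℕ) : (List Bool × List Bool) × ℕ :=
  (Encodable.decode (α := (List Bool × List Bool) × ℕ) p).getD (([], []), 0)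

theorem dec3_encode (t : (List Bool × List Bool) × ℕ) : dec3 (Encodable.encode t) = t := by
  unfold dec3
  rw [Encodable.encodek]; rfl

theorem computable_dec3 : Computable dec3 :=
  Computable.option_getD Computable.decode (Computable.const _)

/-- The test for a splitting of the string `σ` at level `j`: the two strings of `t` extend `σ`
by `false` and by `true`, the procedure `u` answers on both at `j`, and it gives different
answers on them at the position `t.2`. -/
def okB (u : List Bool → ℕ → Option Bool) (σ : List Bool) (j : ℕ)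
    (t : (List Bool × List Bool) × ℕ) : Bool :=
  decide (t.1.1.take (σ.length + 1) = σ ++ [false]) &&
    (decide (t.1.2.take (σ.length + 1) = σ ++ [true]) &&
      ((u t.1.1 j).isSome && ((u t.1.2 j).isSome &&
        ((u t.1.1 t.2).isSome && ((u t.1.2 t.2).isSome &&
          !decide (u t.1.1 t.2 = u t.1.2 t.2))))))

theorem okB_iff (u : List Bool → ℕ → Option Bool) (σ : List Bool) (j : ℕ)
    (t : (List Bool × List Bool) × ℕ) :
    okB u σ j t = true ↔ (σ ++ [false] <+: t.1.1 ∧ σ ++ [true] <+: t.1.2 ∧
      (∃ v, u t.1.1 j = some v) ∧ (∃ v, u t.1.2 j = some v) ∧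
      ∃ b0 b1, u t.1.1 t.2 = some b0 ∧ u t.1.2 t.2 = some b1 ∧ b0 ≠ b1) := by
  unfold okB
  simp only [Bool.and_eq_true, decide_eq_true_eq, Option.isSome_iff_exists, Bool.not_eq_true',
    decide_eq_false_iff_not]
  have e1 : ∀ (b : Bool) (τ : List Bool), τ.take (σ.length + 1) = σ ++ [b] ↔ σ ++ [b] <+: τ := by
    intro b τ
    rw [List.prefix_iff_eq_take]
    simp only [List.length_append, List.length_singleton]
    exact eq_comm
  rw [e1, e1]
  constructor
  · rintro ⟨h1, h2, h3, h4, ⟨b0, h5⟩, ⟨b1, h6⟩, h7⟩
    refine ⟨h1, h2, h3, h4, b0, b1, h5, h6, ?_⟩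
    intro hb
    apply h7
    rw [h5, h6, hb]
  · rintro ⟨h1, h2, h3, h4, b0, b1, h5, h6, h7⟩
    refine ⟨h1, h2, h3, h4, ⟨b0, h5⟩, ⟨b1, h6⟩, ?_⟩
    rw [h5, h6]
    intro hb
    exact h7 (Option.some.inj hb)

theorem primrec_okB {u : List Bool → ℕ → Option Bool} (hu : Primrec₂ u) :
    Primrec (fun q : (List Bool × ℕ) × ((List Bool × List Bool) × ℕ) =>
      okB u q.1.1 q.1.2 q.2) := by
  have hσ : Primrec (fun q : (List Bool × ℕ) × ((List Bool × List Bool) × ℕ) => q.1.1) :=
    Primrec.fst.comp Primrec.fst
  have hj : Primrec (fun q : (List Bool × ℕ) × ((List Bool × List Bool) × ℕ) => q.1.2) :=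
    Primrec.snd.comp Primrec.fst
  have ht0 : Primrec (fun q : (List Bool × ℕ) × ((List Bool × List Bool) × ℕ) => q.2.1.1) :=
    Primrec.fst.comp (Primrec.fst.comp Primrec.snd)
  have ht1 : Primrec (fun q : (List Bool × ℕ) × ((List Bool × List Bool) × ℕ) => q.2.1.2) :=
    Primrec.snd.comp (Primrec.fst.comp Primrec.snd)
  have hn : Primrec (fun q : (List Bool × ℕ) × ((List Bool × List Bool) × ℕ) => q.2.2) :=
    Primrec.snd.comp Primrec.snd
  have hlen : Primrec (fun q : (List Bool × ℕ) × ((List Bool × List Bool) × ℕ) =>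
      q.1.1.length + 1) := Primrec.succ.comp (Primrec.list_length.comp hσ)
  have happ : ∀ b : Bool, Primrec (fun q : (List Bool × ℕ) × ((List Bool × List Bool) × ℕ) =>
      q.1.1 ++ [b]) := fun b => Primrec.list_append.comp hσ (Primrec.const [b])
  have c1 : Primrec (fun q : (List Bool × ℕ) × ((List Bool × List Bool) × ℕ) =>
      decide (q.2.1.1.take (q.1.1.length + 1) = q.1.1 ++ [false])) :=
    Primrec.eq.decide.comp (Primrec.list_take.comp hlen ht0) (happ false)
  have c2 : Primrec (fun q : (List Bool × ℕ) × ((List Bool × List Bool) × ℕ) =>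
      decide (q.2.1.2.take (q.1.1.length + 1) = q.1.1 ++ [true])) :=
    Primrec.eq.decide.comp (Primrec.list_take.comp hlen ht1) (happ true)
  have c3 : Primrec (fun q : (List Bool × ℕ) × ((List Bool × List Bool) × ℕ) =>
      (u q.2.1.1 q.1.2).isSome) := Primrec.option_isSome.comp (hu.comp ht0 hj)
  have c4 : Primrec (fun q : (List Bool × ℕ) × ((List Bool × List Bool) × ℕ) =>
      (u q.2.1.2 q.1.2).isSome) := Primrec.option_isSome.comp (hu.comp ht1 hj)
  have c5 : Primrec (fun q : (List Bool × ℕ) × ((List Bool × List Bool) × ℕ) =>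
      (u q.2.1.1 q.2.2).isSome) := Primrec.option_isSome.comp (hu.comp ht0 hn)
  have c6 : Primrec (fun q : (List Bool × ℕ) × ((List Bool × List Bool) × ℕ) =>
      (u q.2.1.2 q.2.2).isSome) := Primrec.option_isSome.comp (hu.comp ht1 hn)
  have c7 : Primrec (fun q : (List Bool × ℕ) × ((List Bool × List Bool) × ℕ) =>
      !decide (u q.2.1.1 q.2.2 = u q.2.1.2 q.2.2)) :=
    Primrec.not.comp (Primrec.eq.decide.comp (hu.comp ht0 hn) (hu.comp ht1 hn))
  exact Primrec.and.comp c1 (Primrec.and.comp c2 (Primrec.and.comp c3 (Primrec.and.comp c4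
    (Primrec.and.comp c5 (Primrec.and.comp c6 c7)))))

/-- The least splitting of `σ` at level `j`. -/
noncomputable def stepT (u : List Bool → ℕ → Option Bool) (σ : List Bool) (j : ℕ) :
    (List Bool × List Bool) × ℕ :=
  dec3 (leastN fun p => okB u σ j (dec3 p))

theorem stepT_spec {u : List Bool → ℕ → Option Bool}
    (hex : ∀ σ j, ∃ p, okB u σ j (dec3 p) = true) (σ : List Bool) (j : ℕ) :
    okB u σ j (stepT u σ j) = true :=
  leastN_spec (P := fun p => okB u σ j (dec3 p)) (hex σ j)

theorem computable_stepT {u : List Bool → ℕ → Option Bool} (hu : Primrec₂ u)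
    (hex : ∀ σ j, ∃ p, okB u σ j (dec3 p) = true) :
    Computable (fun a : List Bool × ℕ => stepT u a.1 a.2) := by
  have h0 : Computable (fun q : (List Bool × ℕ) × ℕ => (q.1, dec3 q.2)) :=
    Computable.pair Computable.fst (computable_dec3.comp Computable.snd)
  have h1 : Computable (fun q : (List Bool × ℕ) × ℕ => okB u q.1.1 q.1.2 (dec3 q.2)) :=
    Computable.comp (f := fun q : (List Bool × ℕ) × ((List Bool × List Bool) × ℕ) =>
      okB u q.1.1 q.1.2 q.2) (g := fun q : (List Bool × ℕ) × ℕ => (q.1, dec3 q.2))
      (primrec_okB hu).to_comp h0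
  have h2 : Computable₂ (fun (a : List Bool × ℕ) (p : ℕ) => okB u a.1 a.2 (dec3 p)) := h1
  have h3 : Computable (fun a : List Bool × ℕ => leastN fun p => okB u a.1 a.2 (dec3 p)) :=
    computable_leastN h2 fun a => hex a.1 a.2
  exact Computable.comp (f := dec3)
    (g := fun a : List Bool × ℕ => leastN fun p => okB u a.1 a.2 (dec3 p)) computable_dec3 h3

/-- The branch of the least splitting of `σ` at level `j` chosen by the bit `b`. -/
noncomputable def child (u : List Bool → ℕ → Option Bool) (σ : List Bool) (j : ℕ) (b : Bool) :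
    List Bool :=
  cond b (stepT u σ j).1.2 (stepT u σ j).1.1

theorem computable_child {u : List Bool → ℕ → Option Bool} (hu : Primrec₂ u)
    (hex : ∀ σ j, ∃ p, okB u σ j (dec3 p) = true) :
    Computable (fun r : (List Bool × ℕ) × Bool => child u r.1.1 r.1.2 r.2) := by
  have h1 : Computable (fun r : (List Bool × ℕ) × Bool => stepT u r.1.1 r.1.2) :=
    (computable_stepT hu hex).comp Computable.fst
  exact Computable.cond Computable.snd (Computable.snd.comp (Computable.fst.comp h1))
    (Computable.fst.comp (Computable.fst.comp h1))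

theorem child_ext {u : List Bool → ℕ → Option Bool}
    (hex : ∀ σ j, ∃ p, okB u σ j (dec3 p) = true) (σ : List Bool) (j : ℕ) (b : Bool) :
    σ ++ [b] <+: child u σ j b := by
  have h := (okB_iff u σ j _).mp (stepT_spec hex σ j)
  cases b
  · exact h.1
  · exact h.2.1

theorem child_some {u : List Bool → ℕ → Option Bool}
    (hex : ∀ σ j, ∃ p, okB u σ j (dec3 p) = true) (σ : List Bool) (j : ℕ) (b : Bool) :
    ∃ v, u (child u σ j b) j = some v := by
  have h := (okB_iff u σ j _).mp (stepT_spec hex σ j)
  cases b
  · exact h.2.2.1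
  · exact h.2.2.2.1

theorem child_split {u : List Bool → ℕ → Option Bool}
    (hex : ∀ σ j, ∃ p, okB u σ j (dec3 p) = true) (σ : List Bool) (j : ℕ) :
    ∃ b0 b1, u (child u σ j false) (stepT u σ j).2 = some b0 ∧
      u (child u σ j true) (stepT u σ j).2 = some b1 ∧ b0 ≠ b1 :=
  ((okB_iff u σ j _).mp (stepT_spec hex σ j)).2.2.2.2

/-- The string reached in the tree of least splittings after `j` levels, along the bits `β`. -/
noncomputable def pathB (u : List Bool → ℕ → Option Bool) (β : ℕ → Bool) (j : ℕ) : List Bool :=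
  Nat.rec (motive := fun _ => List Bool) [] (fun y acc => child u acc y (β y)) j

theorem pathB_zero (u : List Bool → ℕ → Option Bool) (β : ℕ → Bool) : pathB u β 0 = [] := rfl

theorem pathB_succ (u : List Bool → ℕ → Option Bool) (β : ℕ → Bool) (j : ℕ) :
    pathB u β (j + 1) = child u (pathB u β j) j (β j) := rfl

theorem pathB_congr (u : List Bool → ℕ → Option Bool) {β β' : ℕ → Bool} {j : ℕ}
    (h : ∀ y, y < j → β y = β' y) : pathB u β j = pathB u β' j := by
  induction j with
  | zero => rfl
  | succ j ih =>
    rw [pathB_succ, pathB_succ, ih fun y hy => h y (by omega), h j (Nat.lt_succ_self j)]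

theorem pathB_le {u : List Bool → ℕ → Option Bool}
    (hex : ∀ σ j, ∃ p, okB u σ j (dec3 p) = true) (β : ℕ → Bool) (j : ℕ) :
    pathB u β j <+: pathB u β (j + 1) := by
  rw [pathB_succ]
  exact (List.prefix_append _ _).trans (child_ext hex _ j (β j))

theorem pathB_len {u : List Bool → ℕ → Option Bool}
    (hex : ∀ σ j, ∃ p, okB u σ j (dec3 p) = true) (β : ℕ → Bool) (j : ℕ) :
    j ≤ (pathB u β j).length := by
  induction j with
  | zero => exact Nat.zero_le _
  | succ j ih =>
    rw [pathB_succ]
    have := (child_ext hex (pathB u β j) j (β j)).length_le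
    simp only [List.length_append, List.length_singleton] at this
    omega

theorem pathB_some {u : List Bool → ℕ → Option Bool}
    (hex : ∀ σ j, ∃ p, okB u σ j (dec3 p) = true) (β : ℕ → Bool) (j : ℕ) :
    ∃ v, u (pathB u β (j + 1)) j = some v := by
  rw [pathB_succ]
  exact child_some hex _ j (β j)

/-- Splittings exist above every string, for a procedure that is sound for an injective map
and answers everywhere on a dense set of reals. -/
theorem exists_split (G : Set ℕ → Set ℕ) (hinj : Function.Injective G)
    (u : List Bool → ℕ → Option Bool)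
    (hmono : ∀ σ τ n b, σ <+: τ → u σ n = some b → u τ n = some b)
    (hsound : ∀ σ n b Z, Ext σ Z → u σ n = some b → b = bit (G Z) n)
    (hdense : ∀ σ, ∃ Z, Ext σ Z ∧ ∀ n, ∃ k b, u (pref Z k) n = some b)
    (σ : List Bool) (j : ℕ) : ∃ p, okB u σ j (dec3 p) = true := by
  obtain ⟨Z0, hZ0, hT0⟩ := hdense (σ ++ [false])
  obtain ⟨Z1, hZ1, hT1⟩ := hdense (σ ++ [true])
  have hne : Z0 ≠ Z1 := by
    intro h
    have h0 := (ext_iff' _ _).mp hZ0 σ.length false (by simp)
    have h1 := (ext_iff' _ _).mp hZ1 σ.length true (by simp)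
    rw [h] at h0; rw [h0] at h1; cases h1
  have hGne : G Z0 ≠ G Z1 := fun h => hne (hinj h)
  obtain ⟨n, hn⟩ : ∃ n, bit (G Z0) n ≠ bit (G Z1) n := by
    by_contra hc
    apply hGne
    ext i
    refine (bit_eq_bit_iff _ _ _ _).mp ?_
    by_contra hi
    exact hc ⟨i, hi⟩
  obtain ⟨k0, b0, hk0⟩ := hT0 j
  obtain ⟨k0', b0', hk0'⟩ := hT0 n
  obtain ⟨k1, b1, hk1⟩ := hT1 j
  obtain ⟨k1', b1', hk1'⟩ := hT1 n
  obtain ⟨K0, hK0⟩ : ∃ K0, K0 = max (max k0 k0') (σ.length + 1) := ⟨_, rfl⟩
  obtain ⟨K1, hK1⟩ : ∃ K1, K1 = max (max k1 k1') (σ.length + 1) := ⟨_, rfl⟩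
  have a1 : k0 ≤ K0 := by rw [hK0]; exact (le_max_left _ _).trans (le_max_left _ _)
  have a2 : k0' ≤ K0 := by rw [hK0]; exact (le_max_right _ _).trans (le_max_left _ _)
  have a3 : σ.length + 1 ≤ K0 := by rw [hK0]; exact le_max_right _ _
  have a4 : k1 ≤ K1 := by rw [hK1]; exact (le_max_left _ _).trans (le_max_left _ _)
  have a5 : k1' ≤ K1 := by rw [hK1]; exact (le_max_right _ _).trans (le_max_left _ _)
  have a6 : σ.length + 1 ≤ K1 := by rw [hK1]; exact le_max_right _ _
  refine ⟨Encodable.encode ((pref Z0 K0, pref Z1 K1), n), ?_⟩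
  rw [dec3_encode, okB_iff]
  refine ⟨hZ0.to_pref (by simpa using a3), hZ1.to_pref (by simpa using a6),
    ⟨b0, hmono _ _ _ _ (pref_le Z0 a1) hk0⟩, ⟨b1, hmono _ _ _ _ (pref_le Z1 a4) hk1⟩,
    b0', b1', hmono _ _ _ _ (pref_le Z0 a2) hk0', hmono _ _ _ _ (pref_le Z1 a5) hk1', ?_⟩
  have e0 := hsound _ n b0' Z0 (ext_pref Z0 k0') hk0'
  have e1 := hsound _ n b1' Z1 (ext_pref Z1 k1') hk1'
  rw [e0, e1]; exact hn

theorem computable_pathS {u : List Bool → ℕ → Option Bool} (hu : Primrec₂ u)
    (hex : ∀ σ j, ∃ p, okB u σ j (dec3 p) = true) :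
    Computable (fun ξ : List Bool => pathB u (fun y => (ξ[y]?).getD false) ξ.length) := by
  have hchild := computable_child hu hex
  have h1 : Computable (fun r : List Bool × (ℕ × List Bool) =>
      ((r.2.2, r.2.1), (r.1[r.2.1]?).getD false)) :=
    Computable.pair
      (Computable.pair (Computable.snd.comp Computable.snd) (Computable.fst.comp Computable.snd))
      (Computable.option_getD
        (Computable.list_getElem?.comp Computable.fst (Computable.fst.comp Computable.snd))
        (Computable.const false))
  have hh : Computable₂ (fun (ξ : List Bool) (q : ℕ × List Bool) =>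
      child u q.2 q.1 ((ξ[q.1]?).getD false)) :=
    Computable.comp (f := fun r : (List Bool × ℕ) × Bool => child u r.1.1 r.1.2 r.2)
      (g := fun r : List Bool × (ℕ × List Bool) => ((r.2.2, r.2.1), (r.1[r.2.1]?).getD false))
      hchild h1
  exact (Computable.nat_rec Computable.list_length (Computable.const []) hh).of_eq fun ξ => rfl

/-- One bit of the branch through `σ` at level `y`, read off from a string `ω` of bits of the
image: compare the bit of `ω` at the position where the two branches are told apart with the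
answer of `u` on the `true` branch. -/
noncomputable def decBit (u : List Bool → ℕ → Option Bool) (ω σ : List Bool) (y : ℕ) :
    Option Bool :=
  (ω[(stepT u σ y).2]?).map fun w =>
    decide (some w = u (child u σ y true) (stepT u σ y).2)

/-- The string reached after `j` levels, read off from a string `ω` of bits of the image. -/
noncomputable def decS (u : List Bool → ℕ → Option Bool) (ω : List Bool) (j : ℕ) :
    Option (List Bool) :=
  Nat.rec (motive := fun _ => Option (List Bool)) (some [])
    (fun y IH => IH.bind fun σ => (decBit u ω σ y).map fun b => child u σ y b) j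

/-- The `n`-th bit of the branch, read off from a string `ω` of bits of the image. -/
noncomputable def decX (u : List Bool → ℕ → Option Bool) (ω : List Bool) (n : ℕ) : Option Bool :=
  (decS u ω n).bind fun σ => decBit u ω σ n

theorem decS_zero (u : List Bool → ℕ → Option Bool) (ω : List Bool) : decS u ω 0 = some [] := rfl

theorem decS_succ (u : List Bool → ℕ → Option Bool) (ω : List Bool) (j : ℕ) :
    decS u ω (j + 1) =
      (decS u ω j).bind fun σ => (decBit u ω σ j).map fun b => child u σ j b := rfl

theorem computable_decBit {u : List Bool → ℕ → Option Bool} (hu : Primrec₂ u)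
    (hex : ∀ σ j, ∃ p, okB u σ j (dec3 p) = true) :
    Computable (fun r : (List Bool × List Bool) × ℕ => decBit u r.1.1 r.1.2 r.2) := by
  have hσy : Computable (fun r : (List Bool × List Bool) × ℕ => (r.1.2, r.2)) :=
    Computable.pair (Computable.snd.comp Computable.fst) Computable.snd
  have hst : Computable (fun r : (List Bool × List Bool) × ℕ => stepT u r.1.2 r.2) :=
    Computable.comp (f := fun a : List Bool × ℕ => stepT u a.1 a.2)
      (g := fun r : (List Bool × List Bool) × ℕ => (r.1.2, r.2)) (computable_stepT hu hex) hσy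
  have hn : Computable (fun r : (List Bool × List Bool) × ℕ => (stepT u r.1.2 r.2).2) :=
    Computable.snd.comp hst
  have hget : Computable (fun r : (List Bool × List Bool) × ℕ =>
      r.1.1[(stepT u r.1.2 r.2).2]?) :=
    Computable.list_getElem?.comp (Computable.fst.comp Computable.fst) hn
  have hch : Computable (fun r : (List Bool × List Bool) × ℕ => child u r.1.2 r.2 true) :=
    Computable.comp (f := fun r : (List Bool × ℕ) × Bool => child u r.1.1 r.1.2 r.2)
      (g := fun r : (List Bool × List Bool) × ℕ => ((r.1.2, r.2), true))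
      (computable_child hu hex) (Computable.pair hσy (Computable.const true))
  have hval : Computable (fun r : (List Bool × List Bool) × ℕ =>
      u (child u r.1.2 r.2 true) (stepT u r.1.2 r.2).2) :=
    hu.to_comp.comp hch hn
  have hdec : Computable₂ (fun (a : Option Bool) (b : Option Bool) => decide (a = b)) :=
    (Primrec.eq (α := Option Bool)).decide.to_comp
  have hg : Computable₂ (fun (r : (List Bool × List Bool) × ℕ) (w : Bool) =>
      decide (some w = u (child u r.1.2 r.2 true) (stepT u r.1.2 r.2).2)) :=
    hdec.comp (Computable.option_some.comp Computable.snd) (hval.comp Computable.fst)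
  exact Computable.option_map hget hg

theorem computable_decS {u : List Bool → ℕ → Option Bool} (hu : Primrec₂ u)
    (hex : ∀ σ j, ∃ p, okB u σ j (dec3 p) = true) :
    Computable (fun a : List Bool × ℕ => decS u a.1 a.2) := by
  have hB : Computable (fun s : ((List Bool × ℕ) × (ℕ × Option (List Bool))) × List Bool =>
      decBit u s.1.1.1 s.2 s.1.2.1) :=
    Computable.comp (f := fun r : (List Bool × List Bool) × ℕ => decBit u r.1.1 r.1.2 r.2)
      (g := fun s : ((List Bool × ℕ) × (ℕ × Option (List Bool))) × List Bool =>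
        ((s.1.1.1, s.2), s.1.2.1))
      (computable_decBit hu hex)
      (Computable.pair (Computable.pair (Computable.fst.comp (Computable.fst.comp Computable.fst))
        Computable.snd) (Computable.fst.comp (Computable.snd.comp Computable.fst)))
  have hC : Computable₂ (fun (s : ((List Bool × ℕ) × (ℕ × Option (List Bool))) × List Bool)
      (b : Bool) => child u s.2 s.1.2.1 b) :=
    Computable.comp (f := fun r : (List Bool × ℕ) × Bool => child u r.1.1 r.1.2 r.2)
      (g := fun t : (((List Bool × ℕ) × (ℕ × Option (List Bool))) × List Bool) × Bool =>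
        ((t.1.2, t.1.1.2.1), t.2))
      (computable_child hu hex)
      (Computable.pair (Computable.pair (Computable.snd.comp Computable.fst)
        (Computable.fst.comp (Computable.snd.comp (Computable.fst.comp Computable.fst))))
        Computable.snd)
  have hg : Computable₂ (fun (r : (List Bool × ℕ) × (ℕ × Option (List Bool))) (σ : List Bool) =>
      (decBit u r.1.1 σ r.2.1).map fun b => child u σ r.2.1 b) :=
    Computable.option_map hB hC
  have hh : Computable₂ (fun (a : List Bool × ℕ) (q : ℕ × Option (List Bool)) =>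
      q.2.bind fun σ => (decBit u a.1 σ q.1).map fun b => child u σ q.1 b) :=
    Computable.option_bind (Computable.snd.comp Computable.snd) hg
  exact (Computable.nat_rec Computable.snd (Computable.const (some [])) hh).of_eq fun a => rfl

theorem computable_decX {u : List Bool → ℕ → Option Bool} (hu : Primrec₂ u)
    (hex : ∀ σ j, ∃ p, okB u σ j (dec3 p) = true) : Computable₂ (decX u) := by
  have hB : Computable₂ (fun (a : List Bool × ℕ) (σ : List Bool) => decBit u a.1 σ a.2) :=
    Computable.comp (f := fun r : (List Bool × List Bool) × ℕ => decBit u r.1.1 r.1.2 r.2)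
      (g := fun s : (List Bool × ℕ) × List Bool => ((s.1.1, s.2), s.1.2))
      (computable_decBit hu hex)
      (Computable.pair (Computable.pair (Computable.fst.comp Computable.fst) Computable.snd)
        (Computable.snd.comp Computable.fst))
  exact Computable.option_bind (computable_decS hu hex) hB

theorem decBit_val {u : List Bool → ℕ → Option Bool}
    (hex : ∀ σ j, ∃ p, okB u σ j (dec3 p) = true) (G : Set ℕ → Set ℕ)
    (hsound : ∀ σ n b Z, Ext σ Z → u σ n = some b → b = bit (G Z) n)
    (β : ℕ → Bool) (Z : Set ℕ) (hZ : ∀ j, Ext (pathB u β j) Z) (y : ℕ) :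
    decide (some (bit (G Z) (stepT u (pathB u β y) y).2) =
      u (child u (pathB u β y) y true) (stepT u (pathB u β y) y).2) = β y := by
  obtain ⟨b0, b1, h0, h1, hne⟩ := child_split hex (pathB u β y) y
  have hE := hZ (y + 1)
  rw [pathB_succ] at hE
  rw [h1]
  cases hb : β y
  · rw [hb] at hE
    have := hsound _ _ b0 Z hE h0
    rw [← this]
    simpa using hne
  · rw [hb] at hE
    have := hsound _ _ b1 Z hE h1
    rw [← this]
    simp

theorem decBit_sound {u : List Bool → ℕ → Option Bool}
    (hex : ∀ σ j, ∃ p, okB u σ j (dec3 p) = true) (G : Set ℕ → Set ℕ)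
    (hsound : ∀ σ n b Z, Ext σ Z → u σ n = some b → b = bit (G Z) n)
    (β : ℕ → Bool) (Z : Set ℕ) (hZ : ∀ j, Ext (pathB u β j) Z) {ω : List Bool}
    (hω : Ext ω (G Z)) (y : ℕ) {b : Bool} (h : decBit u ω (pathB u β y) y = some b) :
    b = β y := by
  unfold decBit at h
  rw [Option.map_eq_some_iff] at h
  obtain ⟨w, hw, rfl⟩ := h
  have e : bit (G Z) (stepT u (pathB u β y) y).2 = w := (ext_iff' _ _).mp hω _ _ hw
  rw [← e]
  exact decBit_val hex G hsound β Z hZ y

theorem decBit_total {u : List Bool → ℕ → Option Bool}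
    (hex : ∀ σ j, ∃ p, okB u σ j (dec3 p) = true) (G : Set ℕ → Set ℕ)
    (hsound : ∀ σ n b Z, Ext σ Z → u σ n = some b → b = bit (G Z) n)
    (β : ℕ → Bool) (Z : Set ℕ) (hZ : ∀ j, Ext (pathB u β j) Z) {ω : List Bool}
    (hω : Ext ω (G Z)) (y : ℕ) (hl : (stepT u (pathB u β y) y).2 < ω.length) :
    decBit u ω (pathB u β y) y = some (β y) := by
  unfold decBit
  have e : ω[(stepT u (pathB u β y) y).2]? = some (bit (G Z) (stepT u (pathB u β y) y).2) := by
    rw [List.getElem?_eq_getElem hl]
    congr 1
    exact (ext_iff _ _).mp hω _ hl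
  rw [e, Option.map_some, decBit_val hex G hsound β Z hZ y]

theorem decS_sound {u : List Bool → ℕ → Option Bool}
    (hex : ∀ σ j, ∃ p, okB u σ j (dec3 p) = true) (G : Set ℕ → Set ℕ)
    (hsound : ∀ σ n b Z, Ext σ Z → u σ n = some b → b = bit (G Z) n)
    (β : ℕ → Bool) (Z : Set ℕ) (hZ : ∀ j, Ext (pathB u β j) Z) {ω : List Bool}
    (hω : Ext ω (G Z)) (j : ℕ) : ∀ σ, decS u ω j = some σ → σ = pathB u β j := by
  induction j with
  | zero =>
    intro σ h
    rw [decS_zero] at h
    exact (Option.some.inj h).symm
  | succ j ih =>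
    intro σ' h
    rw [decS_succ, Option.bind_eq_some_iff] at h
    obtain ⟨σ, hσ, h2⟩ := h
    rw [Option.map_eq_some_iff] at h2
    obtain ⟨b, hb, rfl⟩ := h2
    have e := ih σ hσ
    subst e
    rw [decBit_sound hex G hsound β Z hZ hω j hb, pathB_succ]

theorem decS_total {u : List Bool → ℕ → Option Bool}
    (hex : ∀ σ j, ∃ p, okB u σ j (dec3 p) = true) (G : Set ℕ → Set ℕ)
    (hsound : ∀ σ n b Z, Ext σ Z → u σ n = some b → b = bit (G Z) n)
    (β : ℕ → Bool) (Z : Set ℕ) (hZ : ∀ j, Ext (pathB u β j) Z) (j : ℕ) :
    ∃ K, ∀ ω, Ext ω (G Z) → K ≤ ω.length → decS u ω j = some (pathB u β j) := by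
  induction j with
  | zero => exact ⟨0, fun ω _ _ => rfl⟩
  | succ j ih =>
    obtain ⟨K, hK⟩ := ih
    refine ⟨max K ((stepT u (pathB u β j) j).2 + 1), fun ω hω hl => ?_⟩
    have h1 : K ≤ ω.length := (le_max_left _ _).trans hl
    have h2 : (stepT u (pathB u β j) j).2 < ω.length :=
      lt_of_lt_of_le (Nat.lt_succ_self _) ((le_max_right _ _).trans hl)
    rw [decS_succ, hK ω hω h1, Option.bind_some,
      decBit_total hex G hsound β Z hZ hω j h2, Option.map_some, pathB_succ]

/-- For an injective map `G` of Cantor space with a primitive recursive string procedure that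
is monotone, never gives a wrong bit of `G Z`, and answers everywhere on a dense set of reals:
every real `X` is Turing equivalent to a real `Z` such that `G Z` is Turing equivalent to `Z`.
More exactly, `Z` is computable from `X`, `X` from `G Z`, and `G Z` from `Z`. -/
theorem perfect_fix (G : Set ℕ → Set ℕ) (hinj : Function.Injective G)
    (u : List Bool → ℕ → Option Bool) (hu : Primrec₂ u)
    (hmono : ∀ σ τ n b, σ <+: τ → u σ n = some b → u τ n = some b)
    (hsound : ∀ σ n b Z, Ext σ Z → u σ n = some b → b = bit (G Z) n)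
    (hdense : ∀ σ, ∃ Z, Ext σ Z ∧ ∀ n, ∃ k b, u (pref Z k) n = some b) (X : Set ℕ) :
    ∃ Z, TLe Z X ∧ TLe X (G Z) ∧ TLe (G Z) Z := by
  have hex := exists_split G hinj u hmono hsound hdense
  have hch : ∀ t, pathB u (bit X) t <+: pathB u (bit X) (t + 1) := pathB_le hex (bit X)
  have hZ : ∀ j, Ext (pathB u (bit X) j) (chainLim (pathB u (bit X))) := ext_chainLim hch
  refine ⟨chainLim (pathB u (bit X)), ?_, ?_, ?_⟩
  · have hpath : ∀ k, pathB u (fun y => ((pref X k)[y]?).getD false) k = pathB u (bit X) k := by
      intro k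
      apply pathB_congr
      intro y hy
      rw [pref_getElem?, if_pos hy]; rfl
    refine TLe_of_use (fun ξ n => (pathB u (fun y => (ξ[y]?).getD false) ξ.length)[n]?) ?_ ?_ ?_
    · exact Computable.list_getElem?.comp ((computable_pathS hu hex).comp Computable.fst)
        Computable.snd
    · intro n
      refine ⟨n + 1, ?_⟩
      show (pathB u (fun y => ((pref X (n + 1))[y]?).getD false) (pref X (n + 1)).length)[n]? = _
      rw [length_pref, hpath]
      have hlen := pathB_len hex (bit X) (n + 1)
      have hn : n < (pathB u (bit X) (n + 1)).length := by omega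
      rw [List.getElem?_eq_getElem hn]
      congr 1
      exact (ext_iff _ _).mp (hZ (n + 1)) n hn
    · intro n k b hb
      have hb' : (pathB u (fun y => ((pref X k)[y]?).getD false) (pref X k).length)[n]? =
          some b := hb
      rw [length_pref, hpath] at hb'
      exact ((ext_iff' _ _).mp (hZ k) n b hb').symm
  · refine TLe_of_use (decX u) (computable_decX hu hex) ?_ ?_
    · intro n
      obtain ⟨K, hK⟩ := decS_total hex G hsound (bit X) _ hZ n
      obtain ⟨k, hk⟩ : ∃ k, k = max K ((stepT u (pathB u (bit X) n) n).2 + 1) := ⟨_, rfl⟩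
      have h1 : K ≤ k := by rw [hk]; exact le_max_left _ _
      have h2 : (stepT u (pathB u (bit X) n) n).2 < k := by
        rw [hk]; exact lt_of_lt_of_le (Nat.lt_succ_self _) (le_max_right _ _)
      refine ⟨k, ?_⟩
      unfold decX
      rw [hK _ (ext_pref _ k) (by rw [length_pref]; exact h1), Option.bind_some]
      exact decBit_total hex G hsound (bit X) _ hZ (ext_pref _ k) n
        (by rw [length_pref]; exact h2)
    · intro n k b hb
      unfold decX at hb
      rw [Option.bind_eq_some_iff] at hb
      obtain ⟨σ, hσ, hb2⟩ := hb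
      have e := decS_sound hex G hsound (bit X) _ hZ (ext_pref _ k) n σ hσ
      subst e
      exact decBit_sound hex G hsound (bit X) _ hZ (ext_pref _ k) n hb2
  · refine TLe_of_use u hu.to_comp ?_ ?_
    · intro n
      obtain ⟨v, hv⟩ := pathB_some hex (bit X) n
      refine ⟨(pathB u (bit X) (n + 1)).length, ?_⟩
      have e : pref (chainLim (pathB u (bit X))) (pathB u (bit X) (n + 1)).length =
          pathB u (bit X) (n + 1) := hZ (n + 1)
      rw [e, hv]
      congr 1
      exact hsound _ n v _ (hZ (n + 1)) hv
    · intro n k b hb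
      exact hsound _ n b _ (ext_pref _ k) hb

end Vale.Agent.Lib.P327
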