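import Mathlib
import Vale.Agent.Lib.P327.Perfect

/-!
Homeomorphisms of Cantor space that are uniformly invariant under finite modifications in one
direction (the map itself, or its inverse) induce only the trivial automorphism of the Turing
degrees.
-/

namespace Vale.Agent.Lib.P327

/-- If `F` is a homeomorphism of Cantor space with inverse `G`, `F` is uniformly invariant under
finite modifications and `F` preserves Turing reducibility, then every real `X` is Turing
equivalent to a real `Z` such that `G Z` is Turing equivalent to `Z`. -/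
theorem fix_of_tail (F G : Set ℕ → Set ℕ) (hGF : ∀ X, G (F X) = X) (hFG : ∀ Z, F (G Z) = Z)
    (hFc : Cont F) (hGc : Cont G) (hFt : Tail F)
    (hmF : ∀ X Y, TLe X Y → TLe (F X) (F Y)) (X : Set ℕ) :
    ∃ Z, TLe Z X ∧ TLe X (G Z) ∧ TLe (G Z) Z := by
  have hex : ∀ a : Fin 4, ∃ g, Approx g (conj F G (gate a)) :=
    approx_gate F G hGF hFG hFc hGc hFt hmF
  choose gg hgg using hex
  obtain ⟨u, hu, hsound, U, hU, htot⟩ := main_tech_u F G hGF hFG hFc hGc gg hgg
  have hinj : Function.Injective G := by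
    intro Z1 Z2 h
    have := congrArg F h
    rwa [hFG, hFG] at this
  refine perfect_fix G hinj (mclo u) (primrec_mclo hu) ?_ ?_ ?_ X
  · intro σ τ n b hst h
    exact mclo_mono hst h
  · intro σ n b Z hZ h
    obtain ⟨k, hk⟩ := mclo_some h
    exact hsound _ n b Z (Ext.mono (List.take_prefix k σ) hZ) hk
  · intro σ
    obtain ⟨Z, hZ, hZU⟩ := DO_inter_dense U hU σ
    refine ⟨Z, hZ, fun n => ?_⟩
    obtain ⟨k, v, hv⟩ := htot Z hZU n
    have hs : u ((pref Z k).take k) n ≠ none := by
      rw [List.take_of_length_le (by rw [length_pref]), hv]; simp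
    obtain ⟨b, hb⟩ := mclo_of hs
    exact ⟨k, b, hb⟩

/-- A homeomorphism `F` of Cantor space with inverse `G`, such that `F` or `G` is uniformly
invariant under finite modifications, induces only the trivial automorphism of the Turing
degrees. -/
theorem one_sided_trivial (F G : Set ℕ → Set ℕ) (hGF : ∀ X, G (F X) = X)
    (hFG : ∀ Y, F (G Y) = Y) (hFc : Cont F) (hGc : Cont G) (hT : Tail F ∨ Tail G)
    (π : Deg → Deg) (hπ : IsAut π) (hF : ∀ X, π (deg X) = deg (F X)) : ∀ d, π d = d := by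
  have hmF : ∀ X Y, TLe X Y → TLe (F X) (F Y) := by
    intro X Y h
    have h1 : Deg.le (π (deg X)) (π (deg Y)) := (hπ.2 _ _).mp ((deg_le_deg _ _).mpr h)
    rw [hF, hF] at h1
    exact (deg_le_deg _ _).mp h1
  have hmG : ∀ X Y, TLe X Y → TLe (G X) (G Y) := by
    intro X Y h
    have h1 : Deg.le (π (deg (G X))) (π (deg (G Y))) := by
      rw [hF, hF, hFG, hFG]; exact (deg_le_deg _ _).mpr h
    exact (deg_le_deg _ _).mp ((hπ.2 _ _).mpr h1)
  intro d
  obtain ⟨X, rfl⟩ : ∃ X, deg X = d := Quotient.exists_rep d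
  rcases hT with hFt | hGt
  · obtain ⟨Z, h1, h2, h3⟩ := fix_of_tail F G hGF hFG hFc hGc hFt hmF X
    have e1 : deg X = deg (G Z) := (deg_eq_deg _ _).mpr ⟨h2, h3.trans h1⟩
    have e2 : deg Z = deg X := (deg_eq_deg _ _).mpr ⟨h1, h2.trans h3⟩
    rw [e1, hF, hFG, e2, e1]
  · obtain ⟨W, h1, h2, h3⟩ := fix_of_tail G F hFG hGF hGc hFc hGt hmG X
    have e1 : deg X = deg W := (deg_eq_deg _ _).mpr ⟨h2.trans h3, h1⟩
    have e2 : deg (F W) = deg W := (deg_eq_deg _ _).mpr ⟨h3, h1.trans h2⟩
    rw [e1, hF, e2]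

end Vale.Agent.Lib.P327
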